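import Vale.Agent.P356.B.Basic

/-!
Take `kk = 2^(10k)/(G+1)`, `B = 2^(9k+1)`, `r = s/2^(9k) + 1`; for large `k`,
`δ^kk ≤ 2^(-2^(9k)-1)` (choose `n₀` with `δ^n₀ ≤ 1/2`) and `17^m 2^(-B) ≤ 2^(-2^(9k)-1)`.
`κ = 2 B r / m = 2^(5k+2) r`, `κ d / t = 2^(8k+c₁+2) r`, `r ≤ 2^(31k)+1`. Every base is at most
`2^(60k)`; the exponents add up to at most `2^(8k+c₁+4) r + 2^(10k+1)`; and
`60 k 2^(c₁+4) ≤ 2^k`, `2^(9k) r ≤ s + 2^(9k)`.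
-/

namespace Vale.Agent.P356

open Finset

theorem bnum_sq (k : ℕ) (hk : 4 ≤ k) : k * k ≤ 2 ^ k := by
  induction k, hk using Nat.le_induction with
  | base => norm_num
  | succ k hk ih =>
    rw [pow_succ]
    nlinarith

theorem bnum_main {x c k s r : ℕ} {ρ₀ : ℝ} (hx2 : 2 ≤ x) (hxk : x = 2 ^ k) (hc : 1 ≤ c)
    (hck : 1300 * k * c ≤ x) (hcx : c ≤ x) (hρ1 : 1 ≤ ρ₀) (hρ : ρ₀ ≤ x) (hr : r ≤ x ^ 41)
    (hrs : x ^ 9 * r ≤ s + x ^ 9) :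
    (2 * (((2 * x ^ 9 : ℕ) : ℝ) + 1)) ^ (x ^ 4 * r) *
      pc (x ^ 10) (x ^ 13 * c) (ρ₀ * (x : ℝ) ^ 16) (4 * x ^ 5 * r) ≤ 2 ^ (x ^ 15) * 2 ^ s := by
  have hp : ∀ a, 2 * x ^ a ≤ x ^ (a + 1) := fun a => by
    rw [pow_succ']
    exact Nat.mul_le_mul_right _ hx2
  have hm : ∀ a b, a ≤ b → x ^ a ≤ x ^ b := fun a b h => Nat.pow_le_pow_right (by omega) h
  have h1 : ∀ a, 1 ≤ x ^ a := fun a => Nat.one_le_pow _ _ (by omega)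
  have p9 : 2 * x ^ 9 ≤ x ^ 10 := hp 9
  have p10 : 2 * x ^ 10 ≤ x ^ 11 := hp 10
  have p11 : 2 * x ^ 11 ≤ x ^ 12 := hp 11
  have p13 : 2 * x ^ 13 ≤ x ^ 14 := hp 13
  have p14 : 2 * x ^ 14 ≤ x ^ 15 := hp 14
  have p60 : 2 * x ^ 60 ≤ x ^ 61 := hp 60
  have p61 : 2 * x ^ 61 ≤ x ^ 62 := hp 61
  have p62 : 2 * x ^ 62 ≤ x ^ 63 := hp 62
  have n0 : x ^ 13 * c ≤ x ^ 14 := Nat.mul_le_mul_left _ hcx
  have n1 : 2 * (2 * x ^ 9 + 1) ≤ x ^ 100 := by linarith [hm 12 100 (by norm_num), h1 9]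
  have n2 : x ^ 13 * c + 2 ≤ x ^ 15 := by linarith [h1 13]
  have n3 : 4 * x ^ 5 * r * (x ^ 13 * c) + 1 ≤ x ^ 100 := by
    have a1 : 4 * x ^ 5 * r * (x ^ 13 * c) ≤ 4 * x ^ 5 * x ^ 41 * x ^ 14 :=
      Nat.mul_le_mul (Nat.mul_le_mul_left _ hr) n0
    linarith [hm 63 100 (by norm_num), h1 60]
  have e1 : 4 * x ^ 5 * r * (x ^ 13 * c) / x ^ 10 = 4 * c * x ^ 8 * r :=
    Nat.div_eq_of_eq_mul_left (h1 10) (by ring)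
  have hE : k * 100 * (x ^ 4 * r + (4 * x ^ 5 * r +
      (1 + x ^ 10 + (4 * c * x ^ 8 * r + (4 * x ^ 5 * r + 1))))) ≤ x ^ 15 + s := by
    have a0 : x ^ 8 ≤ c * x ^ 8 := Nat.le_mul_of_pos_left _ hc
    have a1 : x ^ 4 * r ≤ c * x ^ 8 * r :=
      Nat.mul_le_mul_right _ ((hm 4 8 (by norm_num)).trans a0)
    have a2 : x ^ 5 * r ≤ c * x ^ 8 * r :=
      Nat.mul_le_mul_right _ ((hm 5 8 (by norm_num)).trans a0)
    have a3 : x ^ 4 * r + (4 * x ^ 5 * r +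
        (1 + x ^ 10 + (4 * c * x ^ 8 * r + (4 * x ^ 5 * r + 1)))) ≤
          13 * (c * x ^ 8 * r) + 3 * x ^ 10 := by linarith [h1 10]
    have a4 := Nat.mul_le_mul_left (k * 100) a3
    have a5 := Nat.mul_le_mul_right (x ^ 8 * r) hck
    have a6 : 300 * k ≤ x := le_trans (by nlinarith) hck
    have a7 := Nat.mul_le_mul_right (x ^ 10) a6
    linarith [hm 9 14 (by norm_num), hm 11 14 (by norm_num)]
  obtain ⟨X, hX⟩ : ∃ X : ℝ, X = x := ⟨_, rfl⟩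
  have hX2 : 2 ≤ X := by
    rw [hX]
    exact_mod_cast hx2
  have hX1 : 1 ≤ X := by linarith
  have m1 : 2 * (((2 * x ^ 9 : ℕ) : ℝ) + 1) ≤ X ^ 100 := by
    rw [hX]
    exact_mod_cast n1
  have m2 : ((x ^ 13 * c : ℕ) : ℝ) + 2 ≤ X ^ 15 := by
    rw [hX]
    exact_mod_cast n2
  have m3 : ((4 * x ^ 5 * r * (x ^ 13 * c) : ℕ) : ℝ) + 1 ≤ X ^ 100 := by
    rw [hX]
    exact_mod_cast n3
  have m4 : ((x ^ 13 * c : ℕ) : ℝ) + 1 ≤ X ^ 100 := by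
    linarith [pow_le_pow_right₀ hX1 (by norm_num : 15 ≤ 100)]
  have m5 : ((x ^ 10 : ℕ) : ℝ) ≤ X ^ 100 := by
    rw [hX]
    exact_mod_cast hm 10 100 (by norm_num)
  have m6 : 4 * (((x ^ 13 * c : ℕ) : ℝ) + 2) ^ 2 * (ρ₀ * (x : ℝ) ^ 16) ≤ X ^ 100 := by
    have a1 : (4 : ℝ) ≤ X ^ 2 := by nlinarith
    rw [← hX] at hρ ⊢
    calc _ ≤ X ^ 2 * (X ^ 15) ^ 2 * (X * X ^ 16) := by gcongr
      _ = X ^ 49 := by ring
      _ ≤ _ := pow_le_pow_right₀ hX1 (by norm_num)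
  have m7 : 24 * (((x ^ 13 * c : ℕ) : ℝ) + 2) ^ 2 ≤ X ^ 100 := by
    have a1 : (24 : ℝ) ≤ X ^ 5 :=
      le_trans (by norm_num) (pow_le_pow_left₀ (by norm_num) hX2 5)
    calc _ ≤ X ^ 5 * (X ^ 15) ^ 2 := by gcongr
      _ = X ^ 35 := by ring
      _ ≤ _ := pow_le_pow_right₀ hX1 (by norm_num)
  have hXk : X ^ 100 = 2 ^ (k * 100) := by rw [hX, hxk, pow_mul, Nat.cast_pow, Nat.cast_ofNat]
  obtain ⟨Y, hY⟩ : ∃ Y, Y = X ^ 100 := ⟨_, rfl⟩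
  rw [← hY] at m1 m3 m4 m5 m6 m7 hXk
  have hY0 : 0 ≤ Y := by
    rw [hXk]
    positivity
  rw [pc, e1]
  calc _ ≤ Y ^ (x ^ 4 * r) * (Y ^ (4 * x ^ 5 * r) *
        (Y * Y ^ (x ^ 10) * (Y ^ (4 * c * x ^ 8 * r) * Y ^ (4 * x ^ 5 * r + 1)))) := by gcongr
    _ = Y ^ (x ^ 4 * r + (4 * x ^ 5 * r +
        (1 + x ^ 10 + (4 * c * x ^ 8 * r + (4 * x ^ 5 * r + 1))))) := by
      simp only [pow_add Y, pow_one]
    _ ≤ _ := by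
      rw [hXk, ← pow_mul, ← pow_add]
      exact pow_le_pow_right₀ (by norm_num) hE

theorem b_numerics (G c₁ : ℕ) {δ ρ₀ : ℝ} (h0 : 0 ≤ δ) (h1 : δ < 1) (hρ : 1 ≤ ρ₀) :
    ∃ k₀ : ℕ, ∀ k, k₀ ≤ k → ∀ s ≤ 2 ^ (40 * k), ∃ kk B r : ℕ, kk * G ≤ 2 ^ (10 * k) ∧
      (δ ^ kk + 17 ^ (2 ^ (4 * k)) * (1 / 2) ^ B) ^ r ≤ (1 / 2) ^ s ∧
      (2 * ((B : ℝ) + 1)) ^ (2 ^ (4 * k) * r) *
        pc (2 ^ (10 * k)) (2 ^ (13 * k + c₁)) (ρ₀ * 2 ^ (16 * k)) (2 * B * r / 2 ^ (4 * k)) ≤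
        2 ^ (2 ^ (15 * k)) * 2 ^ s := by
  obtain ⟨n₀, hn⟩ := exists_pow_lt_of_lt_one (by norm_num : (0 : ℝ) < 1 / 2) h1
  obtain ⟨A, hA⟩ : ∃ A : ℕ, A = 1300 * 2 ^ c₁ + 2 * (n₀ * G) + ⌈ρ₀⌉₊ + 4 := ⟨_, rfl⟩
  refine ⟨A, fun k hk s hs => ?_⟩
  have hk4 : 4 ≤ k := by omega
  obtain ⟨x, hx⟩ : ∃ x : ℕ, x = 2 ^ k := ⟨_, rfl⟩
  have hAk : A * k ≤ x := hx ▸ (Nat.mul_le_mul_right k hk).trans (bnum_sq k hk4)
  have hAx : A ≤ x := (Nat.le_mul_of_pos_right A (by omega)).trans hAk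
  have hx2 : 2 ≤ x := by omega
  have e : ∀ a, 2 ^ (a * k) = x ^ a := fun a => by rw [hx, mul_comm, pow_mul]
  have e' : (2 : ℝ) ^ (16 * k) = (x : ℝ) ^ 16 := by exact_mod_cast e 16
  have h9 : 0 < x ^ 9 := by positivity
  have hr := Nat.div_add_mod s (x ^ 9)
  have hr' := Nat.mod_lt s h9
  rw [e] at hs
  simp only [pow_add, e, e']
  refine ⟨n₀ * (x ^ 9 + 1), 2 * x ^ 9, s / x ^ 9 + 1, ?_, ?_, ?_⟩
  · have a1 : 2 * (n₀ * G) ≤ x := by omega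
    have a2 := Nat.mul_le_mul_right (x ^ 9) a1
    have a3 := Nat.mul_le_mul_left (n₀ * G) (show 1 ≤ x ^ 9 from h9)
    linarith
  · have a1 : δ ^ (n₀ * (x ^ 9 + 1)) ≤ (1 / 2) ^ (x ^ 9 + 1) := by
      rw [pow_mul]
      exact pow_le_pow_left₀ (by positivity) hn.le _
    have a2 : (17 : ℝ) ^ x ^ 4 * (1 / 2) ^ (2 * x ^ 9) ≤ (1 / 2) ^ (x ^ 9 + 1) := by
      have b1 : 5 * x ^ 4 + (x ^ 9 + 1) ≤ 2 * x ^ 9 := by
        have b2 := Nat.mul_le_mul_right (x ^ 4) (Nat.pow_le_pow_left hx2 5)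
        have b3 : 0 < x ^ 4 := by positivity
        linarith
      calc (17 : ℝ) ^ x ^ 4 * (1 / 2) ^ (2 * x ^ 9)
          ≤ (2 ^ 5) ^ x ^ 4 * (1 / 2) ^ (5 * x ^ 4 + (x ^ 9 + 1)) :=
            mul_le_mul (pow_le_pow_left₀ (by norm_num) (by norm_num) _)
              (pow_le_pow_of_le_one (by norm_num) (by norm_num) b1) (by positivity) (by positivity)
        _ = _ := by
            rw [pow_add, ← pow_mul, ← mul_assoc, ← mul_pow]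
            norm_num
    have a3 : δ ^ (n₀ * (x ^ 9 + 1)) + 17 ^ x ^ 4 * (1 / 2) ^ (2 * x ^ 9) ≤ (1 / 2) ^ x ^ 9 := by
      linarith [pow_succ (1 / 2 : ℝ) (x ^ 9)]
    refine (pow_le_pow_left₀ (by positivity) a3 _).trans ?_
    rw [← pow_mul]
    exact pow_le_pow_of_le_one (by norm_num) (by norm_num) (by linarith)
  · have a1 : 2 * (2 * x ^ 9) * (s / x ^ 9 + 1) / x ^ 4 = 4 * x ^ 5 * (s / x ^ 9 + 1) :=
      Nat.div_eq_of_eq_mul_left (by positivity) (by ring)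
    have a2 : 0 < 2 ^ c₁ := by positivity
    have a3 : 1300 * 2 ^ c₁ * k ≤ A * k := Nat.mul_le_mul_right k (by omega)
    have a4 : s / x ^ 9 + 1 ≤ x ^ 41 := by
      have b1 := Nat.div_le_self s (x ^ 9)
      have b2 := Nat.mul_le_mul_right (x ^ 40) hx2
      have b3 : 0 < x ^ 40 := by positivity
      linarith
    rw [a1]
    refine bnum_main hx2 hx a2 (by linarith) (by omega) hρ ?_ a4
      (by linarith [Nat.zero_le (s % x ^ 9)])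
    exact (Nat.le_ceil ρ₀).trans (Nat.cast_le.2 (by omega))

end Vale.Agent.P356
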