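import Vale.Agent.P356.B.Raw
import Vale.Agent.P356.B.Numer

/-!
`dl_shr`, `agsp_raw` with `t = 2^(10k)`, `m = 2^(4k)`, `nc = c₂ 2^(16k)`, `i = 13k + c₁` where
`4 Jl c₂ ≤ Δ 4^c₁`, `ρ₀ = c₂ (max q 1)^(2G)` (or `q ≥ 1` from `qpos`), `b_numerics`; `Shr.mono`, `MR.mono`.
-/

namespace Vale.Agent.P356

open Finset

theorem agsp_b (q G c₂ : ℕ) (hq : 1 ≤ q) (hc : 1 ≤ c₂) {γ Jl Δ : ℝ} (hγ : 0 < γ) (hJ : 0 ≤ Jl)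
    (hΔ : 0 < Δ) : ∃ k₀ : ℕ, ∀ k, k₀ ≤ k →
    ∀ (ι : Type) [Fintype ι] [DecidableEq ι] (S : LSys ι q G γ Jl Δ) (A : ℕ)
      (cu : Cuts S.toSys A) (c₀ s : ℕ), s ≤ 2 ^ (40 * k) →
      (∀ c', c₀ ≤ c' → c' ≤ c₀ + 2 ^ (14 * k + 2) →
        (univ.filter fun y => cu.col y = c').card ≤ c₂ * 2 ^ (16 * k)) →
      ∃ K : Op ι q, Shr S.Ω K ((1 / 2) ^ s) ∧
        MR cu.Y (Ico c₀ (c₀ + 2 ^ (14 * k + 2))) K (2 ^ (2 ^ (15 * k)) * 2 ^ s) := by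
  obtain ⟨δ, d0, d1, hdl⟩ := dl_shr G hγ
  obtain ⟨c₁, hc₁⟩ := pow_unbounded_of_one_lt (4 * Jl * c₂ / Δ) (by norm_num : (1 : ℝ) < 4)
  rw [div_lt_iff₀' hΔ] at hc₁
  have hρ : (1 : ℝ) ≤ c₂ * (q : ℝ) ^ (2 * G) :=
    one_le_mul_of_one_le_of_one_le (by exact_mod_cast hc) (one_le_pow₀ (by exact_mod_cast hq))
  obtain ⟨k₀, hk⟩ := b_numerics G c₁ d0 d1 hρ
  refine ⟨k₀, fun k h ι _ _ S A cu c₀ s hs hcol => ?_⟩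
  obtain ⟨kk, B, r, h1, h2, h3⟩ := hk k h s hs
  have e1 : 4 * 2 ^ (10 * k) * 2 ^ (4 * k) = 2 ^ (14 * k + 2) := by ring
  have e2 : Jl * (4 * ((2 ^ (10 * k) : ℕ) : ℝ) * ((c₂ * 2 ^ (16 * k) : ℕ) : ℝ)) ≤
      Δ * 4 ^ (13 * k + c₁) := by
    have e3 : (4 : ℝ) ^ (13 * k) = 2 ^ (10 * k) * 2 ^ (16 * k) := by
      rw [show (4 : ℝ) = 2 ^ 2 by norm_num, ← pow_mul, ← pow_add]
      exact congrArg _ (by ring)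
    have e4 := mul_le_mul_of_nonneg_right hc₁.le (by positivity : (0 : ℝ) ≤ 4 ^ (13 * k))
    push_cast
    rw [pow_add]
    refine le_trans (le_of_eq ?_) (e4.trans_eq (by ring))
    rw [e3]
    ring
  obtain ⟨K, k1, k2⟩ := agsp_raw hJ hΔ S d0 (hdl ι q S.toSys) cu (c₀ := c₀) (t := 2 ^ (10 * k))
    (m := 2 ^ (4 * k)) (nc := c₂ * 2 ^ (16 * k)) (i := 13 * k + c₁) Nat.one_le_two_pow
    Nat.one_le_two_pow (Nat.mul_pos hc Nat.one_le_two_pow) (by rw [e1]; exact hcol) e2 h1 B r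
  rw [e1] at k2
  refine ⟨K, k1.mono h2, k2.mono Subset.rfl (le_trans (le_of_eq ?_) h3) (by positivity)⟩
  rw [mul_right_comm (c₂ : ℝ), Nat.cast_mul, Nat.cast_pow, Nat.cast_ofNat]

end Vale.Agent.P356
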