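import Vale.Agent.P356.Defs

/-! The local gap hypothesis for P356. -/

namespace Vale.Agent.P356

open Matrix

/-- Uniform local gap: for every region `U`, the vector `Ω` is an eigenvector of the restricted
Hamiltonian `H_U = ∑_{X ⊆ U} h X` with eigenvalue `E`, and every other eigenvalue of `H_U` is at
least `E + Δ`. -/
def LocalGap {L q : ℕ} (h : Finset (Site L) → Matrix (Conf L q) (Conf L q) ℂ) (Δ : ℝ)
    (Ω : Conf L q → ℂ) : Prop :=
  ∀ U : Finset (Site L), ∃ E : ℝ, (∑ X ∈ U.powerset, h X) *ᵥ Ω = (E : ℂ) • Ω ∧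
    ∀ (μ : ℝ) (v : Conf L q → ℂ), v ≠ 0 → (∑ X ∈ U.powerset, h X) *ᵥ v = (μ : ℂ) • v →
      μ = E ∨ E + Δ ≤ μ

end Vale.Agent.P356
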