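import Vale.Agent.P356.Final
import Vale.Agent.P356.B.Defs

/-! Working definitions for part B of P356 (local gap). No task here. -/

namespace Vale.Agent.P356

open Finset

/-- The sum of the words of length `e` in `U, W` with exactly `j` letters `W`. -/
def EX {𝒜 : Type} [Ring 𝒜] (U W : 𝒜) : ℕ → ℕ → 𝒜
  | 0, 0 => 1
  | 0, _ + 1 => 0
  | e + 1, 0 => U * EX U W e 0
  | e + 1, j + 1 => U * EX U W e (j + 1) + W * EX U W e j

/-- The product `H^e₁ A₁ H^e₂ A₂ ⋯`. -/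
def evp {𝒜 : Type} [Ring 𝒜] (H : 𝒜) (p : List (ℕ × 𝒜)) : 𝒜 :=
  (p.map fun x => H ^ x.1 * x.2).prod

/-- The total degree in `H`. -/
def degp {𝒜 : Type} (p : List (ℕ × 𝒜)) : ℕ := (p.map Prod.fst).sum

/-- The part of `evp (U + W) p` with at most `τ` letters `W`. -/
def TRp {𝒜 : Type} [Ring 𝒜] (U W : 𝒜) : List (ℕ × 𝒜) → ℕ → 𝒜
  | [], _ => 1
  | x :: p, τ => ∑ j ∈ range (τ + 1), EX U W x.1 j * x.2 * TRp U W p (τ - j)

/-- Telescoping increments of the even powers of `P`. -/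
def del {𝒜 : Type} [Ring 𝒜] (P : 𝒜) : ℕ → 𝒜
  | 0 => 1
  | j + 1 => P ^ (2 * (j + 1)) - P ^ (2 * j)

/-- Product of the telescoping series, truncated at total weight `B`. -/
def Lay {𝒜 : Type} [Ring 𝒜] (P : ℕ → 𝒜) : List ℕ → ℕ → 𝒜
  | [], _ => 1
  | a :: l, B => ∑ j ∈ range (B + 1), del (P a) j * Lay P l (B - j)

/-- The rank bound for words in a polynomial of degree `d` over a window of `T` columns. -/
noncomputable def pc (T d : ℕ) (ρ : ℝ) (κ : ℕ) : ℝ :=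
  ((d : ℝ) + 1) ^ κ * (T * (((κ * d : ℕ) : ℝ) + 1) ^ T *
    ((4 * ((d : ℝ) + 2) ^ 2 * ρ) ^ (κ * d / T) * (24 * ((d : ℝ) + 2) ^ 2) ^ (κ + 1)))

variable {ι : Type} [Fintype ι] [DecidableEq ι] {q : ℕ}

/-- Operator norm bound. -/
def Bd (M : Op ι q) (c : ℝ) : Prop := ∀ v, ‖M v‖ ≤ c * ‖v‖

/-- `Pi` is the orthogonal projector onto the kernel of `H`. -/
def IsKer (H Pi : Op ι q) : Prop :=
  Pi.IsSymmetric ∧ Pi * Pi = Pi ∧ (∀ v, H (Pi v) = 0) ∧ ∀ v, H v = 0 → Pi v = v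

/-- A monomial with total weight at most `n` over the `m` windows. -/
def MW (Y : ℕ → Finset ι) (I : ℕ → Finset ℕ) (P : ℕ → Op ι q) (m n : ℕ) (M : Op ι q) : Prop :=
  ∃ κ : ℕ → ℕ, ∑ a ∈ range m, κ a ≤ n ∧ ∀ a < m, Wd (Free Y (I a)) {P a} (κ a) M

/-- A system with locally gapped restricted Hamiltonians `H U = ∑ x, a U x`. -/
structure LSys (ι : Type) [Fintype ι] [DecidableEq ι] (q G : ℕ) (γ Jl Δ : ℝ)
    extends Sys ι q G γ where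
  a : Finset ι → ι → Op ι q
  self : ∀ x, x ∈ X x
  a_symm : ∀ U x, (a U x).IsSymmetric
  a_locX : ∀ U x, Loc (X x) (a U x)
  a_locU : ∀ U x, Loc U (a U x)
  a_zero : ∀ U x, x ∉ U → a U x = 0
  a_pos : ∀ U x v, 0 ≤ (inner ℂ v (a U x v)).re
  a_le : ∀ U x v, (inner ℂ v (a U x v)).re ≤ Jl * ‖v‖ ^ 2
  a_kill : ∀ U x, a U x Ω = 0
  a_abs : ∀ U x v, X x ⊆ U → (∑ y, a U y) v = 0 → p x v = 0
  lgap : ∀ U v, (∀ u, (∑ y, a U y) u = 0 → inner ℂ u v = 0) →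
    Δ * ‖v‖ ^ 2 ≤ (inner ℂ v ((∑ y, a U y) v)).re

/-- Boundary pairs inside `Q`. -/
def bdryIn {L : ℕ} (A Q : Finset (Site L)) : ℕ :=
  (univ.filter fun e : Site L × Site L =>
    e.1 ∈ Q ∧ e.2 ∈ Q ∧ e.1 ∈ A ∧ e.2 ∉ A ∧ dist1 e.1 e.2 = 1).card

end Vale.Agent.P356
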