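import Vale.Agent.P356.B.Geo

/-!
Self-improving step. `W = 2R+1`, `b = W 2^(14k+3)`, `p = 4 W (2^(16k) + 2b + W)` bounds `cross` of
all boxes used (`cross_box`), `nF = 4 (l/b+3)`, `dF = d^nF`. Given a box `D` (if `x1 < x0` or
`y1 < y0` it is empty: `Apx.trivial`), let `d₀` be the least natural number with
`Apx Ω D d₀ (1/2)` (`Nat.find`; `d₀ ≤ q^|D| ≤ q^(2^(32k))`; an `Apx` with real rank `x` gives one with
rank `⌊x⌋₊`, the length of the list; `d₀ ≥ 1`). Boost (`Apx.overlap`, `hboost`) to precision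
`(1/2)^(14k+5)`: `dD = d₀ B^(p (14k+7))`. Cuts `exists_cuts_box`, `I = Ico 1 (1 + 2^(14k+2))`, radius
`c W + R ≤ b`; column sizes at most `4 W (l + 2 (c+1) W) ≤ c₂ 2^(16k)` with `c₂ = 4W(1 + 16 W)`;
`tile_thin`; common error `η' = max (nF η) ((1/2)^(14k+5))`. Choose `s` least with
`8 sqrt dD ≤ 2^s`, so `2^s ≤ 16 sqrt dD` and `s ≤ 2^(40k)` by `hs`. `key`; overlap
`1/(2|I|) = (1/2)^(14k+3)`; `hboost` with `u = 2`; then `D = ((Y c)ᶜ ∪ (Y c \ D))ᶜ`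
(`Apx.compl`, `Apx.union`), error `1/4 + nF η ≤ 1/2`. So
`d₀ ≤ dF^2 · E · sqrt d₀` with `E = 16 · 2^(2^(15k)) · B^(p (28k+12))`, hence `d₀ ≤ (dF^2 E)^2`.
-/

namespace Vale.Agent.P356

open Finset

variable {L q G R : ℕ} {γ : ℝ}

private theorem bcore_abs {ι : Type} [Fintype ι] [DecidableEq ι] {Ω : St ι q} (hΩ : ‖Ω‖ = 1)
    {D : Finset ι} {Y : ℕ → Finset ι} (hY : Monotone Y) {I : Finset ℕ} (hD : ∀ c ∈ I, D ⊆ Y c)
    {Q X₁ X₂ C dF η : ℝ} {s₀ : ℕ} (hQ : (q : ℝ) ^ D.card ≤ Q) (h1 : 1 ≤ X₁) (h2 : 0 ≤ X₂)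
    (hC : 0 ≤ C) (hd : 0 ≤ dF) (hη : 0 ≤ η) (hη' : ((I.card : ℝ) + 1) * η ≤ 1 / 4)
    (hs : 16 * √(Q * X₁) ≤ 2 ^ s₀) (hb : ∀ x, Apx Ω D x (1 / 2) → Apx Ω D (x * X₁) η)
    (hF : ∀ c ∈ I, Apx Ω (Y c \ D) dF η)
    (hK : ∀ s ≤ s₀, ∃ K, Shr Ω K ((1 / 2) ^ s) ∧ MR Y I K (C * 2 ^ s))
    (hbo : ∀ c ∈ I, ∀ χ d', SR (Y c) χ d' → χ ≠ 0 →
      1 / (2 * (I.card : ℝ)) * ‖χ‖ ≤ ‖inner ℂ Ω χ‖ → Apx Ω (Y c) (d' * X₂) (1 / 4)) :
    Apx Ω D ((dF ^ 2 * (16 * C * (X₁ * X₂))) ^ 2) (1 / 2) := by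
  classical
  have ex : ∃ n : ℕ, Apx Ω D n (1 / 2) :=
    ⟨q ^ D.card, (Apx.trivial Ω D).mono (Nat.cast_pow _ _).ge (by norm_num)⟩
  have least : ∀ x, Apx Ω D x (1 / 2) → (Nat.find ex : ℝ) ≤ x := by
    rintro x ⟨χ, ⟨l, l1, l2, l3⟩, k⟩
    exact (Nat.cast_le.2 (Nat.find_min' ex ⟨χ, ⟨l, l1, le_rfl, l3⟩, k⟩)).trans l2
  have h0 := Nat.find_spec ex
  generalize Nat.find ex = n at least h0
  refine h0.mono ?_ le_rfl
  rcases Nat.eq_zero_or_pos n with rfl | hn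
  · rw [Nat.cast_zero]
    positivity
  have n1 : (1 : ℝ) ≤ n := Nat.one_le_cast.2 hn
  have r1 : 1 ≤ √(n * X₁) := Real.one_le_sqrt.2 (one_le_mul_of_one_le_of_one_le n1 h1)
  obtain ⟨s, hs1, hs2⟩ := exists_nat_pow_near (show 1 ≤ 8 * √(n * X₁) by linarith) one_lt_two
  have r2 : (2 : ℝ) ^ (s + 1) ≤ 16 * √(n * X₁) := by
    rw [pow_succ]
    linarith
  have r3 : √(n * X₁) ≤ √(Q * X₁) := Real.sqrt_le_sqrt (mul_le_mul_of_nonneg_right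
    ((least _ ((Apx.trivial Ω D).mono le_rfl (by norm_num))).trans hQ) (by linarith))
  obtain ⟨K, hK1, hK2⟩ := hK (s + 1) ((pow_le_pow_iff_right₀ one_lt_two).1 (by linarith :
    (2 : ℝ) ^ (s + 1) ≤ 2 ^ s₀))
  obtain ⟨c, hc, χ, h3, h4, h5⟩ := key hΩ hY I hD (hb _ h0) (d := fun _ => dF) hF hη' hK1
    (by positivity) (by
      rw [one_div, inv_pow, inv_mul_le_iff₀ (by positivity)]
      linarith) hK2
  have h6 := ((hbo c hc χ _ h3 h4 h5).compl.union (hF c hc)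
    (disjoint_left.2 fun x a b => mem_compl.1 a (mem_sdiff.1 b).1)).compl
  have e : ((Y c)ᶜ ∪ Y c \ D)ᶜ = D := by
    ext x
    have := @hD c hc x
    simp only [mem_compl, mem_union, mem_sdiff]
    tauto
  rw [e] at h6
  have h7 := least _ (h6.mono le_rfl (by linarith [mul_nonneg (Nat.cast_nonneg I.card) hη]))
  have r4 : √(n * X₁) ≤ √n * X₁ := by
    rw [Real.sqrt_mul (by linarith)]
    exact mul_le_mul_of_nonneg_left (Real.sqrt_le_self_iff.2 (Or.inr h1)) (Real.sqrt_nonneg _)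
  have r5 : 0 < √(n : ℝ) := Real.sqrt_pos.2 (by linarith)
  have h8 : √n * √n ≤ dF ^ 2 * (16 * C * (X₁ * X₂)) * √n :=
    calc _ = (n : ℝ) := Real.mul_self_sqrt (by linarith)
      _ ≤ _ := h7
      _ ≤ dF * (C * (16 * (√n * X₁))) * X₂ * dF := by
        gcongr
        linarith
      _ = _ := by ring
  rw [← Real.sq_sqrt (show (0 : ℝ) ≤ n by linarith)]
  exact pow_le_pow_left₀ r5.le (le_of_mul_le_mul_right h8 r5) 2

theorem core_b {k l : ℕ} {B : ℝ} (S : Sys (Site L) q G γ) (hS : ∀ t, S.X t = ball R t)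
    (hB : 1 ≤ B) (hl : l ≤ 2 ^ (16 * k))
    (hagsp : ∀ (cu : Cuts S (L * L)) (s : ℕ), s ≤ 2 ^ (40 * k) →
      (∀ c', 1 ≤ c' → c' ≤ 1 + 2 ^ (14 * k + 2) → (univ.filter fun y => cu.col y = c').card ≤
        4 * (2 * R + 1) * (1 + 16 * (2 * R + 1)) * 2 ^ (16 * k)) →
      ∃ K : Op (Site L) q, Shr S.Ω K ((1 / 2) ^ s) ∧
        MR cu.Y (Ico 1 (1 + 2 ^ (14 * k + 2))) K (2 ^ (2 ^ (15 * k)) * 2 ^ s))
    (hboost : ∀ (Y : Finset (Site L)) (χ : St (Site L) q) (d : ℝ) (w u : ℕ), SR Y χ d → χ ≠ 0 →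
      (1 / 2) ^ w * ‖χ‖ ≤ ‖inner ℂ S.Ω χ‖ →
      Apx S.Ω Y (d * B ^ (S.cross Y * (u + w))) ((1 / 2) ^ u))
    (hs : 16 * √((q : ℝ) ^ (2 ^ (32 * k)) * B ^ (4 * (2 * R + 1) * (2 ^ (16 * k) +
      2 * ((2 * R + 1) * 2 ^ (14 * k + 3)) + (2 * R + 1)) * (14 * k + 7))) ≤ 2 ^ (2 ^ (40 * k)))
    {d η : ℝ} (hd : 1 ≤ d) (hη : 0 ≤ η)
    (hη' : ((2 : ℝ) ^ (14 * k + 2) + 1) *
      (((4 * (l / ((2 * R + 1) * 2 ^ (14 * k + 3)) + 3) : ℕ) : ℝ) * η) ≤ 1 / 4)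
    (h : Small S.Ω ((2 * R + 1) * 2 ^ (14 * k + 3)) d η) :
    Small S.Ω l (((d ^ (4 * (l / ((2 * R + 1) * 2 ^ (14 * k + 3)) + 3))) ^ 2 *
      (16 * 2 ^ (2 ^ (15 * k)) * B ^ (4 * (2 * R + 1) * (2 ^ (16 * k) +
        2 * ((2 * R + 1) * 2 ^ (14 * k + 3)) + (2 * R + 1)) * (28 * k + 12)))) ^ 2) (1 / 2) := by
  intro x0 x1 y0 y1 hx hy
  obtain ⟨W, hW⟩ : ∃ W, W = 2 * R + 1 := ⟨_, rfl⟩
  obtain ⟨N, hN⟩ : ∃ N, N = 2 ^ (14 * k + 2) := ⟨_, rfl⟩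
  obtain ⟨b, hb⟩ : ∃ b, b = (2 * R + 1) * 2 ^ (14 * k + 3) := ⟨_, rfl⟩
  have b1 : b = 2 * (N * W) := by rw [hb, hN, hW]; ring
  have N1 : 1 ≤ N := hN ▸ Nat.one_le_two_pow
  have N2 : N ≤ 4 * 2 ^ (16 * k) := by
    rw [hN, pow_add, mul_comm]
    exact Nat.mul_le_mul_left 4 (Nat.pow_le_pow_right two_pos (by omega))
  have NW : W ≤ N * W := Nat.le_mul_of_pos_left _ N1
  have hNr : (2 : ℝ) ^ (14 * k + 2) = N := by rw [hN]; push_cast; rfl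
  rw [← hb] at hs hη' h ⊢
  rw [← hN] at hagsp
  rw [hNr] at hη'
  have cb : ∀ {a0 a1 c0 c1 : ℕ} (u : ℕ), a1 ≤ a0 + (2 ^ (16 * k) + 2 * b) →
      c1 ≤ c0 + (2 ^ (16 * k) + 2 * b) → B ^ (S.cross (box L a0 a1 c0 c1) * u) ≤
        B ^ (4 * (2 * R + 1) * (2 ^ (16 * k) + 2 * b + (2 * R + 1)) * u) := fun u h1 h2 =>
    pow_le_pow_right₀ hB (Nat.mul_le_mul_right _ (cross_box S hS h1 h2))
  generalize 4 * (2 * R + 1) * (2 ^ (16 * k) + 2 * b + (2 * R + 1)) = p at hs cb ⊢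
  by_cases hxy : x1 ≤ x0 ∨ y1 ≤ y0
  · refine (tile_empty _ hxy).mono (one_le_pow₀ (one_le_mul_of_one_le_of_one_le
      (one_le_pow₀ (one_le_pow₀ hd)) (one_le_mul_of_one_le_of_one_le ?_ (one_le_pow₀ hB))))
      (by norm_num)
    linarith [one_le_pow₀ (n := 2 ^ (15 * k)) (one_le_two (α := ℝ))]
  obtain ⟨cu, hcu, hsz⟩ := exists_cuts_box S hS (x0 := x0) (y0 := y0) (by omega) (by omega) hx hy
  have hr : ∀ c ∈ Ico 1 (1 + N), c * (2 * R + 1) + R ≤ b := fun c hc => by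
    have := Nat.mul_le_mul_right W (show c ≤ N by have := (mem_Ico.1 hc).2; omega)
    rw [← hW]
    omega
  have hI : ((Ico 1 (1 + N)).card : ℝ) = N := by rw [Nat.card_Ico, Nat.add_sub_cancel_left]
  have Nr : (1 : ℝ) ≤ N := Nat.one_le_cast.2 N1
  rw [show p * (28 * k + 12) = p * (14 * k + 7) + p * (14 * k + 5) by ring, pow_add B]
  refine bcore_abs S.unit cu.mono (I := Ico 1 (1 + N))
    (η := max (((4 * (l / b + 3) : ℕ) : ℝ) * η) ((1 / 2) ^ (14 * k + 5))) (fun c _ => ?_) ?_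
    (one_le_pow₀ hB) (by positivity) (by positivity) (by positivity) (by positivity) ?_ hs
    (fun x hx' => ?_) (fun c hc => ?_) (fun s hs' => hagsp cu s hs' fun c c1 c2 => ?_)
    fun c hc χ d' h1 h2 h3 => ?_
  · rw [hcu]
    exact core_sub (by omega) (by omega) (by omega) (by omega)
  · refine pow_le_pow_right₀ (Nat.one_le_cast.2 S.qpos) ((box_card _ _ _ _ _).trans ?_)
    rw [show 32 * k = 16 * k + 16 * k by ring, pow_add]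
    exact Nat.mul_le_mul (by omega) (by omega)
  · rw [hI, mul_max_of_nonneg _ _ (by positivity)]
    refine max_le hη' ?_
    rw [one_div_pow, show 14 * k + 5 = 14 * k + 2 + 3 by ring, pow_add _ _ 3, hNr, mul_one_div,
      div_le_iff₀ (by positivity)]
    linarith
  · obtain ⟨χ, c1, c2, c3⟩ := hx'.overlap S.unit
    exact (hboost _ χ x 2 (14 * k + 5) c1 c2 c3).mono (mul_le_mul_of_nonneg_left
      (cb _ (by omega) (by omega)) (SumOf.nonneg c1)) (le_max_right _ _)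
  · rw [hcu]
    exact (tile_thin (by omega) hd hη h (by omega) (by omega) hx hy (hr c hc)).mono le_rfl
      (le_max_left _ _)
  · refine (hsz c c1).trans ?_
    rw [mul_assoc (4 * (2 * R + 1)), add_mul 1, one_mul, mul_right_comm 16]
    refine Nat.mul_le_mul_left _ (Nat.add_le_add hl (Nat.mul_le_mul_right _ ?_))
    have : 1 ≤ 2 ^ (16 * k) := Nat.one_le_two_pow
    omega
  · have := hr c hc
    rw [hI, ← hNr, ← pow_succ', ← one_div_pow] at h3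
    refine (hboost _ χ d' _ 2 h1 h2 h3).mono (mul_le_mul_of_nonneg_left ?_ (SumOf.nonneg h1))
      (by norm_num)
    rw [hcu, show 2 + (14 * k + 2 + 1) = 14 * k + 5 by ring]
    exact cb _ (by omega) (by omega)

end Vale.Agent.P356
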