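import Vale.Agent.P356.B.IsoBox

/-!
General regions. For a box `Q` with sides `w, h` (`x1, y1 ≤ L`, `w ≤ 2h+1`, `h ≤ 2w+1`) let
`mi Q = if |Q| ≤ 2 |Q ∩ A| then Q \ A else Q ∩ A` (the minority part), `n = bdry A`,
`φ = Nat.clog 2 (min w (5n+1)) + Nat.clog 2 (min h (5n+1))`, `N = 10 (bdryIn A Q) φ`.
Claim, by strong induction on `w + h`: `Apx Ω (mi Q) (d^N) (N η)`. If `max w h ≤ 1` the minority part
is empty. Otherwise halve the longer side `M ≥ 2` (children keep the side condition, each has at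
least a third of the points, `bdryIn_add`). If both children have the type of `Q`, `mi Q` is the union
of their minority parts. Otherwise both `Q ∩ A` and `Q \ A` have at least `|Q|/6 ≥ M^2/18` points, so
`iso_box` gives `M ≤ 5 bdryIn A Q ≤ 5 n`; then `φ` drops by one in both children, and the majority
part of a child `Q'` is `(Q'ᶜ ∪ mi Q')ᶜ` (`Apx.compl`, `Apx.union`, `h M`), at the price `d^M`, `η`.
At the top `Q = box L 0 L 0 L = univ` and `mi Q` is `A` or `Aᶜ`.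
-/

namespace Vale.Agent.P356

open Finset

variable {L q : ℕ}

/-- Approximation with exponent `N`. -/
def quadAp (Ω : St (Site L) q) (d η : ℝ) (Y : Finset (Site L)) (N : ℕ) : Prop :=
  Apx Ω Y (d ^ N) ((N : ℝ) * η)

/-- The minority part of `Q`. -/
def quadMi (A Q : Finset (Site L)) : Finset (Site L) :=
  if Q.card ≤ 2 * (Q ∩ A).card then Q \ A else Q ∩ A

/-- The potential. -/
def quadPhi (n w h : ℕ) : ℕ := Nat.clog 2 (min w (5 * n + 1)) + Nat.clog 2 (min h (5 * n + 1))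

section

variable {Ω : St (Site L) q} {d η : ℝ} {A Q Q₁ Q₂ Y Y' : Finset (Site L)} {N N' : ℕ}

theorem quadAp.mono (h : quadAp Ω d η Y N) (hd : 1 ≤ d) (hη : 0 ≤ η) (hN : N ≤ N') :
    quadAp Ω d η Y N' :=
  Apx.mono h (pow_le_pow_right₀ hd hN) (mul_le_mul_of_nonneg_right (Nat.cast_le.2 hN) hη)

theorem quadAp.union (h : quadAp Ω d η Y N) (h' : quadAp Ω d η Y' N') (hd : Disjoint Y Y') :
    quadAp Ω d η (Y ∪ Y') (N + N') := by
  have := Apx.union h h' hd
  rwa [← pow_add, ← add_mul, ← Nat.cast_add] at this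

theorem quadAp.sdiff (h : quadAp Ω d η Y N) (h' : quadAp Ω d η Q N') (hY : Y ⊆ Q) :
    quadAp Ω d η (Q \ Y) (N + N') := by
  have h1 : quadAp Ω d η Qᶜ N' := Apx.compl h'
  have h2 : quadAp Ω d η (Y ∪ Qᶜ)ᶜ (N + N') :=
    Apx.compl (h.union h1 (disjoint_compl_right.mono_left hY))
  rwa [compl_union, compl_compl, inter_comm, ← sdiff_eq_inter_compl] at h2

theorem quad_empty (Ω : St (Site L) q) (d η : ℝ) : quadAp Ω d η ∅ 0 := by
  simpa [quadAp] using Apx.trivial Ω ∅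

theorem quad_both (hd : 1 ≤ d) (hη : 0 ≤ η) (h : quadAp Ω d η (quadMi A Q) N)
    (h' : quadAp Ω d η Q N') :
    quadAp Ω d η (Q ∩ A) (N + N') ∧ quadAp Ω d η (Q \ A) (N + N') := by
  unfold quadMi at h
  split_ifs at h
  · refine ⟨?_, h.mono hd hη (Nat.le_add_right _ _)⟩
    have := h.sdiff h' sdiff_subset
    rwa [sdiff_sdiff_self_left] at this
  · refine ⟨h.mono hd hη (Nat.le_add_right _ _), ?_⟩
    have := h.sdiff h' inter_subset_left
    rwa [sdiff_inter_self_left] at this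

theorem quad_step (hd : 1 ≤ d) (hη : 0 ≤ η) (hQ : Q = Q₁ ∪ Q₂) (hdis : Disjoint Q₁ Q₂)
    (c1 : Q.card ≤ 3 * Q₁.card) (c2 : Q.card ≤ 3 * Q₂.card) {φ φ₁ φ₂ M : ℕ}
    (h1 : quadAp Ω d η (quadMi A Q₁) (10 * bdryIn A Q₁ * φ₁))
    (h2 : quadAp Ω d η (quadMi A Q₂) (10 * bdryIn A Q₂ * φ₂)) (p1 : φ₁ ≤ φ) (p2 : φ₂ ≤ φ)
    (hM : Q.card ≤ 6 * (Q ∩ A).card → Q.card ≤ 6 * (Q \ A).card → M ≤ 5 * bdryIn A Q ∧
      φ₁ + 1 ≤ φ ∧ φ₂ + 1 ≤ φ ∧ quadAp Ω d η Q₁ M ∧ quadAp Ω d η Q₂ M) :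
    quadAp Ω d η (quadMi A Q) (10 * bdryIn A Q * φ) := by
  have hb : bdryIn A Q₁ + bdryIn A Q₂ ≤ bdryIn A Q := hQ ▸ bdryIn_add A hdis
  have num : ∀ ψ, φ₁ ≤ ψ → φ₂ ≤ ψ →
      10 * bdryIn A Q₁ * φ₁ + 10 * bdryIn A Q₂ * φ₂ ≤ 10 * bdryIn A Q * ψ := fun ψ k1 k2 =>
    calc _ ≤ 10 * bdryIn A Q₁ * ψ + 10 * bdryIn A Q₂ * ψ :=
          add_le_add (Nat.mul_le_mul_left _ k1) (Nat.mul_le_mul_left _ k2)
      _ = 10 * (bdryIn A Q₁ + bdryIn A Q₂) * ψ := by ring
      _ ≤ _ := Nat.mul_le_mul_right _ (Nat.mul_le_mul_left _ hb)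
  have e1 : Q ∩ A = Q₁ ∩ A ∪ Q₂ ∩ A := by rw [hQ, union_inter_distrib_right]
  have e2 : Q \ A = Q₁ \ A ∪ Q₂ \ A := by rw [hQ, union_sdiff_distrib]
  have d1 : Disjoint (Q₁ ∩ A) (Q₂ ∩ A) := hdis.mono inter_subset_left inter_subset_left
  have d2 : Disjoint (Q₁ \ A) (Q₂ \ A) := hdis.mono sdiff_subset sdiff_subset
  by_cases hmix : Q.card ≤ 6 * (Q ∩ A).card ∧ Q.card ≤ 6 * (Q \ A).card
  · obtain ⟨k1, k2, k3, k4, k5⟩ := hM hmix.1 hmix.2
    obtain ⟨ψ, rfl⟩ : ∃ ψ, φ = ψ + 1 := ⟨φ - 1, by omega⟩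
    have k6 := num ψ (by omega) (by omega)
    have k7 : 10 * bdryIn A Q₁ * φ₁ + M + (10 * bdryIn A Q₂ * φ₂ + M) ≤
        10 * bdryIn A Q * (ψ + 1) := by
      rw [mul_add_one]
      omega
    obtain ⟨a1, a2⟩ := quad_both hd hη h1 k4
    obtain ⟨b1, b2⟩ := quad_both hd hη h2 k5
    unfold quadMi
    split_ifs
    · rw [e2]
      exact (a2.union b2 d2).mono hd hη k7
    · rw [e1]
      exact (a1.union b1 d1).mono hd hη k7
  · have s0 := card_inter_add_card_sdiff Q A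
    have s1 := card_inter_add_card_sdiff Q₁ A
    have s2 := card_inter_add_card_sdiff Q₂ A
    have t1 := card_union_of_disjoint d1
    have t2 := card_union_of_disjoint d2
    rw [← e1] at t1
    rw [← e2] at t2
    unfold quadMi at h1 h2 ⊢
    split_ifs with hc
    · rw [if_pos (by omega)] at h1 h2
      rw [e2]
      exact (h1.union h2 d2).mono hd hη (num φ p1 p2)
    · rw [if_neg (by omega)] at h1 h2
      rw [e1]
      exact (h1.union h2 d1).mono hd hη (num φ p1 p2)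

end

theorem quad_num {w h b s : ℕ} (h1 : w ≤ 2 * h + 1) (h3 : 2 ≤ w)
    (h4 : w ≤ b ∨ h ≤ b ∨ s ≤ b ^ 2) (h5 : w * h ≤ 6 * s) : w ≤ 5 * b := by
  rcases h4 with h4 | h4 | h4
  · omega
  · omega
  · have k1 : w * w ≤ w * (3 * h) := Nat.mul_le_mul_left _ (by omega)
    refine Nat.mul_self_le_mul_self_iff.1 ?_
    nlinarith

theorem quad_iso (A : Finset (Site L)) {x w y h : ℕ} (hx : x + w ≤ L) (hy : y + h ≤ L)
    (k1 : (box L x (x + w) y (y + h)).card ≤ 6 * (box L x (x + w) y (y + h) ∩ A).card)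
    (k2 : (box L x (x + w) y (y + h)).card ≤ 6 * (box L x (x + w) y (y + h) \ A).card) :
    ∃ s, (w ≤ bdryIn A (box L x (x + w) y (y + h)) ∨ h ≤ bdryIn A (box L x (x + w) y (y + h)) ∨
      s ≤ bdryIn A (box L x (x + w) y (y + h)) ^ 2) ∧ w * h ≤ 6 * s := by
  have k := iso_box A (x0 := x) (y0 := y) hx hy
  rw [box_card_eq hx hy] at k1 k2
  simp only [Nat.add_sub_cancel_left] at k k1 k2
  rcases k with k | k | k | k
  · exact ⟨_, Or.inl k, k1⟩
  · exact ⟨_, Or.inr (Or.inl k), k1⟩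
  · exact ⟨_, Or.inr (Or.inr k), k1⟩
  · exact ⟨_, Or.inr (Or.inr k), k2⟩

theorem quad_clog {n w w' : ℕ} (h1 : 2 * w' ≤ w + 1) (h2 : 2 ≤ w) :
    Nat.clog 2 (min w' (5 * n + 1)) ≤ Nat.clog 2 (min w (5 * n + 1)) ∧
      (w ≤ 5 * n → Nat.clog 2 (min w' (5 * n + 1)) + 1 ≤ Nat.clog 2 (min w (5 * n + 1))) := by
  refine ⟨Nat.clog_mono_right 2 (by omega), fun h => ?_⟩
  rw [min_eq_left (by omega : w ≤ 5 * n + 1), Nat.clog_of_two_le one_lt_two h2]
  exact Nat.succ_le_succ (Nat.clog_mono_right 2 (by omega))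

theorem quad_ind {Ω : St (Site L) q} {d η : ℝ} (hd : 1 ≤ d) (hη : 0 ≤ η) (A : Finset (Site L))
    (H : ∀ σ : ℕ, 1 ≤ σ → σ ≤ 5 * bdry A → Small Ω σ (d ^ σ) η) (k : ℕ) :
    ∀ x w y h : ℕ, w + h = k → x + w ≤ L → y + h ≤ L → w ≤ 2 * h + 1 → h ≤ 2 * w + 1 →
      quadAp Ω d η (quadMi A (box L x (x + w) y (y + h)))
        (10 * bdryIn A (box L x (x + w) y (y + h)) * quadPhi (bdry A) w h) := by
  have sm : ∀ M x w y h : ℕ, 1 ≤ M → M ≤ 5 * bdry A → w ≤ M → h ≤ M →
      quadAp Ω d η (box L x (x + w) y (y + h)) M := fun M x w y h k1 k2 k3 k4 =>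
    (H M k1 k2 x (x + w) y (y + h) (by omega) (by omega)).mono le_rfl
      (le_mul_of_one_le_left hη (Nat.one_le_cast.2 k1))
  have cd : ∀ x w y h : ℕ, x + w ≤ L → y + h ≤ L → (box L x (x + w) y (y + h)).card = w * h :=
    fun x w y h k1 k2 => by rw [box_card_eq k1 k2, Nat.add_sub_cancel_left, Nat.add_sub_cancel_left]
  induction k using Nat.strong_induction_on with
  | _ k ih =>
  intro x w y h hk hx hy s1 s2
  have hb := bdryIn_le A (box L x (x + w) y (y + h))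
  by_cases h0 : w ≤ 1 ∧ h ≤ 1
  · have k1 : (box L x (x + w) y (y + h)).card ≤ 1 * 1 :=
      (cd x w y h hx hy).trans_le (Nat.mul_le_mul h0.1 h0.2)
    have k2 := card_inter_add_card_sdiff (box L x (x + w) y (y + h)) A
    have e : quadMi A (box L x (x + w) y (y + h)) = ∅ := by
      unfold quadMi
      split_ifs <;> exact card_eq_zero.1 (by omega)
    rw [e]
    exact (quad_empty Ω d η).mono hd hη (Nat.zero_le _)
  rcases le_total h w with hw | hw
  · have w2 : 2 ≤ w := by omega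
    obtain ⟨a1, a2⟩ := quad_clog (n := bdry A) (w' := w / 2) (by omega) w2
    obtain ⟨b1, b2⟩ := quad_clog (n := bdry A) (w' := w - w / 2) (by omega) w2
    refine quad_step (M := w) hd hη ?_ ?_ ?_ ?_
      (ih _ (by omega) x (w / 2) y h rfl (by omega) hy (by omega) (by omega))
      (ih _ (by omega) (x + w / 2) (w - w / 2) y h rfl (by omega) hy (by omega) (by omega))
      (Nat.add_le_add_right a1 _) (Nat.add_le_add_right b1 _) fun k1 k2 => ?_
    · ext s
      simp only [box, mem_union, mem_filter, mem_univ, true_and]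
      omega
    · rw [disjoint_left]
      intro s
      simp only [box, mem_filter, mem_univ, true_and]
      omega
    · rw [cd x w y h hx hy, cd x (w / 2) y h (by omega) hy, ← mul_assoc]
      exact Nat.mul_le_mul_right _ (by omega)
    · rw [cd x w y h hx hy, cd (x + w / 2) (w - w / 2) y h (by omega) hy, ← mul_assoc]
      exact Nat.mul_le_mul_right _ (by omega)
    · obtain ⟨s, k3, k4⟩ := quad_iso A hx hy k1 k2
      have k5 := quad_num s1 w2 k3 k4
      have k6 : w ≤ 5 * bdry A := by omega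
      have k7 := a2 k6
      have k8 := b2 k6
      exact ⟨k5, by unfold quadPhi; omega, by unfold quadPhi; omega,
        sm w _ _ _ _ (by omega) k6 (by omega) hw, sm w _ _ _ _ (by omega) k6 (by omega) hw⟩
  · have w2 : 2 ≤ h := by omega
    obtain ⟨a1, a2⟩ := quad_clog (n := bdry A) (w' := h / 2) (by omega) w2
    obtain ⟨b1, b2⟩ := quad_clog (n := bdry A) (w' := h - h / 2) (by omega) w2
    refine quad_step (M := h) hd hη ?_ ?_ ?_ ?_
      (ih _ (by omega) x w y (h / 2) rfl hx (by omega) (by omega) (by omega))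
      (ih _ (by omega) x w (y + h / 2) (h - h / 2) rfl hx (by omega) (by omega) (by omega))
      (Nat.add_le_add_left a1 _) (Nat.add_le_add_left b1 _) fun k1 k2 => ?_
    · ext s
      simp only [box, mem_union, mem_filter, mem_univ, true_and]
      omega
    · rw [disjoint_left]
      intro s
      simp only [box, mem_filter, mem_univ, true_and]
      omega
    · rw [cd x w y h hx hy, cd x w y (h / 2) hx (by omega), mul_left_comm]
      exact Nat.mul_le_mul_left _ (by omega)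
    · rw [cd x w y h hx hy, cd x w (y + h / 2) (h - h / 2) hx (by omega), mul_left_comm]
      exact Nat.mul_le_mul_left _ (by omega)
    · obtain ⟨s, k3, k4⟩ := quad_iso A hx hy k1 k2
      have k5 := quad_num s2 w2 (or_left_comm.1 k3) (by rwa [mul_comm h w])
      have k6 : h ≤ 5 * bdry A := by omega
      have k7 := a2 k6
      have k8 := b2 k6
      exact ⟨k5, by unfold quadPhi; omega, by unfold quadPhi; omega,
        sm h _ _ _ _ (by omega) k6 hw (by omega), sm h _ _ _ _ (by omega) k6 hw (by omega)⟩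

theorem apx_quad {Ω : St (Site L) q} {d η : ℝ} (hd : 1 ≤ d) (hη : 0 ≤ η) (A : Finset (Site L))
    (h : ∀ σ : ℕ, 1 ≤ σ → σ ≤ 5 * bdry A → Small Ω σ (d ^ σ) η) :
    Apx Ω A (d ^ (20 * bdry A * Nat.clog 2 (5 * bdry A + 1)))
      (((20 * bdry A * Nat.clog 2 (5 * bdry A + 1) : ℕ) : ℝ) * η) := by
  have k := quad_ind hd hη A h (L + L) 0 L 0 L rfl (by omega) (by omega) (by omega) (by omega)
  have e : box L 0 (0 + L) 0 (0 + L) = univ := by
    ext s
    simp [box]
  rw [e] at k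
  have c1 : Nat.clog 2 (min L (5 * bdry A + 1)) ≤ Nat.clog 2 (5 * bdry A + 1) :=
    Nat.clog_mono_right 2 (min_le_right _ _)
  have k2 : quadAp Ω d η (quadMi A univ) (20 * bdry A * Nat.clog 2 (5 * bdry A + 1)) := by
    refine k.mono hd hη ?_
    calc _ ≤ 10 * bdry A * (2 * Nat.clog 2 (5 * bdry A + 1)) :=
          Nat.mul_le_mul (Nat.mul_le_mul_left _ (bdryIn_le A _)) (by unfold quadPhi; omega)
      _ = _ := by ring
  unfold quadMi at k2
  split_ifs at k2
  · have k3 := Apx.compl k2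
    rwa [← compl_eq_univ_sdiff, compl_compl] at k3
  · rwa [univ_inter] at k2

end Vale.Agent.P356
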