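import Vale.Agent.P356.B.Basic

/-!
Adapt `reduce` of P356/Reduce.lean (copy its proof and helper lemmas). In addition put
`a U x = ∑_{X ⊆ U, h X ≠ 0, an X = x} (T (h X) - e X)`, `Jl = 2 J 2^G`. It is local on `ball R x` and on
`U`, zero for `x ∉ U` (`an X ∈ X ⊆ U`); if `ball R x ⊆ U` it is the operator `A x` defining `p x`,
and `∑ y, a U y` killing `v` forces each positive summand to kill `v`. `∑ y, a U y = T H_U - E` with
`E = ∑_{X ⊆ U} e X` (compare on `Ω`); in an orthonormal eigenbasis of this symmetric operator the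
eigenvalues are `0` or at least `Δ` by `LocalGap`, which gives `lgap`.
-/

namespace Vale.Agent.P356

open Finset

section

variable {E : Type} [NormedAddCommGroup E] [InnerProductSpace ℂ E] [FiniteDimensional ℂ E]
  {T : E →ₗ[ℂ] E}

theorem rdb_form (hs : T.IsSymmetric) (v : E) : (inner ℂ v (T v)).re =
    ∑ i, hs.eigenvalues rfl i * ‖inner ℂ (hs.eigenvectorBasis rfl i) v‖ ^ 2 := by
  rw [← (hs.eigenvectorBasis rfl).sum_inner_mul_inner v (T v), Complex.re_sum]
  refine sum_congr rfl fun i _ => ?_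
  rw [← hs, hs.apply_eigenvectorBasis rfl i, inner_smul_left, ← inner_conj_symm v,
    RCLike.conj_ofReal, mul_left_comm, Complex.conj_mul', ← Complex.ofReal_pow]
  exact (congrArg Complex.re (Complex.ofReal_mul _ _).symm).trans (Complex.ofReal_re _)

theorem rdb_kill (hp : T.IsPositive) {v : E} (h : (inner ℂ v (T v)).re = 0) : T v = 0 := by
  rw [rdb_form hp.isSymmetric, sum_eq_zero_iff_of_nonneg fun i _ =>
    mul_nonneg (hp.nonneg_eigenvalues rfl i) (sq_nonneg _)] at h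
  rw [← (hp.isSymmetric.eigenvectorBasis rfl).sum_repr' v, map_sum]
  refine sum_eq_zero fun i hi => ?_
  rw [map_smul, hp.isSymmetric.apply_eigenvectorBasis rfl i]
  rcases mul_eq_zero.1 (h i hi) with h1 | h1
  · rw [h1]; simp
  · rw [norm_eq_zero.1 (pow_eq_zero_iff two_ne_zero |>.1 h1), zero_smul]

theorem rdb_gap (hs : T.IsSymmetric) {Δ : ℝ}
    (h : ∀ (μ : ℝ) (v : E), v ≠ 0 → T v = (μ : ℂ) • v → μ = 0 ∨ Δ ≤ μ) (v : E)
    (hv : ∀ u, T u = 0 → inner ℂ u v = 0) : Δ * ‖v‖ ^ 2 ≤ (inner ℂ v (T v)).re := by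
  rw [rdb_form hs, ← (hs.eigenvectorBasis rfl).sum_sq_norm_inner_right v, mul_sum]
  refine sum_le_sum fun i _ => ?_
  have h1 := hs.apply_eigenvectorBasis rfl i
  rcases h (hs.eigenvalues rfl i) _ ((hs.eigenvectorBasis rfl).orthonormal.ne_zero i) h1 with h2 | h2
  · rw [hv _ (by rw [h1, h2]; simp)]
    simp
  · exact mul_le_mul_of_nonneg_right h2 (sq_nonneg _)

end

theorem rdb_core {L q R : ℕ} (hq : 1 ≤ q) {J Δ : ℝ} (hJ : 0 < J)
    (B : Finset (Site L) → Op (Site L) q) (w : St (Site L) q) (hBpos : ∀ X, (B X).IsPositive)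
    (hBl : ∀ X, Loc X (B X)) (hBw : ∀ X, B X w = 0)
    (hBc : ∀ X v, (inner ℂ v (B X v)).re ≤ 2 * J * ‖v‖ ^ 2)
    (hB0 : ∀ X, B X ≠ 0 → ∃ x ∈ X, X ⊆ ball R x) (hw1 : ‖w‖ = 1)
    (hgap : ∀ v, inner ℂ w v = 0 → Δ * ‖v‖ ^ 2 ≤ ∑ X, (inner ℂ v (B X v)).re)
    (hlg : ∀ (U : Finset (Site L)) (μ : ℝ) (v : St (Site L) q), v ≠ 0 →
      (∑ X ∈ U.powerset, B X) v = (μ : ℂ) • v → μ = 0 ∨ Δ ≤ μ) :
    ∃ S : LSys (Site L) q ((4 * R + 1) ^ 2) (Δ / (2 ^ ((4 * R + 1) ^ 2) * (2 * J)))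
      (2 ^ ((4 * R + 1) ^ 2) * (2 * J)) Δ, (∀ t, S.X t = ball R t) ∧ S.Ω = w := by
  classical
  have hc : (0 : ℝ) < 2 ^ ((4 * R + 1) ^ 2) * (2 * J) := by positivity
  have hAf : ∀ (s : Finset (Finset (Site L))) v, (inner ℂ v ((∑ X ∈ s, B X) v)).re =
      ∑ X ∈ s, (inner ℂ v (B X v)).re := fun s v => by
    rw [LinearMap.sum_apply, inner_sum, Complex.re_sum]
  have hB1 : ∀ X v, 0 ≤ (inner ℂ v (B X v)).re := fun X v => (hBpos X).re_inner_nonneg_right v
  have hA1 : ∀ (s : Finset (Finset (Site L))) v, 0 ≤ (inner ℂ v ((∑ X ∈ s, B X) v)).re :=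
    fun s v => by
      rw [hAf]
      exact sum_nonneg fun X _ => hB1 X v
  have hA2 : ∀ x, ∀ s ⊆ (ball R x).powerset, ∀ v, (inner ℂ v ((∑ X ∈ s, B X) v)).re ≤
      2 ^ ((4 * R + 1) ^ 2) * (2 * J) * ‖v‖ ^ 2 := fun x s hs v => by
    rw [hAf]
    refine (sum_le_card_nsmul _ _ _ fun X _ => hBc X v).trans ?_
    rw [nsmul_eq_mul, mul_assoc (2 ^ _ : ℝ)]
    refine mul_le_mul_of_nonneg_right ?_ (by positivity)
    have h1 := card_le_card hs
    rw [card_powerset] at h1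
    exact_mod_cast h1.trans (Nat.pow_le_pow_right two_pos (ball_card R x))
  have hA3 : ∀ s : Finset (Finset (Site L)), (∑ X ∈ s, B X).IsSymmetric := fun s =>
    LinearMap.isSymmetric_sum _ fun X _ => (hBpos X).isSymmetric
  have hA4 : ∀ U, ∀ s ⊆ powerset U, Loc U (∑ X ∈ s, B X) := fun U s hs =>
    Loc.sum _ fun X hX => (hBl X).mono (mem_powerset.1 (hs hX))
  have hA5 : ∀ (s : Finset (Finset (Site L))) v, (∀ X ∈ s, B X v = 0) →
      (∑ X ∈ s, B X) v = 0 := fun s v h => by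
    rw [LinearMap.sum_apply]
    exact sum_eq_zero h
  choose p hp1 hp2 hp3 hp4 hp5 using fun x => exists_proj (hA3 (ball R x).powerset)
    (hA4 _ _ subset_rfl) (hA1 _) (hA2 x _ subset_rfl)
  obtain ⟨clr, hc1, hc2⟩ := exists_colour L R
  have han : ∀ X, ∃ o : Option (Site L), (o = none → B X = 0) ∧
      ∀ x, o = some x → x ∈ X ∧ X ⊆ ball R x := fun X => by
    by_cases hX : B X = 0
    · exact ⟨none, fun _ => hX, fun x hx => absurd hx (by simp)⟩
    · obtain ⟨x, h1⟩ := hB0 X hX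
      exact ⟨some x, fun hx => absurd hx (by simp), fun y hy => Option.some_injective _ hy ▸ h1⟩
  choose an an0 an1 using han
  have hsub : ∀ (U : Finset (Site L)) x,
      U.powerset.filter (fun X => an X = some x) ⊆ (ball R x).powerset := fun U x X hX =>
    mem_powerset.2 (an1 X x (mem_filter.1 hX).2).2
  have hsum : ∀ U : Finset (Site L), ∑ y, ∑ X ∈ U.powerset.filter (fun X => an X = some y), B X =
      ∑ X ∈ U.powerset, B X := fun U => by
    simp only [sum_filter]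
    rw [sum_comm]
    refine sum_congr rfl fun X _ => ?_
    cases hX : an X with
    | none => simp [an0 X hX]
    | some x => simp
  refine ⟨⟨⟨p, ball R, clr, w, hq, hp1, hp2, hp3, ball_card R, ball_nbr R, hc1, hc2, hw1,
    fun t => hp4 t w (hA5 _ _ fun X _ => hBw X), fun v hv => ?_⟩,
    fun U x => ∑ X ∈ U.powerset.filter (fun X => an X = some x), B X, fun x => ?_,
    fun U x => hA3 _, fun U x => hA4 _ _ (hsub U x), fun U x => hA4 _ _ (filter_subset _ _),
    fun U x hx => ?_, fun U x => hA1 _, fun U x => hA2 x _ (hsub U x),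
    fun U x => hA5 _ _ fun X _ => hBw X, fun U x v h1 h2 => ?_, fun U v hv => ?_⟩,
    fun _ => rfl, rfl⟩
  · have h3 : ∑ X, (inner ℂ v (B X v)).re ≤
        ∑ x, (inner ℂ v ((∑ X ∈ (ball R x).powerset, B X) v)).re := by
      simp only [hAf]
      refine red_cover (ball R) _ (fun X => hB1 X v) fun X hX => ?_
      obtain ⟨x, -, hx⟩ := hB0 X fun h5 => hX (by rw [h5]; simp)
      exact ⟨x, hx⟩
    have h8 := sum_le_sum fun x (_ : x ∈ univ) => hp5 x v
    rw [← mul_sum] at h8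
    rw [div_mul_eq_mul_div, div_le_iff₀ hc, mul_comm (∑ t, _)]
    exact (hgap v hv).trans (h3.trans h8)
  · simp [ball]
  · refine sum_eq_zero fun X hX => absurd ?_ hx
    obtain ⟨h1, h2⟩ := mem_filter.1 hX
    exact mem_powerset.1 h1 (an1 X x h2).1
  · rw [hsum] at h2
    have h3 := hAf U.powerset v
    rw [h2, inner_zero_right, Complex.zero_re, eq_comm,
      sum_eq_zero_iff_of_nonneg fun X _ => hB1 X v] at h3
    exact hp4 x v (hA5 _ _ fun X hX => rdb_kill (hBpos X)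
      (h3 X (mem_powerset.2 ((mem_powerset.1 hX).trans h1))))
  · rw [hsum] at hv ⊢
    exact rdb_gap (hA3 _) (hlg U) v hv

theorem reduce_b (q R : ℕ) (hq : 1 ≤ q) {J Δ : ℝ} (hJ : 0 < J) (hΔ : 0 < Δ) :
    ∃ γ Jl : ℝ, 0 < γ ∧ 0 ≤ Jl ∧
    ∀ (L : ℕ) (h : Finset (Site L) → Matrix (Conf L q) (Conf L q) ℂ) (Ω : Conf L q → ℂ),
      Admissible R J h → GappedGround (∑ X, h X) Δ Ω → FrustrationFree h Ω → LocalGap h Δ Ω →
      ∃ S : LSys (Site L) q ((4 * R + 1) ^ 2) γ Jl Δ,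
        (∀ t, S.X t = ball R t) ∧ S.Ω = WithLp.toLp 2 Ω := by
  classical
  have hc : (0 : ℝ) < 2 ^ ((4 * R + 1) ^ 2) * (2 * J) := by positivity
  refine ⟨Δ / (2 ^ ((4 * R + 1) ^ 2) * (2 * J)), _, div_pos hΔ hc, hc.le, ?_⟩
  rintro L h Ω hadm ⟨hu, E₀, hE, hgap⟩ hff hlg
  choose e he hpos using hff
  obtain ⟨w, hw⟩ : ∃ w : St (Site L) q, w = WithLp.toLp 2 Ω := ⟨_, rfl⟩
  have hww : inner ℂ w w = 1 := by
    rw [hw, EuclideanSpace.inner_toLp_toLp, dotProduct_comm, hu]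
  have hw1 : ‖w‖ = 1 := by
    have h1 : ‖w‖ ^ 2 = 1 := by
      rw [← inner_self_eq_norm_sq (𝕜 := ℂ), hww]
      rfl
    exact (pow_eq_one_iff_of_nonneg (norm_nonneg _) two_ne_zero).1 h1
  let T : Finset (Site L) → Op (Site L) q := fun X => Matrix.toEuclideanLin (h X)
  let B : Finset (Site L) → Op (Site L) q := fun X => T X - (e X : ℂ) • 1
  have hT : ∀ X, T X w = (e X : ℂ) • w := fun X => by
    rw [hw]
    exact congrArg (WithLp.toLp 2) (he X)
  have hBpos : ∀ X, (B X).IsPositive := fun X => by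
    have h1 := Matrix.isPositive_toEuclideanLin_iff.2 (hpos X)
    rwa [map_sub, map_smul, Matrix.toLpLin_one] at h1
  have hBw : ∀ X, B X w = 0 := fun X => by
    simp only [B, LinearMap.sub_apply, LinearMap.smul_apply, Module.End.one_apply, hT, sub_self]
  have hTn : ∀ X v, |(inner ℂ v (T X v)).re| ≤ J * ‖v‖ ^ 2 := fun X v =>
    red_form (hadm X).2.2.1 v
  have he' : ∀ X, |e X| ≤ J := fun X => by
    have h1 := hTn X w
    rw [hT, inner_smul_right, hww, hw1] at h1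
    simpa using h1
  have hBf : ∀ X v, (inner ℂ v (B X v)).re = (inner ℂ v (T X v)).re - e X * ‖v‖ ^ 2 :=
    fun X v => red_sub _ _ _
  have hBc : ∀ X v, (inner ℂ v (B X v)).re ≤ 2 * J * ‖v‖ ^ 2 := fun X v => by
    have h1 := (abs_le.1 (hTn X v)).2
    have h2 := mul_le_mul_of_nonneg_right (abs_le.1 (he' X)).1 (sq_nonneg ‖v‖)
    rw [hBf]
    linarith
  have hB0 : ∀ X, h X = 0 → B X = 0 := fun X hX => by
    have h1 : T X = 0 := by simp only [T, hX, map_zero]
    have h2 := congrArg (inner ℂ w) (hT X)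
    rw [h1, LinearMap.zero_apply, inner_zero_right, inner_smul_right, hww, mul_one] at h2
    simp only [B, h1, ← h2, zero_smul, sub_zero]
  have hE0 : ∀ (s : Finset (Finset (Site L))) (E : ℝ),
      Matrix.mulVec (∑ X ∈ s, h X) Ω = (E : ℂ) • Ω → E = ∑ X ∈ s, e X := fun s E hE => by
    have h1 : Matrix.toEuclideanLin (∑ X ∈ s, h X) w = (E : ℂ) • w := by
      rw [hw]
      exact congrArg (WithLp.toLp 2) hE
    rw [map_sum, LinearMap.sum_apply, Finset.sum_congr rfl fun X _ => hT X,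
      ← Finset.sum_smul] at h1
    have h2 := congrArg (inner ℂ w) h1
    rw [inner_smul_right, inner_smul_right, hww, mul_one, mul_one] at h2
    exact_mod_cast h2.symm
  rw [← hw]
  refine rdb_core hq hJ B w hBpos (fun X => ((hadm X).2.1.loc).sub ((Loc.one _).smul _)) hBw hBc
    (fun X hX => ?_) hw1 (fun v hv => ?_) fun U μ v h0 hv => ?_
  · obtain ⟨⟨x, hx⟩, h6⟩ := (hadm X).2.2.2 fun h5 => hX (hB0 X h5)
    refine ⟨x, hx, fun y hy => ?_⟩
    have h7 := h6 x hx y hy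
    unfold dist1 at h7
    exact Finset.mem_filter.2 ⟨Finset.mem_univ _, by omega, by omega⟩
  · have h2 := red_gap hgap v (hw ▸ hv)
    rw [map_sum, LinearMap.sum_apply, inner_sum, Complex.re_sum, hE0 _ _ hE, Finset.sum_mul,
      ← Finset.sum_sub_distrib] at h2
    exact h2.trans (le_of_eq (Finset.sum_congr rfl fun X _ => (hBf X v).symm))
  · obtain ⟨E, h1, h2⟩ := hlg U
    have h3 : Matrix.toEuclideanLin (∑ X ∈ U.powerset, h X) v = ((μ + E : ℝ) : ℂ) • v := by
      rw [Complex.ofReal_add, add_smul, ← hv, hE0 _ _ h1, map_sum, LinearMap.sum_apply,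
        LinearMap.sum_apply, Complex.ofReal_sum, Finset.sum_smul, ← Finset.sum_add_distrib]
      refine Finset.sum_congr rfl fun X _ => ?_
      simp only [B, T, LinearMap.sub_apply, LinearMap.smul_apply, Module.End.one_apply,
        sub_add_cancel]
    rcases h2 (μ + E) v.ofLp (fun h4 => h0 (congrArg (WithLp.toLp 2) h4))
      (congrArg WithLp.ofLp h3) with h5 | h5
    · exact Or.inl (by linarith)
    · exact Or.inr (by linarith)

end Vale.Agent.P356
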