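import Vale.Agent.P356.B.Rect
import Vale.Agent.P356.B.Quad
import Vale.Agent.P356.B.Reduce

/-!
`sys_bound_b`: `n = bdry A`, `N = 20 n clog 2 (5n+1)`, `u₁ = Nat.clog 2 (N+1)` (or any
`u₁ ≤ 2 log₂ (n+1) + 10` with `N ≤ 2^u₁`), `W = 2R+1`, `β = log B · 4 W (1+W)`. For each `u` and
`1 ≤ σ ≤ 5n`: `rect_b`, `Small.boost` at precision `u + u₁` give `Small σ (d_u^σ)` with
`d_u = exp (C log 2 (Nat.log 2 (5n) + 1)^76 + β (u₁+2) + β u)`; `apx_quad`; `ent_le` with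
`d = exp (N (..))`, `x = N β` (compare `sys_bound` in P356/Final.lean). All logarithms are at most a
constant times `Real.log (n+2) ≥ log 2`.
-/

namespace Vale.Agent.P356

open Finset

private theorem bfin_j (n : ℕ) :
    ∃ j : ℕ, 1 ≤ j ∧ n + 2 < 2 ^ j ∧ (j : ℝ) ≤ 4 * Real.log ((n : ℝ) + 2) := by
  refine ⟨Nat.log 2 (n + 2) + 1, by omega, Nat.lt_pow_succ_log_self one_lt_two _, ?_⟩
  have h1 : (2 : ℝ) ^ Nat.log 2 (n + 2) ≤ (n : ℝ) + 2 := by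
    exact_mod_cast Nat.pow_log_le_self 2 (by omega : n + 2 ≠ 0)
  have h2 := Real.log_le_log (by positivity) h1
  rw [Real.log_pow] at h2
  have h3 : Real.log 2 ≤ Real.log ((n : ℝ) + 2) :=
    Real.log_le_log two_pos (by linarith [Nat.cast_nonneg (α := ℝ) n])
  have h4 := Real.log_two_gt_d9
  have h5 : (0 : ℝ) ≤ Nat.log 2 (n + 2) := Nat.cast_nonneg _
  have h6 := mul_le_mul_of_nonneg_left (by linarith : (1 / 2 : ℝ) ≤ Real.log 2) h5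
  push_cast
  linarith

private theorem bfin_nat {n j : ℕ} (h1 : 1 ≤ j) (h2 : n + 2 < 2 ^ j) :
    20 * n * Nat.clog 2 (5 * n + 1) ≤ 80 * n * j ∧ 80 * n * j ≤ 2 ^ (2 * j + 7) ∧
      ∀ σ, 1 ≤ σ → σ ≤ 5 * n → Nat.log 2 σ + 1 ≤ 4 * j := by
  have h3 : 2 ^ (j + 3) = 8 * 2 ^ j := by ring
  refine ⟨?_, ?_, fun σ h4 h5 => ?_⟩
  · have h4 : Nat.clog 2 (5 * n + 1) ≤ j + 3 := Nat.clog_le_of_le_pow (by omega)
    calc _ ≤ 20 * n * (4 * j) := Nat.mul_le_mul_left _ (by omega)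
      _ = _ := by ring
  · have h4 : j ≤ 2 ^ j := Nat.lt_two_pow_self.le
    calc _ ≤ 128 * 2 ^ j * 2 ^ j := Nat.mul_le_mul (Nat.mul_le_mul (by omega) (by omega)) h4
      _ = _ := by ring
  · have h6 : Nat.log 2 σ < j + 3 := Nat.log_lt_of_lt_pow (by omega) (by omega)
    omega

private theorem bfin_real {c β N n j l : ℝ} (hc : 0 ≤ c) (hβ : 0 ≤ β) (hn : 0 ≤ n) (hj : 1 ≤ j)
    (hN : N ≤ 80 * n * j) (hl : j ≤ 4 * l) (k : ℕ) :
    N * (c * (4 * j) ^ (k + 1) + β * (11 * j)) + 3 * (N * β) + 4 ≤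
      (80 * (c * 4 ^ (k + 1) + 14 * β) + 4) * 4 ^ (k + 1 + 1) * (n + 1) * l ^ (k + 1 + 1) := by
  have h0 : 0 ≤ j := by linarith
  have h1 : 1 ≤ j ^ k := one_le_pow₀ hj
  have h2 : j ≤ j ^ (k + 1) := by
    rw [pow_succ]
    exact le_mul_of_one_le_left h0 h1
  have h3 : (4 * j) ^ (k + 1) ≤ 4 ^ (k + 1) * j ^ (k + 1) := (mul_pow _ _ _).le
  have h4 : j ^ (k + 1 + 1) ≤ 4 ^ (k + 1 + 1) * l ^ (k + 1 + 1) := by
    rw [← mul_pow]
    exact pow_le_pow_left₀ h0 hl _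
  have h5 : 1 ≤ j ^ (k + 1 + 1) := one_le_pow₀ hj
  have h6 : c * (4 * j) ^ (k + 1) + β * (11 * j) + 3 * β ≤
      (c * 4 ^ (k + 1) + 14 * β) * j ^ (k + 1) := by
    have e1 := mul_le_mul_of_nonneg_left h3 hc
    have e2 := mul_le_mul_of_nonneg_left h2 hβ
    have e3 := mul_le_mul_of_nonneg_left (hj.trans h2) hβ
    linarith
  obtain ⟨D, hD⟩ : ∃ D, D = c * 4 ^ (k + 1) + 14 * β := ⟨_, rfl⟩
  have hD0 : 0 ≤ D := by rw [hD]; positivity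
  rw [← hD] at h6 ⊢
  have h7 : N * (c * (4 * j) ^ (k + 1) + β * (11 * j) + 3 * β) ≤
      80 * n * j * (D * j ^ (k + 1)) :=
    mul_le_mul hN h6 (by positivity) (by positivity)
  have h8 : 80 * n * j * (D * j ^ (k + 1)) = 80 * D * n * j ^ (k + 1 + 1) := by
    rw [pow_succ j (k + 1)]
    ring
  have h9 : 80 * D * n * j ^ (k + 1 + 1) + 4 ≤ (80 * D + 4) * (n + 1) * j ^ (k + 1 + 1) := by
    have e1 : 0 ≤ D * j ^ (k + 1 + 1) := by positivity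
    have e2 : 0 ≤ n * j ^ (k + 1 + 1) := by positivity
    linarith
  have h10 := mul_le_mul_of_nonneg_left h4 (by positivity : 0 ≤ (80 * D + 4) * (n + 1))
  linarith

theorem sys_bound_b (q R G : ℕ) (hq : 1 ≤ q) {γ Jl Δ : ℝ} (hγ : 0 < γ) (hJ : 0 ≤ Jl)
    (hΔ : 0 < Δ) : ∃ C : ℝ, ∀ (L : ℕ) (S : LSys (Site L) q G γ Jl Δ), (∀ t, S.X t = ball R t) →
      ∀ A : Finset (Site L),
        entropy A S.Ω.ofLp ≤ C * ((bdry A : ℝ) + 1) * Real.log ((bdry A : ℝ) + 2) ^ 77 := by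
  obtain ⟨C, hC, hrect⟩ := rect_b q R G hq hγ hJ hΔ
  obtain ⟨B, hB, hboost⟩ := boost q G hγ
  have hlB : 0 ≤ Real.log B := Real.log_nonneg hB
  have hl2 : 0 ≤ Real.log 2 := Real.log_nonneg (by norm_num)
  obtain ⟨β, hβ⟩ : ∃ β : ℝ,
    β = Real.log B * ((4 * (2 * R + 1) * (1 + (2 * R + 1)) : ℕ) : ℝ) := ⟨_, rfl⟩
  have hβ0 : 0 ≤ β := by rw [hβ]; positivity
  have hC0 : 0 ≤ C * Real.log 2 := by positivity
  refine ⟨(80 * (C * Real.log 2 * 4 ^ (75 + 1) + 14 * β) + 4) * 4 ^ (75 + 1 + 1),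
    fun L S hS A => ?_⟩
  obtain ⟨j, hj, hn, hl⟩ := bfin_j (bdry A)
  obtain ⟨n1, n2, n3⟩ := bfin_nat hj hn
  obtain ⟨N, hN⟩ : ∃ N, N = 20 * bdry A * Nat.clog 2 (5 * bdry A + 1) := ⟨_, rfl⟩
  rw [← hN] at n1
  have hj' : (1 : ℝ) ≤ j := by exact_mod_cast hj
  obtain ⟨T, hT⟩ : ∃ T : ℝ, T = (4 * (j : ℝ)) ^ 76 := ⟨_, rfl⟩
  have hT0 : 0 ≤ T := by rw [hT]; positivity
  obtain ⟨a, ha⟩ : ∃ a : ℝ, a = C * Real.log 2 * T + β * (11 * j) := ⟨_, rfl⟩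
  have ha0 : 0 ≤ a := by rw [ha]; positivity
  have key := ent_le S.unit A (d := Real.exp (N * a)) (x := (N : ℝ) * β)
    (Real.one_le_exp (by positivity)) (by positivity) fun u => ?_
  · rw [Real.log_exp, ha, hT] at key
    exact key.trans (bfin_real hC0 hβ0 (Nat.cast_nonneg _) hj' (by exact_mod_cast n1) hl 75)
  have h3 : ∀ σ : ℕ, 1 ≤ σ → σ ≤ 5 * bdry A →
      Small S.Ω σ (Real.exp (a + β * u) ^ σ) ((1 / 2) ^ (u + (2 * j + 7))) := by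
    intro σ s1 s2 x0 x1 y0 y1 hx hy
    have h2 := Small.boost S.toSys hS hB (hboost _ S.toSys) (hrect L S hS σ s1) (u + (2 * j + 7))
    refine (h2 x0 x1 y0 y1 hx hy).mono ?_ le_rfl
    have hB0 : 0 < B := by linarith
    rw [Real.rpow_def_of_pos (by norm_num), ← Real.rpow_natCast B, Real.rpow_def_of_pos hB0,
      ← Real.exp_add, ← Real.exp_nat_mul]
    apply Real.exp_le_exp.2
    have h4 : 4 * (2 * R + 1) * (σ + (2 * R + 1)) * (u + (2 * j + 7) + 2) ≤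
        4 * (2 * R + 1) * (1 + (2 * R + 1)) * σ * (u + 11 * j) := by
      refine Nat.mul_le_mul ?_ (by omega)
      rw [mul_assoc (4 * (2 * R + 1))]
      apply Nat.mul_le_mul_left
      nlinarith
    have h5 : ((4 * (2 * R + 1) * (σ + (2 * R + 1)) * (u + (2 * j + 7) + 2) : ℕ) : ℝ) ≤
        ((4 * (2 * R + 1) * (1 + (2 * R + 1)) : ℕ) : ℝ) * σ * (u + 11 * j) := by
      exact_mod_cast h4
    have h6 := mul_le_mul_of_nonneg_left h5 hlB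
    have h7 : Real.log B * (((4 * (2 * R + 1) * (1 + (2 * R + 1)) : ℕ) : ℝ) * σ * (u + 11 * j)) =
        σ * (β * (11 * j) + β * u) := by rw [hβ]; ring
    have h8 : ((Nat.log 2 σ : ℝ) + 1) ^ 76 ≤ T := by
      rw [hT]
      exact pow_le_pow_left₀ (by positivity) (by exact_mod_cast n3 σ s1 s2) _
    have h9 := mul_le_mul_of_nonneg_left h8 (by positivity : 0 ≤ C * Real.log 2 * σ)
    generalize ((Nat.log 2 σ : ℝ) + 1) ^ 76 = Z at h9 ⊢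
    rw [ha]
    linarith
  have h8 := apx_quad (Real.one_le_exp (by positivity)) (by positivity) A h3
  rw [← hN] at h8
  refine h8.mono (le_of_eq ?_) ?_
  · rw [← Real.exp_nat_mul, ← Real.exp_add]
    exact congrArg Real.exp (by ring)
  · rw [pow_add]
    have h9 : (N : ℝ) ≤ 2 ^ (2 * j + 7) := by exact_mod_cast n1.trans n2
    have h10 : (N : ℝ) * (1 / 2) ^ (2 * j + 7) ≤ 1 := by
      rw [one_div, inv_pow, ← div_eq_mul_inv]
      exact div_le_one_of_le₀ h9 (by positivity)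
    calc (N : ℝ) * ((1 / 2) ^ u * (1 / 2) ^ (2 * j + 7)) =
          (1 / 2) ^ u * ((N : ℝ) * (1 / 2) ^ (2 * j + 7)) := by rw [mul_left_comm]
      _ ≤ (1 / 2) ^ u * 1 := mul_le_mul_of_nonneg_left h10 (by positivity)
      _ = _ := mul_one _

theorem main_b (q R : ℕ) (hq : 2 ≤ q) (J Δ : ℝ) (hJ : 0 < J) (hΔ : 0 < Δ) :
    ∃ C : ℝ, ∀ (L : ℕ), 2 ≤ L →
      ∀ (h : Finset (Site L) → Matrix (Conf L q) (Conf L q) ℂ) (Ω : Conf L q → ℂ),
        Admissible R J h → GappedGround (∑ X, h X) Δ Ω → FrustrationFree h Ω →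
        LocalGap h Δ Ω → ∀ A : Finset (Site L),
          entropy A Ω ≤ C * ((bdry A : ℝ) + 1) * Real.log ((bdry A : ℝ) + 2) ^ 77 := by
  obtain ⟨γ, Jl, hγ, hJl, hred⟩ := reduce_b q R (by omega) hJ hΔ
  obtain ⟨C, hb⟩ := sys_bound_b q R ((4 * R + 1) ^ 2) (by omega) hγ hJl hΔ
  refine ⟨C, fun L _ h Ω ha hg hf hl A => ?_⟩
  obtain ⟨S, hS, hΩ⟩ := hred L h Ω ha hg hf hl
  have := hb L S hS A
  rwa [hΩ] at this

end Vale.Agent.P356
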