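import Vale.Agent.P356.B.Basic

/-!
Cuts around a box. `W = 2R+1`, `rad s = max (max (x0 - s.1) (s.1 + 1 - x1)) (max (y0 - s.2) (s.2 + 1 - y1))`
(truncated subtraction, zero on the box), `col = rad / W`, `Y c = {rad ≤ c W + R}` which is the stated
box; `rad` changes by at most `R` inside a ball; `size` is trivial with `A = L * L`. A column `c ≥ 1`
lies in the box enlarged by `(c+1) W` minus the box enlarged by `c W - 1`: four strips of width at
most `W` (`box_card`; see `exists_cuts` in P356/Geo.lean). `left`: `col t < c` gives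
`rad t ≤ cW - 1`; `right`: `c < col t` gives `rad t ≥ cW + 2R + 1`.
`tile_thin`: four boxes as in `tile_frame` (P356/Tile.lean), `tile_box` with `(l/b+3, 1)` or `(1, l/b+3)`.
-/

namespace Vale.Agent.P356

open Finset

variable {L q G R : ℕ} {γ : ℝ}

private theorem bgeo_memb {x y : Site L} : y ∈ ball R x ↔
    x.1.val - y.1.val + (y.1.val - x.1.val) ≤ R ∧ x.2.val - y.2.val + (y.2.val - x.2.val) ≤ R := by
  rw [ball, mem_filter]
  exact and_iff_right (mem_univ _)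

private theorem bgeo_box {x0 x1 y0 y1 a b : ℕ} (hx : x1 ≤ x0 + a) (hy : y1 ≤ y0 + b) :
    (box L x0 x1 y0 y1).card ≤ a * b :=
  (box_card L x0 x1 y0 y1).trans (Nat.mul_le_mul (by omega) (by omega))

private theorem bgeo_four {T B₁ B₂ B₃ B₄ : Finset (Site L)} {N : ℕ}
    (h : ∀ s ∈ T, s ∈ B₁ ∨ s ∈ B₂ ∨ s ∈ B₃ ∨ s ∈ B₄) (h1 : B₁.card ≤ N) (h2 : B₂.card ≤ N)
    (h3 : B₃.card ≤ N) (h4 : B₄.card ≤ N) : T.card ≤ 4 * N := by
  have h5 : T ⊆ B₁ ∪ (B₂ ∪ (B₃ ∪ B₄)) := fun s hs => by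
    simpa only [mem_union] using h s hs
  have h6 := card_le_card h5
  have h7 := card_union_le B₁ (B₂ ∪ (B₃ ∪ B₄))
  have h8 := card_union_le B₂ (B₃ ∪ B₄)
  have h9 := card_union_le B₃ B₄
  omega

private theorem bgeo_one {x a b ρ : ℕ} : max (a - x) (x + 1 - b) ≤ ρ ↔ a - ρ ≤ x ∧ x < b + ρ := by
  omega

private theorem bgeo_in {x0 x1 y0 y1 ρ : ℕ} {s : Site L} :
    s ∈ box L (x0 - ρ) (x1 + ρ) (y0 - ρ) (y1 + ρ) ↔
      max (x0 - s.1.val) (s.1.val + 1 - x1) ≤ ρ ∧ max (y0 - s.2.val) (s.2.val + 1 - y1) ≤ ρ := by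
  rw [tile_mem, bgeo_one, bgeo_one, and_assoc]

private theorem bgeo_tri {x y a b e R : ℕ} (h : max (a - x) (x + 1 - b) < e)
    (h' : x - y + (y - x) ≤ R) : max (a - y) (y + 1 - b) ≤ e + R := by omega

private theorem bgeo_tri' {x y a b e R : ℕ} (h : e + (2 * R + 1) ≤ max (a - x) (x + 1 - b))
    (h' : x - y + (y - x) ≤ R) : ¬ max (a - y) (y + 1 - b) ≤ e + R := by omega

theorem exists_cuts_box (S : Sys (Site L) q G γ) (hS : ∀ t, S.X t = ball R t)
    {x0 x1 y0 y1 l : ℕ} (hx0 : x0 ≤ x1) (hy0 : y0 ≤ y1) (hx : x1 ≤ x0 + l) (hy : y1 ≤ y0 + l) :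
    ∃ cu : Cuts S (L * L), (∀ c, cu.Y c =
      box L (x0 - (c * (2 * R + 1) + R)) (x1 + (c * (2 * R + 1) + R))
        (y0 - (c * (2 * R + 1) + R)) (y1 + (c * (2 * R + 1) + R))) ∧
      ∀ c, 1 ≤ c → (univ.filter fun y => cu.col y = c).card ≤
        4 * (2 * R + 1) * (l + 2 * (c + 1) * (2 * R + 1)) := by
  have hW : 0 < 2 * R + 1 := by omega
  refine ⟨⟨fun c => box L (x0 - (c * (2 * R + 1) + R)) (x1 + (c * (2 * R + 1) + R))
    (y0 - (c * (2 * R + 1) + R)) (y1 + (c * (2 * R + 1) + R)),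
    fun s => max (max (x0 - s.1.val) (s.1.val + 1 - x1)) (max (y0 - s.2.val) (s.2.val + 1 - y1)) /
      (2 * R + 1),
    fun c c' hc s hs => ?_, fun t c h s hs => ?_, fun t c h s hs => ?_, fun c => ?_⟩,
    fun _ => rfl, fun c hc => ?_⟩
  · have h1 : c * (2 * R + 1) ≤ c' * (2 * R + 1) := Nat.mul_le_mul_right _ hc
    rw [bgeo_in] at hs ⊢
    exact ⟨hs.1.trans (Nat.add_le_add_right h1 R), hs.2.trans (Nat.add_le_add_right h1 R)⟩
  · rw [hS, bgeo_memb] at hs
    rw [Nat.div_lt_iff_lt_mul hW, max_lt_iff] at h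
    exact bgeo_in.2 ⟨bgeo_tri h.1 hs.1, bgeo_tri h.2 hs.2⟩
  · rw [hS, bgeo_memb] at hs
    rw [← Nat.succ_le_iff, Nat.le_div_iff_mul_le hW, Nat.succ_mul, le_max_iff] at h
    rw [mem_compl, bgeo_in]
    rcases h with h | h
    · exact fun h' => bgeo_tri' h hs.1 h'.1
    · exact fun h' => bgeo_tri' h hs.2 h'.2
  · refine (card_le_univ _).trans ?_
    rw [Fintype.card_prod, Fintype.card_fin]
    exact Nat.le_mul_of_pos_right _ (Nat.succ_pos c)
  · have e : 4 * (2 * R + 1) * (l + 2 * (c + 1) * (2 * R + 1)) =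
        4 * ((2 * R + 1) * (l + 2 * (c * (2 * R + 1) + (2 * R + 1)))) := by ring
    rw [e]
    obtain ⟨a, ha⟩ : ∃ a, a = c * (2 * R + 1) := ⟨_, rfl⟩
    have ha1 : 1 ≤ a := ha ▸ Nat.mul_pos hc hW
    rw [← ha]
    refine bgeo_four
      (B₁ := box L (x0 + 1 - (a + (2 * R + 1))) (x0 + 1 - a) (y0 - (a + (2 * R + 1)))
        (y1 + (a + (2 * R + 1))))
      (B₂ := box L (x1 + a - 1) (x1 + a - 1 + (2 * R + 1)) (y0 - (a + (2 * R + 1)))
        (y1 + (a + (2 * R + 1))))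
      (B₃ := box L (x0 - (a + (2 * R + 1))) (x1 + (a + (2 * R + 1)))
        (y0 + 1 - (a + (2 * R + 1))) (y0 + 1 - a))
      (B₄ := box L (x0 - (a + (2 * R + 1))) (x1 + (a + (2 * R + 1))) (y1 + a - 1)
        (y1 + a - 1 + (2 * R + 1))) (fun s hs => ?_)
      (bgeo_box (by omega) (by omega)) (bgeo_box (by omega) (by omega))
      ((bgeo_box (by omega) (by omega)).trans (Nat.mul_comm _ _).le)
      ((bgeo_box (by omega) (by omega)).trans (Nat.mul_comm _ _).le)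
    have h1 : max (max (x0 - s.1.val) (s.1.val + 1 - x1))
      (max (y0 - s.2.val) (s.2.val + 1 - y1)) / (2 * R + 1) = c := (mem_filter.1 hs).2
    have h2 := (Nat.le_div_iff_mul_le hW).1 h1.ge
    have h3 := (Nat.div_lt_iff_lt_mul hW).1 (Nat.lt_succ_of_le h1.le)
    rw [Nat.succ_mul, ← ha, max_lt_iff, max_lt_iff, max_lt_iff] at h3
    rw [← ha, le_max_iff, le_max_iff, le_max_iff] at h2
    simp only [tile_mem]
    clear h1 hs e ha
    generalize 2 * R + 1 = W at *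
    generalize s.1.val = x at *
    generalize s.2.val = y at *
    rcases h2 with (h2 | h2) | h2 | h2
    · exact Or.inl (by omega)
    · exact Or.inr (Or.inl (by omega))
    · exact Or.inr (Or.inr (Or.inl (by omega)))
    · exact Or.inr (Or.inr (Or.inr (by omega)))

theorem tile_thin {Ω : St (Site L) q} {b : ℕ} (hb : 1 ≤ b) {d η : ℝ} (hd : 1 ≤ d) (hη : 0 ≤ η)
    (h : Small Ω b d η) {x0 x1 y0 y1 l r : ℕ} (hx0 : x0 ≤ x1) (hy0 : y0 ≤ y1)
    (hx : x1 ≤ x0 + l) (hy : y1 ≤ y0 + l) (hr : r ≤ b) :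
    Apx Ω (box L (x0 - r) (x1 + r) (y0 - r) (y1 + r) \ box L x0 x1 y0 y1)
      (d ^ (4 * (l / b + 3))) (((4 * (l / b + 3) : ℕ) : ℝ) * η) := by
  have a0 : l + 2 * b ≤ (l / b + 3) * b := by
    have := Nat.lt_mul_div_succ l hb
    rw [mul_comm, add_mul] at this
    rw [add_mul]
    omega
  generalize l / b + 3 = k at a0 ⊢
  have a1 := tile_box hd hη h k 1 (x0 - r) (x1 + r) (y0 - r) y0 (by omega) (by omega)
  have a2 := tile_box hd hη h k 1 (x0 - r) (x1 + r) y1 (y1 + r) (by omega) (by omega)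
  have a3 := tile_box hd hη h 1 k (x0 - r) x0 y0 y1 (by omega) (by omega)
  have a4 := tile_box hd hη h 1 k x1 (x1 + r) y0 y1 (by omega) (by omega)
  rw [mul_one] at a1 a2
  rw [one_mul] at a3 a4
  have a5 := ((a1.union a2 (disjoint_left.2 fun s hs hs' => by
      rw [tile_mem] at hs hs'
      omega)).union a3 (disjoint_left.2 fun s hs hs' => by
      simp only [mem_union, tile_mem] at hs hs'
      omega)).union a4 (disjoint_left.2 fun s hs hs' => by
      simp only [mem_union, tile_mem] at hs hs'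
      omega)
  have a6 : box L (x0 - r) (x1 + r) (y0 - r) y0 ∪ box L (x0 - r) (x1 + r) y1 (y1 + r) ∪
      box L (x0 - r) x0 y0 y1 ∪ box L x1 (x1 + r) y0 y1 =
      box L (x0 - r) (x1 + r) (y0 - r) (y1 + r) \ box L x0 x1 y0 y1 := by
    ext s
    simp only [mem_union, mem_sdiff, tile_mem]
    omega
  rw [a6] at a5
  refine a5.mono (le_of_eq (by ring)) (le_of_eq ?_)
  push_cast
  ring

end Vale.Agent.P356
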