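import Vale.Agent.P356.B.Basic

/-!
`iso_box`: as `iso` in P356/Iso.lean inside a box of the lattice: mixed rows and mixed columns of
the box number at most `bdryIn A Q` each (`mixed_edge` with one-row boxes); if the count is smaller
than both sides there are an unmixed row and an unmixed column, all unmixed lines have the same
type and the other type lies in (mixed) × (mixed).
-/

namespace Vale.Agent.P356

open Finset

variable {L : ℕ}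

private theorem ibox_card {a b : ℕ} (hb : b ≤ L) :
    (univ.filter fun i : Fin L => a ≤ i.val ∧ i.val < b).card = b - a := by
  rw [← Nat.card_Ico, ← card_map Fin.valEmbedding]
  congr 1
  ext i
  simp only [mem_map, mem_filter, mem_univ, true_and, Fin.valEmbedding_apply, mem_Ico]
  constructor
  · rintro ⟨j, hj, rfl⟩
    exact hj
  · exact fun h => ⟨⟨i, h.2.trans_le hb⟩, h, rfl⟩

private theorem ibox_mem {x0 x1 y0 y1 : ℕ} {i j : Fin L} :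
    (i, j) ∈ box L x0 x1 y0 y1 ↔ (x0 ≤ i.val ∧ i.val < x1) ∧ y0 ≤ j.val ∧ j.val < y1 := by
  simp only [box, mem_filter, mem_univ, true_and, and_assoc]

theorem bdryIn_le (A Q : Finset (Site L)) : bdryIn A Q ≤ bdry A :=
  card_le_card fun _ he => mem_filter.2 ⟨mem_univ _, (mem_filter.1 he).2.2.2⟩

theorem bdryIn_add (A : Finset (Site L)) {Q₁ Q₂ : Finset (Site L)} (h : Disjoint Q₁ Q₂) :
    bdryIn A Q₁ + bdryIn A Q₂ ≤ bdryIn A (Q₁ ∪ Q₂) := by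
  unfold bdryIn
  rw [← card_union_of_disjoint]
  · refine card_le_card fun e he => mem_filter.2 ⟨mem_univ _, ?_⟩
    rcases mem_union.1 he with g | g
    · obtain ⟨g1, g2, g3⟩ := (mem_filter.1 g).2
      exact ⟨mem_union_left _ g1, mem_union_left _ g2, g3⟩
    · obtain ⟨g1, g2, g3⟩ := (mem_filter.1 g).2
      exact ⟨mem_union_right _ g1, mem_union_right _ g2, g3⟩
  · exact disjoint_left.2 fun e g g' =>
      disjoint_left.1 h (mem_filter.1 g).2.1 (mem_filter.1 g').2.1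

theorem box_card_eq {x0 x1 y0 y1 : ℕ} (hx : x1 ≤ L) (hy : y1 ≤ L) :
    (box L x0 x1 y0 y1).card = (x1 - x0) * (y1 - y0) := by
  rw [← ibox_card hx, ← ibox_card hy, ← card_product]
  congr 1
  ext ⟨i, j⟩
  simp only [ibox_mem, mem_product, mem_filter, mem_univ, true_and]

theorem iso_box (A : Finset (Site L)) {x0 x1 y0 y1 : ℕ} (hx : x1 ≤ L) (hy : y1 ≤ L) :
    x1 - x0 ≤ bdryIn A (box L x0 x1 y0 y1) ∨ y1 - y0 ≤ bdryIn A (box L x0 x1 y0 y1) ∨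
      (box L x0 x1 y0 y1 ∩ A).card ≤ bdryIn A (box L x0 x1 y0 y1) ^ 2 ∨
      (box L x0 x1 y0 y1 \ A).card ≤ bdryIn A (box L x0 x1 y0 y1) ^ 2 := by
  classical
  obtain ⟨I, hI, cI⟩ : ∃ I : Finset (Fin L),
      (∀ i, i ∈ I ↔ ∃ j j', (i, j) ∈ box L x0 x1 y0 y1 ∧ (i, j') ∈ box L x0 x1 y0 y1 ∧
        (i, j) ∈ A ∧ (i, j') ∉ A) ∧ I.card ≤ bdryIn A (box L x0 x1 y0 y1) := by
    refine ⟨univ.filter fun i => ∃ j j', (i, j) ∈ box L x0 x1 y0 y1 ∧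
      (i, j') ∈ box L x0 x1 y0 y1 ∧ (i, j) ∈ A ∧ (i, j') ∉ A, by simp,
      le_trans (card_le_card fun i hi => ?_) (card_image_le (f := fun e => e.1.1))⟩
    obtain ⟨j, j', g1, g2, h1, h2⟩ := (mem_filter.1 hi).2
    rw [ibox_mem] at g1 g2
    obtain ⟨⟨u, u'⟩, hu, ⟨v, v'⟩, hv, h⟩ := mixed_edge A (x0 := i) (x1 := i + 1) (y0 := y0) (y1 := y1)
      (ibox_mem.2 (by omega)) (ibox_mem.2 (by omega)) h1 h2
    rw [ibox_mem] at hu hv
    exact mem_image.2 ⟨((u, u'), v, v'), mem_filter.2 ⟨mem_univ _, ibox_mem.2 (by omega),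
      ibox_mem.2 (by omega), h⟩, Fin.ext (by dsimp only; omega)⟩
  obtain ⟨J, hJ, cJ⟩ : ∃ J : Finset (Fin L),
      (∀ j, j ∈ J ↔ ∃ i i', (i, j) ∈ box L x0 x1 y0 y1 ∧ (i', j) ∈ box L x0 x1 y0 y1 ∧
        (i, j) ∈ A ∧ (i', j) ∉ A) ∧ J.card ≤ bdryIn A (box L x0 x1 y0 y1) := by
    refine ⟨univ.filter fun j => ∃ i i', (i, j) ∈ box L x0 x1 y0 y1 ∧
      (i', j) ∈ box L x0 x1 y0 y1 ∧ (i, j) ∈ A ∧ (i', j) ∉ A, by simp,
      le_trans (card_le_card fun j hj => ?_) (card_image_le (f := fun e => e.1.2))⟩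
    obtain ⟨i, i', g1, g2, h1, h2⟩ := (mem_filter.1 hj).2
    rw [ibox_mem] at g1 g2
    obtain ⟨⟨u, u'⟩, hu, ⟨v, v'⟩, hv, h⟩ := mixed_edge A (x0 := x0) (x1 := x1) (y0 := j) (y1 := j + 1)
      (ibox_mem.2 (by omega)) (ibox_mem.2 (by omega)) h1 h2
    rw [ibox_mem] at hu hv
    exact mem_image.2 ⟨((u, u'), v, v'), mem_filter.2 ⟨mem_univ _, ibox_mem.2 (by omega),
      ibox_mem.2 (by omega), h⟩, Fin.ext (by dsimp only; omega)⟩
  by_cases h1 : (univ.filter fun i : Fin L => x0 ≤ i.val ∧ i.val < x1) ⊆ I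
  · exact Or.inl ((ibox_card hx).ge.trans ((card_le_card h1).trans cI))
  by_cases h2 : (univ.filter fun i : Fin L => y0 ≤ i.val ∧ i.val < y1) ⊆ J
  · exact Or.inr (Or.inl ((ibox_card hy).ge.trans ((card_le_card h2).trans cJ)))
  obtain ⟨i₀, gi, hi⟩ := not_subset.1 h1
  obtain ⟨j₀, gj, hj⟩ := not_subset.1 h2
  replace gi := (mem_filter.1 gi).2
  replace gj := (mem_filter.1 gj).2
  rw [hI] at hi
  rw [hJ] at hj
  have hc : (I ×ˢ J).card ≤ bdryIn A (box L x0 x1 y0 y1) ^ 2 := by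
    rw [card_product, sq]
    exact Nat.mul_le_mul cI cJ
  have b0 : (i₀, j₀) ∈ box L x0 x1 y0 y1 := ibox_mem.2 ⟨gi, gj⟩
  refine Or.inr (Or.inr ?_)
  by_cases h : (i₀, j₀) ∈ A
  · refine Or.inr (le_trans (card_le_card fun ⟨i, j⟩ hs => ?_) hc)
    obtain ⟨s1, s2⟩ := mem_sdiff.1 hs
    have b1 : (i, j₀) ∈ box L x0 x1 y0 y1 := ibox_mem.2 ⟨(ibox_mem.1 s1).1, gj⟩
    have b2 : (i₀, j) ∈ box L x0 x1 y0 y1 := ibox_mem.2 ⟨gi, (ibox_mem.1 s1).2⟩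
    exact mem_product.2 ⟨(hI i).2 ⟨j₀, j, b1, s1, not_not.1 fun g => hj ⟨_, _, b0, b1, h, g⟩, s2⟩,
      (hJ j).2 ⟨i₀, i, b2, s1, not_not.1 fun g => hi ⟨_, _, b0, b2, h, g⟩, s2⟩⟩
  · refine Or.inl (le_trans (card_le_card fun ⟨i, j⟩ hs => ?_) hc)
    obtain ⟨s1, s2⟩ := mem_inter.1 hs
    have b1 : (i, j₀) ∈ box L x0 x1 y0 y1 := ibox_mem.2 ⟨(ibox_mem.1 s1).1, gj⟩
    have b2 : (i₀, j) ∈ box L x0 x1 y0 y1 := ibox_mem.2 ⟨gi, (ibox_mem.1 s1).2⟩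
    exact mem_product.2 ⟨(hI i).2 ⟨j, j₀, s1, b1, s2, fun g => hj ⟨_, _, b1, b0, g, h⟩⟩,
      (hJ j).2 ⟨i, i₀, s1, b2, s2, fun g => hi ⟨_, _, b2, b0, g, h⟩⟩⟩

end Vale.Agent.P356
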