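import Vale.Agent.P356.B.Basic

/-!
`lay_err`: induct on `l` (for all `B`): `∑_{j ≤ B} del P j = P^(2B)`,
`Pi * Q - ∑ del j * Lay (B-j) = (Pi - P^(2B)) * Q + ∑ del j * (Q - Lay (B-j))`, and
`del P j` has norm at most `8 · 4^(-j)`, so the sum is at most `16 · 17^len · 2^(-B)`.
`lay_mw`: `del (P a) j` is a sum of at most two monomials of weight `2 j` (a power of `P a` is a
word in window `a` and free in the others).
-/

namespace Vale.Agent.P356

open Finset

variable {ι : Type} [Fintype ι] [DecidableEq ι] {q G : ℕ} {γ : ℝ}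

private theorem lay_tel {𝒜 : Type} [Ring 𝒜] (P : 𝒜) (B : ℕ) :
    ∑ j ∈ range (B + 1), del P j = P ^ (2 * B) := by
  induction B with
  | zero => simp [del]
  | succ B ih => rw [sum_range_succ, ih, del]; abel

private theorem lay_bd_mono {M : Op ι q} {c c' : ℝ} (h : Bd M c) (hc : c ≤ c') : Bd M c' :=
  fun v => (h v).trans (mul_le_mul_of_nonneg_right hc (norm_nonneg v))

private theorem lay_bd_add {M M' : Op ι q} {c c' : ℝ} (h : Bd M c) (h' : Bd M' c') :
    Bd (M + M') (c + c') := fun v => by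
  rw [LinearMap.add_apply, add_mul]
  exact (norm_add_le _ _).trans (add_le_add (h v) (h' v))

private theorem lay_bd_neg {M : Op ι q} {c : ℝ} (h : Bd M c) : Bd (-M) c := fun v => by
  rw [LinearMap.neg_apply, norm_neg]
  exact h v

private theorem lay_bd_mul {M M' : Op ι q} {c c' : ℝ} (h : Bd M c) (h' : Bd M' c') (hc : 0 ≤ c) :
    Bd (M * M') (c * c') := fun v => by
  rw [Module.End.mul_apply, mul_assoc]
  exact (h _).trans (mul_le_mul_of_nonneg_left (h' v) hc)

private theorem lay_bd_sum (s : Finset ℕ) {M : ℕ → Op ι q} {c : ℕ → ℝ} (h : ∀ j ∈ s, Bd (M j) (c j)) :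
    Bd (∑ j ∈ s, M j) (∑ j ∈ s, c j) := fun v => by
  rw [LinearMap.sum_apply, sum_mul]
  exact (norm_sum_le _ _).trans (sum_le_sum fun j hj => h j hj v)

private theorem lay_bd_prod (Pi : ℕ → Op ι q) (l : List ℕ) (h1 : ∀ a ∈ l, Bd (Pi a) 1) :
    Bd (l.map Pi).prod 1 := by
  induction l with
  | nil => intro v; simp
  | cons a l ih =>
    have := lay_bd_mul (h1 a (by simp)) (ih fun b hb => h1 b (by simp [hb])) zero_le_one
    rw [one_mul] at this
    simpa using this

private theorem lay_bd_del {P Pi : Op ι q} (h : ∀ j, Bd (P ^ j - Pi) ((1 / 2) ^ j)) (j : ℕ) :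
    Bd (del P j) (8 * (1 / 4) ^ j) := by
  rcases j with _ | j
  · intro v
    have := norm_nonneg v
    simp only [del, Module.End.one_apply, pow_zero]
    linarith
  · have h2 := lay_bd_add (h (2 * (j + 1))) (lay_bd_neg (h (2 * j)))
    have e : P ^ (2 * (j + 1)) - Pi + -(P ^ (2 * j) - Pi) = del P (j + 1) := by rw [del]; abel
    rw [e] at h2
    refine lay_bd_mono h2 ?_
    have e2 : ((1 : ℝ) / 2) ^ 2 = 1 / 4 := by norm_num
    rw [pow_mul, pow_mul, e2, pow_succ]
    have : (0 : ℝ) ≤ (1 / 4) ^ j := by positivity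
    linarith

private theorem lay_geo (B : ℕ) :
    ∑ j ∈ range (B + 1), ((1 : ℝ) / 4) ^ j * (1 / 2) ^ (B - j) ≤ 2 * (1 / 2) ^ B := by
  have h1 : ∀ j ∈ range (B + 1), ((1 : ℝ) / 4) ^ j * (1 / 2) ^ (B - j) = (1 / 2) ^ j * (1 / 2) ^ B := by
    intro j hj
    obtain ⟨i, rfl⟩ : ∃ i, B = j + i := ⟨B - j, by rw [mem_range] at hj; omega⟩
    have e : ((1 : ℝ) / 4) = 1 / 2 * (1 / 2) := by norm_num
    rw [Nat.add_sub_cancel_left, e, mul_pow, pow_add, mul_assoc]
  rw [sum_congr rfl h1, ← sum_mul]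
  exact mul_le_mul_of_nonneg_right (sum_geometric_two_le _) (by positivity)

theorem lay_err (P Pi : ℕ → Op ι q) (l : List ℕ)
    (h : ∀ a ∈ l, ∀ j, Bd (P a ^ j - Pi a) ((1 / 2) ^ j)) (h1 : ∀ a ∈ l, Bd (Pi a) 1) (B : ℕ) :
    Bd ((l.map Pi).prod - Lay P l B) (17 ^ l.length * (1 / 2) ^ B) := by
  induction l generalizing B with
  | nil =>
    intro v
    simp only [List.map_nil, List.prod_nil, Lay, sub_self, LinearMap.zero_apply, norm_zero]
    positivity
  | cons a l ih =>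
    have ih' := ih (fun b hb => h b (by simp [hb])) fun b hb => h1 b (by simp [hb])
    have ha := h a (by simp)
    have k1 := lay_bd_mul (lay_bd_neg (ha (2 * B)))
      (lay_bd_prod Pi l fun b hb => h1 b (by simp [hb])) (by positivity)
    have k2 := lay_bd_sum (range (B + 1)) fun j _ =>
      lay_bd_mul (lay_bd_del ha j) (ih' (B - j)) (by positivity)
    have k3 := lay_bd_add k1 k2
    have e : -(P a ^ (2 * B) - Pi a) * (l.map Pi).prod +
        ∑ j ∈ range (B + 1), del (P a) j * ((l.map Pi).prod - Lay P l (B - j)) =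
        ((a :: l).map Pi).prod - Lay P (a :: l) B := by
      simp only [mul_sub, sum_sub_distrib, ← sum_mul, lay_tel, List.map_cons, List.prod_cons, Lay,
        neg_sub, sub_mul]
      abel
    rw [e] at k3
    refine lay_bd_mono k3 ?_
    have e2 : ∑ j ∈ range (B + 1), (8 : ℝ) * (1 / 4) ^ j * (17 ^ l.length * (1 / 2) ^ (B - j)) =
        8 * 17 ^ l.length * ∑ j ∈ range (B + 1), ((1 : ℝ) / 4) ^ j * (1 / 2) ^ (B - j) := by
      rw [mul_sum]
      exact sum_congr rfl fun j _ => by ring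
    have k4 := mul_le_mul_of_nonneg_left (lay_geo B) (by positivity : (0 : ℝ) ≤ 8 * 17 ^ l.length)
    have k5 : ((1 : ℝ) / 2) ^ (2 * B) ≤ (1 / 2) ^ B :=
      pow_le_pow_of_le_one (by norm_num) (by norm_num) (by omega)
    have k6 : (1 : ℝ) ≤ 17 ^ l.length := one_le_pow₀ (by norm_num)
    have k7 := mul_le_mul_of_nonneg_right k6 (by positivity : (0 : ℝ) ≤ (1 / 2) ^ B)
    rw [e2, List.length_cons, pow_succ]
    linarith

private theorem lay_pow_fix {Ω : St ι q} {P : Op ι q} (h : P.IsSymmetric ∧ P Ω = Ω) (n : ℕ) :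
    (P ^ n) Ω = Ω ∧ ∀ v, inner ℂ Ω ((P ^ n) v) = inner ℂ Ω v := by
  induction n with
  | zero => simp
  | succ n ih =>
    refine ⟨by rw [pow_succ, Module.End.mul_apply, h.2, ih.1], fun v => ?_⟩
    rw [pow_succ, Module.End.mul_apply, ih.2, ← h.1, h.2]

theorem lay_fix {Ω : St ι q} (P : ℕ → Op ι q) (l : List ℕ)
    (h : ∀ a ∈ l, (P a).IsSymmetric ∧ P a Ω = Ω) (B : ℕ) :
    Lay P l B Ω = Ω ∧ ∀ v, inner ℂ Ω (Lay P l B v) = inner ℂ Ω v := by
  induction l generalizing B with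
  | nil => simp [Lay]
  | cons a l ih =>
    have ih' := ih fun b hb => h b (by simp [hb])
    have ha := lay_pow_fix (h a (by simp))
    refine ⟨?_, fun v => ?_⟩
    · rw [Lay, LinearMap.sum_apply]
      simp only [Module.End.mul_apply, fun j => (ih' j).1]
      rw [← LinearMap.sum_apply, lay_tel, (ha _).1]
    · rw [Lay, LinearMap.sum_apply, inner_sum, sum_range_succ']
      simp only [Module.End.mul_apply, del, LinearMap.sub_apply, inner_sub_right, fun j => (ha j).2,
        sub_self, sum_const_zero, zero_add, Module.End.one_apply]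
      exact (ih' _).2 v

theorem MW.free {Y : ℕ → Finset ι} {I : ℕ → Finset ℕ} {P : ℕ → Op ι q} {m : ℕ} {M : Op ι q}
    (h : ∀ a < m, Free Y (I a) M) (n : ℕ) : MW Y I P m n M :=
  ⟨fun _ => 0, by simp, fun a ha => Wd.free (h a ha)⟩

theorem MW.mul {Y : ℕ → Finset ι} {I : ℕ → Finset ℕ} {P : ℕ → Op ι q} {m n n' : ℕ}
    {M M' : Op ι q} (h : MW Y I P m n M) (h' : MW Y I P m n' M') :
    MW Y I P m (n + n') (M * M') := by
  obtain ⟨κ, h1, h2⟩ := h
  obtain ⟨κ', h3, h4⟩ := h'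
  exact ⟨fun a => κ a + κ' a, by rw [sum_add_distrib]; omega, fun a ha => (h2 a ha).mul (h4 a ha)⟩

private theorem lay_mw_mono {Y : ℕ → Finset ι} {I : ℕ → Finset ℕ} {P : ℕ → Op ι q} {m n n' : ℕ}
    {M : Op ι q} (h : MW Y I P m n M) (hn : n ≤ n') : MW Y I P m n' M := by
  obtain ⟨κ, h1, h2⟩ := h
  exact ⟨κ, h1.trans hn, h2⟩

private theorem lay_mw_pow {Y : ℕ → Finset ι} {I : ℕ → Finset ℕ} {P : ℕ → Op ι q} {m : ℕ}
    (hP : ∀ a < m, ∀ b < m, a ≠ b → Free Y (I b) (P a)) {a : ℕ} (ha : a < m) (n : ℕ) :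
    MW Y I P m n (P a ^ n) := by
  have h1 : MW Y I P m 1 (P a) := by
    refine ⟨fun b => if b = a then 1 else 0, by simp [ha], fun b hb => ?_⟩
    by_cases hba : b = a
    · subst hba
      simp only [if_true]
      exact Wd.letter rfl
    · exact Wd.free (hP a ha b hb (Ne.symm hba))
  induction n with
  | zero => rw [pow_zero]; exact MW.free (fun b _ => Free.one Y _) 0
  | succ n ih => rw [pow_succ]; exact ih.mul h1

private theorem lay_mw_del {Y : ℕ → Finset ι} {I : ℕ → Finset ℕ} {P : ℕ → Op ι q} {m : ℕ}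
    (hP : ∀ a < m, ∀ b < m, a ≠ b → Free Y (I b) (P a)) {a : ℕ} (ha : a < m) (j : ℕ) :
    SumOf (MW Y I P m (2 * j)) 2 (del (P a) j) := by
  rcases j with _ | j
  · exact (SumOf.single (MW.free (fun b _ => Free.one Y _) _)).mono (fun _ h => h) one_le_two
  · have h1 := (MW.free (P := P) (m := m)
      (fun b _ => (Free.one Y (I b)).smul (-1 : ℂ)) 2).mul (lay_mw_pow hP ha (2 * j))
    have e : ((-1 : ℂ) • (1 : Op ι q)) * P a ^ (2 * j) = -(P a ^ (2 * j)) := by simp
    rw [e] at h1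
    have h2 := (SumOf.single (lay_mw_pow hP ha (2 * (j + 1)))).add
      (SumOf.single (lay_mw_mono h1 (n' := 2 * (j + 1)) (by omega)))
    rw [one_add_one_eq_two, ← sub_eq_add_neg] at h2
    exact h2

theorem lay_mw {Y : ℕ → Finset ι} {I : ℕ → Finset ℕ} {P : ℕ → Op ι q} {m : ℕ}
    (hP : ∀ a < m, ∀ b < m, a ≠ b → Free Y (I b) (P a)) (l : List ℕ) (hl : ∀ a ∈ l, a < m)
    (B : ℕ) : SumOf (MW Y I P m (2 * B)) ((2 * ((B : ℝ) + 1)) ^ l.length) (Lay P l B) := by
  induction l generalizing B with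
  | nil =>
    rw [List.length_nil, pow_zero]
    exact SumOf.single (MW.free (fun b _ => Free.one Y _) _)
  | cons a l ih =>
    have ih' := ih fun b hb => hl b (by simp [hb])
    have h1 := SumOf.sum (P := MW Y I P m (2 * B)) (range (B + 1))
      (N := fun _ => 2 * (2 * ((B : ℝ) + 1)) ^ l.length)
      (x := fun j => del (P a) j * Lay P l (B - j)) fun j hj => by
        rw [mem_range] at hj
        refine ((lay_mw_del hP (hl a (by simp)) j).mul (ih' (B - j))
          fun _ _ k k' => lay_mw_mono (k.mul k') (by omega)).mono (fun _ h => h) ?_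
        have : ((B - j : ℕ) : ℝ) ≤ B := by exact_mod_cast Nat.sub_le B j
        gcongr
    refine h1.mono (fun _ h => h) (le_of_eq ?_)
    rw [sum_const, card_range, nsmul_eq_mul, List.length_cons, pow_succ]
    push_cast
    ring

private theorem lay_mr_sub {Y : ℕ → Finset ι} {I I' : Finset ℕ} {M : Op ι q} {D : ℝ} (hD : 0 ≤ D)
    (h : MR Y I M D) (hI : I ⊆ I') : MR Y I' M D := by
  obtain ⟨Ms, h1, h2⟩ := h
  refine ⟨fun c => if c ∈ I then Ms c else 0, ?_, fun c _ => ?_⟩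
  · rw [h1, sum_ite_mem, inter_eq_right.2 hI]
  · by_cases hc : c ∈ I
    · simp only [if_pos hc]
      exact h2 c hc
    · simp only [if_neg hc]
      exact RK.zero _ hD

private theorem lay_mr_list {Y : ℕ → Finset ι} {I : Finset ℕ} {D : ℝ} (l : List (Op ι q))
    (h : ∀ M ∈ l, MR Y I M D) : MR Y I l.sum (l.length * D) := by
  induction l with
  | nil => exact ⟨fun _ => 0, by simp, fun c _ => RK.zero _ (by simp)⟩
  | cons M l ih =>
    obtain ⟨Ms, h1, h2⟩ := h M (by simp)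
    obtain ⟨Ms', h3, h4⟩ := ih fun M' hM => h M' (by simp [hM])
    refine ⟨fun c => Ms c + Ms' c, by rw [List.sum_cons, sum_add_distrib, ← h1, ← h3],
      fun c hc => ((h2 c hc).add (h4 c hc)).mono (le_of_eq ?_)⟩
    rw [List.length_cons]
    push_cast
    ring

theorem mw_cost {Y : ℕ → Finset ι} {I : ℕ → Finset ℕ} {P : ℕ → Op ι q} {m n : ℕ} (hm : 1 ≤ m)
    {F : ℕ → ℝ} (h0 : ∀ j, 0 ≤ F j) (hc : ∀ a < m, Cost Y (I a) {P a} F) {Iall : Finset ℕ}
    (hI : ∀ a < m, I a ⊆ Iall) {N : ℝ} {M : Op ι q} (hM : SumOf (MW Y I P m n) N M) :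
    MR Y Iall M (N * F (n / m)) := by
  obtain ⟨l, h1, h2, rfl⟩ := hM
  have h3 := lay_mr_list (Y := Y) (I := Iall) (D := F (n / m)) l fun M hM => by
    obtain ⟨κ, k1, k2⟩ := h1 M hM
    obtain ⟨a, ha, k3⟩ : ∃ a ∈ range m, κ a ≤ n / m := by
      by_contra k4
      push Not at k4
      have k5 := card_nsmul_le_sum (range m) κ (n / m + 1) fun a ha => k4 a ha
      rw [card_range, smul_eq_mul] at k5
      exact absurd (k5.trans k1) (not_le.2 (Nat.lt_mul_div_succ n (show 0 < m from hm)))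
    rw [mem_range] at ha
    exact lay_mr_sub (h0 _) (hc a ha _ M ((k2 a ha).mono k3)) (hI a ha)
  obtain ⟨Ms, h4, h5⟩ := h3
  exact ⟨Ms, h4, fun c hc => (h5 c hc).mono (mul_le_mul_of_nonneg_right h2 (h0 _))⟩

end Vale.Agent.P356
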