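import Vale.Agent.P356.B.Basic

/-!
`EX e 0 = TR e 0`, `EX e (j+1) = TR e (j+1) - TR e j`; `trunc_count` with `x = (d+1)/(d+2)`
gives `x⁻¹^e ≤ 3` for `e ≤ d`, `β = 2 (d+2)^2`, so `EX e j` is a sum of at most `6 β^(j+1)` words
with `j` letters (`Wd.mono`, `Wd.smul` with `-1`). Induct on `p`:
`∑_j 6 β^(j+1) (2β)^(τ-j) ≤ 12 β (2β)^τ`.
-/

namespace Vale.Agent.P356

open Finset

variable {ι : Type} [Fintype ι] [DecidableEq ι] {q G : ℕ} {γ : ℝ}

private theorem pg_zero {𝒜 : Type} [Ring 𝒜] (U W : 𝒜) (e : ℕ) : EX U W e 0 = TR U W e 0 := by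
  induction e with
  | zero => rfl
  | succ e ih => rw [EX, TR, ih]

private theorem pg_succ {𝒜 : Type} [Ring 𝒜] (U W : 𝒜) (e j : ℕ) :
    EX U W e (j + 1) = TR U W e (j + 1) - TR U W e j := by
  induction e generalizing j with
  | zero => simp [EX, TR]
  | succ e ih =>
    rcases j with _ | j
    · rw [EX, TR, TR, ih, pg_zero, mul_sub]
      abel
    · rw [EX, TR, TR, ih, ih, mul_sub, mul_sub]
      abel

private theorem pg_tr {Y : ℕ → Finset ι} {I : Finset ℕ} {𝒢 : Set (Op ι q)} {L R W : Op ι q}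
    (hc : Commute L R) (hL : Free Y I L) (hR : Free Y I R) (hW : W ∈ 𝒢) {d e : ℕ} (he : e ≤ d)
    (τ : ℕ) :
    SumOf (Wd (Free Y I) 𝒢 τ) (3 * (2 * ((d : ℝ) + 2) ^ 2) ^ (τ + 1)) (TR (L + R) W e τ) := by
  have hT0 : (0 : ℝ) < (d : ℝ) + 1 := by positivity
  have hx0 : (0 : ℝ) < ((d : ℝ) + 1) / (d + 2) := by positivity
  have hx1 : ((d : ℝ) + 1) / (d + 2) < 1 := by rw [div_lt_one (by positivity)]; linarith
  refine (trunc_count hc hL hR hW hx0 hx1 e τ).mono (fun _ h => h) ?_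
  have h1 : (((d : ℝ) + 1) / (d + 2))⁻¹ = 1 + ((d : ℝ) + 1)⁻¹ := by field_simp; ring_nf
  have h2 : 2 / (1 - ((d : ℝ) + 1) / (d + 2)) ^ 2 = 2 * ((d : ℝ) + 2) ^ 2 := by
    have : 1 - ((d : ℝ) + 1) / (d + 2) = ((d : ℝ) + 2)⁻¹ := by field_simp; ring_nf
    rw [this]; field_simp
  have h3 : (1 + ((d : ℝ) + 1)⁻¹) ^ (d + 1) ≤ 3 := by
    have h4 : (1 + ((d : ℝ) + 1)⁻¹) ^ (d + 1) ≤ Real.exp ((d : ℝ) + 1)⁻¹ ^ (d + 1) :=
      pow_le_pow_left₀ (by positivity) (by linarith [Real.add_one_le_exp ((d : ℝ) + 1)⁻¹]) _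
    rw [← Real.exp_nat_mul, Nat.cast_succ, mul_inv_cancel₀ hT0.ne'] at h4
    linarith [Real.exp_one_lt_d9]
  have h5 : (1 + ((d : ℝ) + 1)⁻¹) ^ e ≤ 3 :=
    (pow_le_pow_right₀ (by have := inv_pos.2 hT0; linarith) (by omega)).trans h3
  rw [h1, h2]
  exact mul_le_mul_of_nonneg_right h5 (by positivity)

private theorem pg_ex {Y : ℕ → Finset ι} {I : Finset ℕ} {𝒢 : Set (Op ι q)} {L R W : Op ι q}
    (hc : Commute L R) (hL : Free Y I L) (hR : Free Y I R) (hW : W ∈ 𝒢) {d e : ℕ} (he : e ≤ d)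
    (j : ℕ) :
    SumOf (Wd (Free Y I) 𝒢 j) (6 * (2 * ((d : ℝ) + 2) ^ 2) ^ (j + 1)) (EX (L + R) W e j) := by
  have hd : (0 : ℝ) ≤ d := Nat.cast_nonneg d
  have hβ : (1 : ℝ) ≤ 2 * ((d : ℝ) + 2) ^ 2 := by nlinarith
  rcases j with _ | j
  · rw [pg_zero]
    refine (pg_tr hc hL hR hW he 0).mono (fun _ h => h) ?_
    gcongr
    norm_num
  · rw [pg_succ, sub_eq_add_neg, ← neg_one_mul]
    have h1 := (SumOf.single (Wd.free (𝒢 := 𝒢) (j := 1)
      ((Free.one Y I (q := q)).smul (-1)))).mul (T := Wd (Free Y I) 𝒢 (j + 1))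
      (pg_tr hc hL hR hW he j) fun a b ha hb => (ha.mul hb).mono (by omega)
    rw [neg_smul, one_smul] at h1
    refine ((pg_tr hc hL hR hW he (j + 1)).add h1).mono (fun _ h => h) ?_
    have h2 := pow_le_pow_right₀ hβ (show j + 1 ≤ j + 1 + 1 by omega)
    linarith

theorem prog_count {Y : ℕ → Finset ι} {I : Finset ℕ} {𝒢 : Set (Op ι q)} {L R W : Op ι q}
    (hc : Commute L R) (hL : Free Y I L) (hR : Free Y I R) (hW : W ∈ 𝒢) {d : ℕ}
    (p : List (ℕ × Op ι q)) (hp : ∀ x ∈ p, x.1 ≤ d ∧ Free Y I x.2) (τ : ℕ) :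
    SumOf (Wd (Free Y I) 𝒢 τ)
      ((4 * ((d : ℝ) + 2) ^ 2) ^ τ * (24 * ((d : ℝ) + 2) ^ 2) ^ p.length)
      (TRp (L + R) W p τ) := by
  have hd : (0 : ℝ) ≤ d := Nat.cast_nonneg d
  induction p generalizing τ with
  | nil =>
    refine (SumOf.single (Wd.free (Free.one Y I))).mono (fun _ h => h) ?_
    rw [List.length_nil, pow_zero, mul_one]
    exact one_le_pow₀ (by nlinarith)
  | cons x p ih =>
    have hx := hp x List.mem_cons_self
    have ih' := ih fun y hy => hp y (List.mem_cons_of_mem _ hy)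
    have h1 := SumOf.sum (P := Wd (Free Y I) 𝒢 τ) (range (τ + 1)) fun j hj =>
      ((pg_ex hc hL hR hW hx.1 j).mul (T := Wd (Free Y I) 𝒢 j)
        (SumOf.single (Wd.free (𝒢 := 𝒢) (j := 0) hx.2)) fun a b ha hb => ha.mul hb).mul
        (ih' (τ - j)) fun a b ha hb => (ha.mul hb).mono (by have := mem_range.1 hj; omega)
    refine h1.mono (fun _ h => h) ?_
    set β : ℝ := 2 * ((d : ℝ) + 2) ^ 2 with hβ
    have e1 : 4 * ((d : ℝ) + 2) ^ 2 = 2 * β := by rw [hβ]; ring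
    have e2 : 24 * ((d : ℝ) + 2) ^ 2 = 12 * β := by rw [hβ]; ring
    have hβ0 : 0 ≤ β := by positivity
    rw [e1, e2]
    have h2 : ∀ j ∈ range (τ + 1), 6 * β ^ (j + 1) * 1 * ((2 * β) ^ (τ - j) * (12 * β) ^ p.length) =
        6 * β ^ (τ + 1) * (12 * β) ^ p.length * 2 ^ (τ - j) := fun j hj => by
      obtain ⟨i, rfl⟩ := Nat.exists_eq_add_of_le (Nat.lt_succ_iff.1 (mem_range.1 hj))
      rw [Nat.add_sub_cancel_left]
      ring
    have h3 : ∑ j ∈ range (τ + 1), (2 : ℝ) ^ (τ - j) ≤ 2 ^ (τ + 1) := by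
      rw [sum_flip (fun j => (2 : ℝ) ^ j), geom_sum_eq (by norm_num)]
      norm_num
    rw [sum_congr rfl h2, ← mul_sum, List.length_cons]
    refine (mul_le_mul_of_nonneg_left h3 (by positivity)).trans (le_of_eq ?_)
    ring

end Vale.Agent.P356
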