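import Vale.Agent.P356.B.Prog
import Vale.Agent.P356.B.ProgCount

/-!
By induction a word with `κ` letters `aeval H Pol` is a sum of at most `(d+1)^κ` operators
`A₀ * evp H p` with `A₀` free, `p.length ≤ κ`, all entries of degree at most `d` and free
(`Polynomial.aeval_eq_sum_range'`; in a product merge the second `A₀` into the last entry of the
first list, or into the first `A₀` if that list is empty). `A₀ * evp H p = evp H ((0, A₀) :: p)`.
Apply `prog_decomp` with `τ = κ d / T`, then for each `a` work with the single cut `{lo + a}`: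
split as in P356/PowCost.lean, `prog_count`, `cost_base`, `Cost.sumOf`, `MR.smul`, `MR.mono`, `MR.sum`.
-/

namespace Vale.Agent.P356

open Finset

variable {ι : Type} [Fintype ι] [DecidableEq ι] {q G : ℕ} {γ : ℝ}

/-- A free factor times a product of powers with at most `κ` entries. -/
def pcbQ (F : Op ι q → Prop) (H : Op ι q) (d κ : ℕ) (M : Op ι q) : Prop :=
  ∃ (A : Op ι q) (p : List (ℕ × Op ι q)), F A ∧ p.length ≤ κ ∧ (∀ x ∈ p, x.1 ≤ d ∧ F x.2) ∧
    M = A * evp H p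

theorem pcb_cons (H : Op ι q) (x : ℕ × Op ι q) (p : List (ℕ × Op ι q)) :
    evp H (x :: p) = H ^ x.1 * x.2 * evp H p := by
  rw [evp, List.map_cons, List.prod_cons, evp]

theorem pcb_merge {Y : ℕ → Finset ι} {I : Finset ℕ} (H : Op ι q) {d : ℕ} {B : Op ι q}
    (hB : Free Y I B) (p : List (ℕ × Op ι q)) : ∀ A, Free Y I A →
      (∀ x ∈ p, x.1 ≤ d ∧ Free Y I x.2) → pcbQ (Free Y I) H d p.length (A * evp H p * B) := by
  induction p with
  | nil => exact fun A hA _ => ⟨A * B, [], hA.mul hB, le_rfl, by simp, by simp [evp]⟩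
  | cons x p ih =>
    intro A hA hp
    obtain ⟨A', p', h1, h2, h3, h4⟩ := ih x.2 (hp x List.mem_cons_self).2
      fun y hy => hp y (List.mem_cons_of_mem _ hy)
    refine ⟨A, (x.1, A') :: p', hA, by simpa using h2, fun y hy => ?_, ?_⟩
    · rcases List.mem_cons.1 hy with rfl | hy
      · exact ⟨(hp x List.mem_cons_self).1, h1⟩
      · exact h3 y hy
    · rw [pcb_cons, pcb_cons, mul_assoc (H ^ x.1) A', ← h4]
      simp only [mul_assoc]

theorem pcb_words {Y : ℕ → Finset ι} {I : Finset ℕ} (H : Op ι q) {d : ℕ} (Pol : Polynomial ℂ)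
    (hd : Pol.natDegree ≤ d) {κ : ℕ} {M : Op ι q}
    (h : Wd (Free Y I) {Polynomial.aeval H Pol} κ M) :
    SumOf (pcbQ (Free Y I) H d κ) (((d : ℝ) + 1) ^ κ) M := by
  induction h with
  | @free j A hA =>
    refine (SumOf.single ⟨A, [], hA, Nat.zero_le _, by simp, by simp [evp]⟩).mono
      (fun _ h => h) (one_le_pow₀ ?_)
    exact le_add_of_nonneg_left (Nat.cast_nonneg d)
  | @letter A hA =>
    rw [Set.mem_singleton_iff.1 hA, Polynomial.aeval_eq_sum_range' (Nat.lt_succ_of_le hd)]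
    refine (SumOf.sum (N := fun _ => 1) _ fun i hi => SumOf.single ?_).mono (fun _ h => h)
      (by simp)
    refine ⟨Pol.coeff i • 1, [(i, 1)], (Free.one Y I).smul _, le_rfl, fun x hx => ?_, ?_⟩
    · rw [List.mem_singleton.1 hx]
      exact ⟨Nat.le_of_lt_succ (mem_range.1 hi), Free.one Y I⟩
    · simp [evp]
  | @mul i j A B _ _ ih1 ih2 =>
    rw [pow_add]
    refine ih1.mul ih2 ?_
    rintro _ _ ⟨A₁, p₁, a1, a2, a3, rfl⟩ ⟨A₂, p₂, b1, b2, b3, rfl⟩
    obtain ⟨A', p', h1, h2, h3, h4⟩ := pcb_merge H b1 p₁ A₁ a1 a3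
    refine ⟨A', p' ++ p₂, h1, by rw [List.length_append]; omega, fun x hx => ?_, ?_⟩
    · exact (List.mem_append.1 hx).elim (h3 x) (b3 x)
    · rw [← mul_assoc, h4, evp, evp, evp, List.map_append, List.prod_append, mul_assoc]

theorem pcb_sum {Y : ℕ → Finset ι} {I : Finset ℕ} {P : Op ι q → Prop} {D N : ℝ} (h0 : 0 ≤ D)
    (h : ∀ M, P M → MR Y I M D) {M : Op ι q} (hM : SumOf P N M) : MR Y I M (N * D) := by
  obtain ⟨l, h1, h2, rfl⟩ := hM
  have key : MR Y I l.sum (l.length * D) := by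
    clear h2
    induction l with
    | nil => exact MR.zero Y I (by simp)
    | cons a l ih =>
      have h3 := (h a (h1 a List.mem_cons_self)).add
        (ih fun y hy => h1 y (List.mem_cons_of_mem _ hy))
      rw [List.sum_cons, List.length_cons, Nat.cast_succ, add_mul, one_mul, add_comm (_ * D)]
      exact h3
  exact key.mono subset_rfl (mul_le_mul_of_nonneg_right h2 h0)
    (mul_nonneg ((Nat.cast_nonneg _).trans h2) h0)

theorem pcb_split {T : ℕ} (V₀ V₁ : Op ι q) (W : Fin T → Op ι q) (z : Fin T → ℂ) (a : Fin T) :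
    V₀ + V₁ + ∑ b ∈ univ.erase a, z b • W b =
      (V₀ + ∑ b ∈ univ.filter (· < a), z b • W b) +
        (V₁ + ∑ b ∈ univ.filter (a < ·), z b • W b) := by
  have h : (univ.erase a : Finset (Fin T)) = univ.filter (· < a) ∪ univ.filter (a < ·) := by
    ext b
    simp only [mem_erase, mem_univ, and_true, mem_union, mem_filter, true_and]
    exact ⟨fun h => lt_or_gt_of_ne h, fun h => h.elim ne_of_lt ne_of_gt⟩
  have hd : Disjoint (univ.filter (· < a) : Finset (Fin T)) (univ.filter (a < ·)) := by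
    rw [disjoint_filter]
    exact fun b _ h1 h2 => lt_asymm h1 h2
  rw [h, sum_union hd]
  abel

theorem pcb_deg {𝒜 : Type} {d : ℕ} (p : List (ℕ × 𝒜)) (hp : ∀ x ∈ p, x.1 ≤ d) :
    degp p ≤ p.length * d := by
  have h := List.sum_le_card_nsmul (p.map Prod.fst) d fun y hy => by
    obtain ⟨x, hx, rfl⟩ := List.mem_map.1 hy
    exact hp x hx
  rwa [List.length_map, smul_eq_mul] at h

theorem poly_cost {Y : ℕ → Finset ι} {T lo : ℕ} (hT : 1 ≤ T) (V₀ V₁ : Op ι q)
    (W : Fin T → Op ι q) (h₀ : ∀ a : Fin T, Loc (Y (lo + a)) V₀)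
    (h₁ : ∀ a : Fin T, Loc (Y (lo + a))ᶜ V₁)
    (hl : ∀ a b : Fin T, b < a → Loc (Y (lo + a)) (W b))
    (hr : ∀ a b : Fin T, a < b → Loc (Y (lo + a))ᶜ (W b)) {ρ : ℝ} (hρ : 1 ≤ ρ)
    (hW : ∀ a : Fin T, RK (Y (lo + a)) (W a) ρ) {d : ℕ} (Pol : Polynomial ℂ)
    (hd : Pol.natDegree ≤ d) :
    Cost Y (Ico lo (lo + T)) {Polynomial.aeval (V₀ + V₁ + ∑ a, W a) Pol} (pc T d ρ) := by
  intro κ M hM
  have hρ0 : 0 ≤ ρ := by linarith
  refine pcb_sum (by positivity) ?_ (pcb_words _ Pol hd hM)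
  rintro _ ⟨A, p, a1, a2, a3, rfl⟩
  obtain ⟨p₁, hp₁⟩ : ∃ p₁, p₁ = (0, A) :: p := ⟨_, rfl⟩
  have e1 : A * evp (V₀ + V₁ + ∑ a, W a) p = evp (V₀ + V₁ + ∑ a, W a) p₁ := by
    rw [hp₁, pcb_cons, pow_zero, one_mul]
  have l1 : p₁.length ≤ κ + 1 := by rw [hp₁, List.length_cons]; omega
  have f1 : ∀ x ∈ p₁, x.1 ≤ d ∧ Free Y (Ico lo (lo + T)) x.2 := fun x hx => by
    rcases List.mem_cons.1 (hp₁ ▸ hx) with rfl | hx
    · exact ⟨Nat.zero_le _, a1⟩
    · exact a3 x hx
  have d1 : degp p₁ ≤ κ * d := by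
    have h1 : degp p₁ = degp p := by simp [hp₁, degp]
    exact h1.trans_le ((pcb_deg p fun x hx => (a3 x hx).1).trans (Nat.mul_le_mul_right d a2))
  obtain ⟨c, z, hd'⟩ := prog_decomp (V₀ + V₁) W p₁ (κ * d / T)
    (d1.trans_lt (Nat.lt_mul_div_succ _ hT))
  rw [e1, hd']
  have key : ∀ (a : Fin T) (k : Fin T → Fin (degp p₁ + 1)), MR Y (Ico lo (lo + T))
      (c a k • TRp (V₀ + V₁ + ∑ b ∈ univ.erase a, z a k b • W b) (W a) p₁ (κ * d / T))
      ((4 * ((d : ℝ) + 2) ^ 2 * ρ) ^ (κ * d / T) * (24 * ((d : ℝ) + 2) ^ 2) ^ (κ + 1)) := by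
    intro a k
    refine MR.smul ?_ _
    rw [pcb_split]
    have hL : Loc (Y (lo + a)) (V₀ + ∑ b ∈ univ.filter (· < a), z a k b • W b) :=
      (h₀ a).add (Loc.sum _ fun b hb => (hl a b (mem_filter.1 hb).2).smul _)
    have hR : Loc (Y (lo + a))ᶜ (V₁ + ∑ b ∈ univ.filter (a < ·), z a k b • W b) :=
      (h₁ a).add (Loc.sum _ fun b hb => (hr a b (mem_filter.1 hb).2).smul _)
    have hI : ({lo + (a : ℕ)} : Finset ℕ) ⊆ Ico lo (lo + T) :=
      singleton_subset_iff.2 (mem_Ico.2 ⟨by omega, by have := a.2; omega⟩)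
    have htc := prog_count (Y := Y) (I := {lo + (a : ℕ)}) (𝒢 := {W a})
      (hL.commute hR disjoint_compl_right)
      (fun c hc => mem_singleton.1 hc ▸ hL.rk_one)
      (fun c hc => mem_singleton.1 hc ▸ hR.rk_one_compl) (Set.mem_singleton _) p₁
      (fun x hx => ⟨(f1 x hx).1, fun c hc => (f1 x hx).2 c (hI hc)⟩) (κ * d / T)
    have hcb := cost_base (Y := Y) (c := lo + a) (𝒢 := {W a}) hρ
      fun M hM => Set.mem_singleton_iff.1 hM ▸ hW a
    refine (hcb.sumOf (by positivity) htc).mono hI ?_ (by positivity)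
    rw [mul_right_comm, ← mul_pow]
    refine mul_le_mul_of_nonneg_left (pow_le_pow_right₀ ?_ l1) (by positivity)
    nlinarith [Nat.cast_nonneg (α := ℝ) d]
  have h1 := MR.sum (Y := Y) (I := Ico lo (lo + T)) univ
    fun a (_ : a ∈ (univ : Finset (Fin T))) => MR.sum (Y := Y) (I := Ico lo (lo + T)) univ
      fun k (_ : k ∈ (univ : Finset (Fin T → Fin (degp p₁ + 1)))) => key a k
  refine h1.mono (Subset.refl _) ?_ (by positivity)
  simp only [card_univ, Fintype.card_fin, Fintype.card_fun]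
  rw [← mul_assoc]
  refine mul_le_mul_of_nonneg_right (mul_le_mul_of_nonneg_left ?_ (Nat.cast_nonneg _))
    (by positivity)
  exact_mod_cast Nat.pow_le_pow_left (Nat.succ_le_succ d1) T

end Vale.Agent.P356
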