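import Vale.Agent.P356.B.Basic

/-!
Same as `pow_decomp` (see P356/Decomp.lean, reuse its helper lemmas and `interp`) for a product
of powers with factors in between. Define for `φ : (Fin T → ℕ) → ℂ` a weighted word sum with a
continuation, e.g. `WC 0 k φ = k φ`, `WC (e+1) k φ = V * WC e k φ + ∑ a, W a * WC e k (shift a φ)`
and `WP [] φ = φ 0 • 1`, `WP ((e,A) :: p) = WC e (fun φ => A * WP p φ)`. It is linear in `φ`,
depends only on `φ n` with `∑ n ≤ degp p`, `WP p 1 = evp (V + ∑ W) p`, and for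
`φ n = (∏_{b ≠ a} z b ^ n b) * ψ (n a)` with `ψ = [· ≤ τ]` it is `TRp`.
-/

namespace Vale.Agent.P356

open Finset

section

variable {𝒜 : Type} [Ring 𝒜] [Algebra ℂ 𝒜] {T : ℕ} (V : 𝒜) (W : Fin T → 𝒜)

/-- Weighted word sum with a continuation. -/
noncomputable def prgWC (k : ((Fin T → ℕ) → ℂ) →ₗ[ℂ] 𝒜) : ℕ → ((Fin T → ℕ) → ℂ) →ₗ[ℂ] 𝒜
  | 0 => k
  | e + 1 => LinearMap.mulLeft ℂ V ∘ₗ prgWC k e +
      ∑ a, LinearMap.mulLeft ℂ (W a) ∘ₗ prgWC k e ∘ₗ LinearMap.funLeft ℂ ℂ (· + Pi.single a 1)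

/-- Weighted word sum for a product of powers. -/
noncomputable def prgWP : List (ℕ × 𝒜) → ((Fin T → ℕ) → ℂ) →ₗ[ℂ] 𝒜
  | [] => (LinearMap.proj 0).smulRight 1
  | x :: p => prgWC V W (LinearMap.mulLeft ℂ x.2 ∘ₗ prgWP p) x.1

theorem prgWC_succ (k : ((Fin T → ℕ) → ℂ) →ₗ[ℂ] 𝒜) (e : ℕ) (φ : (Fin T → ℕ) → ℂ) :
    prgWC V W k (e + 1) φ =
      V * prgWC V W k e φ + ∑ a, W a * prgWC V W k e fun n => φ (n + Pi.single a 1) := by
  rw [prgWC, LinearMap.add_apply, LinearMap.sum_apply]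
  rfl

theorem prgWC_congr (k : ((Fin T → ℕ) → ℂ) →ₗ[ℂ] 𝒜) {m : ℕ}
    (hk : ∀ φ ψ : (Fin T → ℕ) → ℂ, (∀ n, ∑ b, n b ≤ m → φ n = ψ n) → k φ = k ψ) (e : ℕ) :
    ∀ φ ψ : (Fin T → ℕ) → ℂ, (∀ n, ∑ b, n b ≤ e + m → φ n = ψ n) →
      prgWC V W k e φ = prgWC V W k e ψ := by
  induction e with
  | zero => intro φ ψ h; exact hk φ ψ fun n hn => h n (by omega)
  | succ e ih =>
    intro φ ψ h
    rw [prgWC_succ, prgWC_succ, ih φ ψ fun n hn => h n (by omega)]
    refine congrArg _ (sum_congr rfl fun a _ => congrArg _ (ih _ _ fun n hn => h _ ?_))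
    have h1 : ∑ b, (n + Pi.single a 1 : Fin T → ℕ) b = ∑ b, n b + 1 := by
      simp [sum_add_distrib]
    omega

theorem prgWP_congr (p : List (ℕ × 𝒜)) : ∀ φ ψ : (Fin T → ℕ) → ℂ,
    (∀ n, ∑ b, n b ≤ degp p → φ n = ψ n) → prgWP V W p φ = prgWP V W p ψ := by
  induction p with
  | nil =>
    intro φ ψ h
    show φ 0 • (1 : 𝒜) = ψ 0 • 1
    rw [h 0 (by simp)]
  | cons x p ih =>
    refine prgWC_congr V W _ (m := degp p) (fun φ ψ h => ?_) x.1
    show x.2 * _ = x.2 * _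
    rw [ih φ ψ h]

theorem prgWC_one (k : ((Fin T → ℕ) → ℂ) →ₗ[ℂ] 𝒜) (e : ℕ) :
    (prgWC V W k e fun _ => 1) = (V + ∑ a, W a) ^ e * k fun _ => 1 := by
  induction e with
  | zero => rw [pow_zero, one_mul]; rfl
  | succ e ih => rw [prgWC_succ, ih, pow_succ', mul_assoc, add_mul, sum_mul]

theorem prgWP_one (p : List (ℕ × 𝒜)) :
    (prgWP V W p fun _ => 1) = evp (V + ∑ a, W a) p := by
  induction p with
  | nil => exact one_smul ℂ (1 : 𝒜)
  | cons x p ih =>
    rw [prgWP, prgWC_one, evp, List.map_cons, List.prod_cons, mul_assoc, ← evp, ← ih]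
    rfl

theorem prgWC_G (k : ((Fin T → ℕ) → ℂ) →ₗ[ℂ] 𝒜) (z : Fin T → ℂ) (a : Fin T) (e : ℕ) : ∀ τ,
    prgWC V W k e (decG z a τ) = ∑ j ∈ range (τ + 1),
      EX (V + ∑ b ∈ univ.erase a, z b • W b) (W a) e j * k (decG z a (τ - j)) := by
  induction e with
  | zero => intro τ; simp [prgWC, sum_range_succ', EX]
  | succ e ih =>
    intro τ
    have h1 : ∑ b ∈ univ.erase a, W b * prgWC V W k e (fun n => decG z a τ (n + Pi.single b 1)) =
        (∑ b ∈ univ.erase a, z b • W b) * prgWC V W k e (decG z a τ) := by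
      rw [sum_mul]
      refine sum_congr rfl fun b hb => ?_
      rw [decG_ne z (ne_of_mem_erase hb), map_smul, mul_smul_comm, smul_mul_assoc]
    rw [prgWC_succ, ← sum_erase_add _ _ (mem_univ a), h1, ← add_assoc, ← add_mul, ih]
    cases τ with
    | zero =>
      have h2 : (fun n : Fin T → ℕ => decG z a 0 (n + Pi.single a 1)) = 0 := by
        funext n
        rw [decG_eq, if_neg (by omega), mul_zero, Pi.zero_apply]
      rw [h2, map_zero, mul_zero, add_zero, sum_range_one, sum_range_one, EX, mul_assoc]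
    | succ τ =>
      have h2 : (fun n => decG z a (τ + 1) (n + Pi.single a 1)) = decG z a τ := by
        funext n
        simp only [decG_eq, Nat.add_le_add_iff_right]
        rfl
      rw [h2, ih, sum_range_succ' _ (τ + 1), sum_range_succ' _ (τ + 1), mul_add, mul_sum, mul_sum,
        add_right_comm, ← sum_add_distrib, EX, mul_assoc]
      refine congrArg (· + _) (sum_congr rfl fun j _ => ?_)
      rw [EX, add_mul _ (W a * _), mul_assoc, mul_assoc, Nat.add_sub_add_right]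

theorem prgWP_G (z : Fin T → ℂ) (a : Fin T) (p : List (ℕ × 𝒜)) : ∀ τ,
    prgWP V W p (decG z a τ) = TRp (V + ∑ b ∈ univ.erase a, z b • W b) (W a) p τ := by
  induction p with
  | nil =>
    intro τ
    show decG z a τ 0 • (1 : 𝒜) = 1
    simp [decG]
  | cons x p ih =>
    intro τ
    rw [prgWP, prgWC_G, TRp]
    refine sum_congr rfl fun j _ => ?_
    rw [mul_assoc, ← ih]
    rfl

end

theorem prog_decomp {𝒜 : Type} [Ring 𝒜] [Algebra ℂ 𝒜] {T : ℕ} (V : 𝒜) (W : Fin T → 𝒜)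
    (p : List (ℕ × 𝒜)) (τ : ℕ) (h : degp p < T * (τ + 1)) :
    ∃ (c : Fin T → (Fin T → Fin (degp p + 1)) → ℂ)
      (z : Fin T → (Fin T → Fin (degp p + 1)) → Fin T → ℂ),
      evp (V + ∑ a, W a) p =
        ∑ a, ∑ k, c a k • TRp (V + ∑ b ∈ univ.erase a, z a k b • W b) (W a) p τ := by
  choose lam hl using fun a b : Fin T =>
    interp (degp p) fun m => if b < a then (if τ < m then (1 : ℂ) else 0) else 1
  refine ⟨fun a k => ∏ b, lam a b (k b), fun _ k b => ((k b : ℕ) : ℂ), ?_⟩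
  simp only [← prgWP_G, ← map_smul, ← map_sum]
  rw [← prgWP_one]
  refine prgWP_congr V W p _ _ fun n hn => ?_
  rw [← dec_first (hn.trans_lt h), Finset.sum_apply]
  refine sum_congr rfl fun a _ => ?_
  have h1 : ∀ b, (if b = a then 0 else n b) ≤ degp p := fun b => by
    split_ifs
    · exact Nat.zero_le _
    · exact (single_le_sum (fun _ _ => Nat.zero_le _) (mem_univ b)).trans hn
  simp only [← fun b => hl a b _ (h1 b)]
  rw [prod_univ_sum, Fintype.piFinset_univ, sum_mul, Finset.sum_apply]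
  refine sum_congr rfl fun k _ => ?_
  rw [Pi.smul_apply, smul_eq_mul, decG, prod_mul_distrib, mul_assoc]

end Vale.Agent.P356
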