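import Vale.Agent.P356.B.Basic

/-!
Coarse-grained detectability lemma. Let `l` be the concatenation of the lists `(cls g).toList`,
`g < G` (see `dl_converse` in P356/Boost.lean); `(dl l)^k` is a product of `k G` layers, each the
product over one colour class. Invariant after `j` layers: `Pu * (layers) = Pu * M` with `M` local
on the union of the `X y`, `f y < j`, and `M * Pv = Pv` (for `j ≤ t`). New layer: its factors
commute; those with `f x ≥ j+1` have support disjoint from the `X y` with `f y < j`, so they commute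
with `M` and are absorbed by `Pu`; those with `f x ≤ j` join `M`. (Process a class factor by factor.)
So `Pu * Pv = Pu * (dl l)^k * Pv`; `Shr.mul`, `Shr.pow`.
-/

namespace Vale.Agent.P356

open Finset

variable {ι : Type} [Fintype ι] [DecidableEq ι] {q G : ℕ} {γ : ℝ}

private theorem two_comm (S : Sys ι q G γ) {x y : ι} (h : Disjoint (S.X x) (S.X y)) :
    Commute (1 - S.p x) (1 - S.p y) :=
  ((Loc.one _).sub (S.loc x)).commute ((Loc.one _).sub (S.loc y)) h

private theorem two_cons (S : Sys ι q G γ) (y : ι) (c : List ι) :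
    S.dl (y :: c) = (1 - S.p y) * S.dl c := by
  simp only [Sys.dl, List.map_cons, List.prod_cons]

private theorem two_cls (S : Sys ι q G γ) {y : ι} (c : List ι) (hc : ∀ x ∈ c, S.clr x = S.clr y) :
    Commute (1 - S.p y) (S.dl c) := by
  refine Commute.list_prod_right _ _ fun M hM => ?_
  obtain ⟨x, hx, rfl⟩ := List.mem_map.1 hM
  by_cases e : y = x
  · exact e ▸ Commute.refl _
  · exact two_comm S (S.disj y x e (hc x hx).symm)

/-- The invariant after `j` layers. -/
private def TwoInv (S : Sys ι q G γ) (f : ι → ℕ) (Pu Pv : Op ι q) (j : ℕ) (W : Op ι q) : Prop :=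
  ∃ M : Op ι q, Pu * W = Pu * M ∧ M * Pv = Pv ∧ ∀ x, j + 1 ≤ f x → Commute (1 - S.p x) M

private theorem two_layer (S : Sys ι q G γ) {f : ι → ℕ}
    (hf : ∀ x y, ¬ Disjoint (S.X x) (S.X y) → f x ≤ f y + 1) {Pu Pv : Op ι q} {t j g : ℕ}
    (hu : ∀ x, 0 < f x → Pu * (1 - S.p x) = Pu) (hv : ∀ x, f x < t → (1 - S.p x) * Pv = Pv)
    (hj : j < t) {W : Op ι q} (h : TwoInv S f Pu Pv j W) (c : List ι)
    (hc : ∀ x ∈ c, S.clr x = g) : TwoInv S f Pu Pv (j + 1) (W * S.dl c) := by
  obtain ⟨M, h1, h2, h3⟩ := h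
  have key : ∃ N : Op ι q, Pu * M * S.dl c = Pu * M * N ∧ N * Pv = Pv ∧
      ∀ x, j + 1 + 1 ≤ f x → Commute (1 - S.p x) N := by
    induction c with
    | nil => exact ⟨1, rfl, one_mul _, fun x _ => Commute.one_right _⟩
    | cons y c ih =>
      obtain ⟨N, a1, a2, a3⟩ := ih fun x hx => hc x (List.mem_cons_of_mem _ hx)
      rw [two_cons]
      by_cases hy : j + 1 ≤ f y
      · refine ⟨N, ?_, a2, a3⟩
        rw [← mul_assoc, mul_assoc Pu, ← (h3 y hy).eq, ← mul_assoc, hu y (by omega), a1]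
      · refine ⟨N * (1 - S.p y), ?_, ?_, fun x hx => (a3 x hx).mul_right (two_comm S ?_)⟩
        · rw [(two_cls S c fun x hx => (hc x (List.mem_cons_of_mem _ hx)).trans
            (hc y List.mem_cons_self).symm).eq, ← mul_assoc, a1, mul_assoc]
        · rw [mul_assoc, hv y (by omega), a2]
        · by_contra hd
          have := hf x y hd
          omega
  obtain ⟨N, a1, a2, a3⟩ := key
  refine ⟨M * N, ?_, ?_, fun x hx => (h3 x (by omega)).mul_right (a3 x hx)⟩
  · rw [← mul_assoc, h1, a1, mul_assoc]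
  · rw [mul_assoc, a2, h2]

private theorem two_list (S : Sys ι q G γ) {f : ι → ℕ}
    (hf : ∀ x y, ¬ Disjoint (S.X x) (S.X y) → f x ≤ f y + 1) {Pu Pv : Op ι q} {t : ℕ}
    (hu : ∀ x, 0 < f x → Pu * (1 - S.p x) = Pu) (hv : ∀ x, f x < t → (1 - S.p x) * Pv = Pv)
    (n : ℕ) : ∃ l : List ι, l.Nodup ∧ (∀ x, x ∈ l ↔ S.clr x < n) ∧ ∀ j W, j + n ≤ t →
      TwoInv S f Pu Pv j W → TwoInv S f Pu Pv (j + n) (W * S.dl l) := by
  induction n with
  | zero => exact ⟨[], List.nodup_nil, by simp, fun j W _ h => by simpa [Sys.dl] using h⟩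
  | succ n ih =>
    obtain ⟨l, h1, h2, h3⟩ := ih
    have hm : ∀ x, x ∈ (S.cls n).toList ↔ S.clr x = n := fun x => by simp [Sys.cls]
    refine ⟨l ++ (S.cls n).toList, List.Nodup.append h1 (nodup_toList _) fun x hx hx' => ?_,
      fun x => ?_, fun j W hj h => ?_⟩
    · have := (h2 x).1 hx
      have := (hm x).1 hx'
      omega
    · rw [List.mem_append, h2, hm]
      omega
    · have e : S.dl (l ++ (S.cls n).toList) = S.dl l * S.dl (S.cls n).toList := by
        simp only [Sys.dl, List.map_append, List.prod_append]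
      rw [e, ← mul_assoc]
      exact two_layer S hf hu hv (by omega) (h3 j W (by omega) h) _ fun x hx => (hm x).1 hx

theorem two_set (S : Sys ι q G γ) {δ : ℝ} (hδ : 0 ≤ δ)
    (hdl : ∀ l : List ι, l.Nodup → (∀ t, t ∈ l) → Shr S.Ω (S.dl l) δ) (f : ι → ℕ)
    (hf : ∀ x y, ¬ Disjoint (S.X x) (S.X y) → f x ≤ f y + 1) {Pu Pv : Op ι q} {t k : ℕ}
    (hu : ∀ x, 0 < f x → Pu * (1 - S.p x) = Pu) (hv : ∀ x, f x < t → (1 - S.p x) * Pv = Pv)
    (su : Shr S.Ω Pu 1) (sv : Shr S.Ω Pv 1) (hk : k * G ≤ t) :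
    Shr S.Ω (Pu * Pv) (δ ^ k) := by
  obtain ⟨l, h1, h2, h3⟩ := two_list S hf hu hv G
  have h4 : ∀ i ≤ k, TwoInv S f Pu Pv (i * G) (S.dl l ^ i) := by
    intro i hi
    induction i with
    | zero => exact ⟨1, rfl, one_mul _, fun x _ => Commute.one_right _⟩
    | succ i ih =>
      rw [pow_succ, Nat.succ_mul]
      refine h3 _ _ ?_ (ih (by omega))
      rw [← Nat.succ_mul]
      exact (Nat.mul_le_mul_right G hi).trans hk
  obtain ⟨M, a1, a2, -⟩ := h4 k le_rfl
  have h5 := (su.mul ((hdl l h1 fun x => (h2 x).2 (S.clr_lt x)).pow hδ k) zero_le_one).mul sv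
    (by positivity)
  rwa [a1, mul_assoc, a2, one_mul, mul_one] at h5

end Vale.Agent.P356
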