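import Vale.Agent.P356.B.Rings
import Vale.Agent.P356.B.Two
import Vale.Agent.P356.B.Lay

/-!
Rings `a < m` start at `c a = c₀ + 4 t a` (`ring_op`, choose `P a`, `Pi a`); windows
`I a = Ico (c a + t) (c a + t + t)`. `Pu = ((List.range m).map Pi).prod` (the rings are disjoint, so
the `Pi a` commute and `Pu` absorbs every `x` with `c a < col x < c a + 3t`). Even zones
`V 0 = Y (c₀+t)`, `V a = Y (c a + t) \ Y (c (a-1) + 2t)` for `0 < a < m`, `V m = (Y (c (m-1) + 2t))ᶜ`
(`zone_proj`; disjoint; each is inside or outside every cut of every window, so free);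
`Pv` their product; it absorbs every `x` whose column is in no `[c a + t, c a + 2t]`.
`f x = min (col x - c a) (c a + 3t - col x)` if `c a ≤ col x ≤ c a + 3t` for `a = (col x - c₀)/(4t) < m`
and `0` otherwise (for example `f x = sup over a < m of min (col x - c a) (c a + 3t - col x)` with
truncated subtraction); supports that meet have columns differing by at most one (`left`, `right`).
`two_set`; `K₁ = Lay P (List.range m) B * Pv` (`lay_err`, `lay_fix`), `K = K₁^r`; `lay_mw`,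
`MW.free`, `MW.mul`, `SumOf.mul` (induct on `r`), `mw_cost`.
-/

namespace Vale.Agent.P356

open Finset

variable {ι : Type} [Fintype ι] [DecidableEq ι] {q G : ℕ} {γ : ℝ}

private theorem raw_comm {𝒜 : Type} [Monoid 𝒜] {Q : ℕ → 𝒜} {b : ℕ} {l : List ℕ}
    (hc : ∀ a ∈ b :: l, ∀ a' ∈ b :: l, Commute (Q a) (Q a')) : Commute (Q b) (l.map Q).prod :=
  Commute.list_prod_right _ _ fun x hx => by
    obtain ⟨a, ha, rfl⟩ := List.mem_map.1 hx
    exact hc b List.mem_cons_self a (List.mem_cons_of_mem _ ha)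

private theorem raw_absL {𝒜 : Type} [Monoid 𝒜] {Q : ℕ → 𝒜} {R : 𝒜} {a : ℕ} (h : Q a * R = Q a)
    (l : List ℕ) (hc : ∀ a ∈ l, ∀ b ∈ l, Commute (Q a) (Q b)) (ha : a ∈ l) :
    (l.map Q).prod * R = (l.map Q).prod := by
  induction l with
  | nil => cases ha
  | cons b l ih =>
    rw [List.map_cons, List.prod_cons]
    rcases List.mem_cons.1 ha with rfl | ha
    · rw [(raw_comm hc).eq, mul_assoc, h]
    · rw [mul_assoc, ih (fun x hx y hy =>
        hc x (List.mem_cons_of_mem _ hx) y (List.mem_cons_of_mem _ hy)) ha]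

private theorem raw_absR {𝒜 : Type} [Monoid 𝒜] {Q : ℕ → 𝒜} {R : 𝒜} {a : ℕ} (h : R * Q a = Q a)
    (l : List ℕ) (hc : ∀ a ∈ l, ∀ b ∈ l, Commute (Q a) (Q b)) (ha : a ∈ l) :
    R * (l.map Q).prod = (l.map Q).prod := by
  induction l with
  | nil => cases ha
  | cons b l ih =>
    rw [List.map_cons, List.prod_cons]
    rcases List.mem_cons.1 ha with rfl | ha
    · rw [← mul_assoc, h]
    · rw [(raw_comm hc).eq, ← mul_assoc, ih (fun x hx y hy =>
        hc x (List.mem_cons_of_mem _ hx) y (List.mem_cons_of_mem _ hy)) ha]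

private theorem raw_shr {Ω : St ι q} {Q : ℕ → Op ι q} (l : List ℕ)
    (h : ∀ a ∈ l, (Q a).IsSymmetric ∧ Q a Ω = Ω ∧ Bd (Q a) 1) : Shr Ω (l.map Q).prod 1 := by
  induction l with
  | nil => exact ⟨rfl, fun v hv => ⟨hv, (one_mul _).ge⟩⟩
  | cons b l ih =>
    obtain ⟨h1, h2, h3⟩ := h b List.mem_cons_self
    have hb : Shr Ω (Q b) 1 := ⟨h2, fun v hv => ⟨by rw [← h1, h2, hv], h3 v⟩⟩
    have := hb.mul (ih fun a ha => h a (List.mem_cons_of_mem _ ha)) zero_le_one
    rwa [one_mul] at this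

private theorem raw_free {Y : ℕ → Finset ι} {I : Finset ℕ} {Q : ℕ → Op ι q} (l : List ℕ)
    (h : ∀ a ∈ l, Free Y I (Q a)) : Free Y I (l.map Q).prod := by
  induction l with
  | nil => exact Free.one Y I
  | cons b l ih =>
    exact (h b List.mem_cons_self).mul (ih fun a ha => h a (List.mem_cons_of_mem _ ha))

private theorem raw_col {S : Sys ι q G γ} {A : ℕ} (cu : Cuts S A) {x y : ι}
    (h : ¬ Disjoint (S.X x) (S.X y)) : cu.col y ≤ cu.col x + 1 := by
  by_contra h1
  exact h (disjoint_compl_right.mono (cu.left x (cu.col x + 1) (by omega))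
    (cu.right y _ (not_le.1 h1)))

private theorem raw_even {Jl Δ : ℝ} (S : LSys ι q G γ Jl Δ) {A : ℕ} (cu : Cuts S.toSys A)
    {c : ℕ → ℕ} (hc : Monotone c) (t m : ℕ) : ∃ Pv : Op ι q, Shr S.Ω Pv 1 ∧
      (∀ a < m, Free cu.Y (Ico (c a + t) (c a + t + t)) Pv) ∧
      ∀ x, (∀ a < m, cu.col x < c a + t ∨ c a + t + t < cu.col x) → (1 - S.p x) * Pv = Pv := by
  classical
  obtain ⟨V, hV⟩ : ∃ V : ℕ → Finset ι, ∀ a s, s ∈ V a ↔
      (a < m → s ∈ cu.Y (c a + t)) ∧ ∀ b < a, s ∉ cu.Y (c b + t + t) :=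
    ⟨fun a => univ.filter fun s => (a < m → s ∈ cu.Y (c a + t)) ∧ ∀ b < a, s ∉ cu.Y (c b + t + t),
      fun a s => by simp⟩
  choose Q h1 h2 h3 h4 h5 using fun a => zone_proj S (V a)
  have hd : ∀ a b, a < b → b < m + 1 → Disjoint (V a) (V b) := fun a b hab hb =>
    disjoint_left.2 fun s ha hb' => ((hV b s).1 hb').2 a hab
      (cu.mono (Nat.le_add_right _ _) (((hV a s).1 ha).1 (by omega)))
  refine ⟨((List.range (m + 1)).map Q).prod, raw_shr _ fun a _ => ⟨(h1 a).1, h3 a, h4 a⟩,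
    fun a ha => raw_free _ fun b _ c' hc' => ?_, fun x hx => ?_⟩
  · obtain ⟨e1, e2⟩ := mem_Ico.1 hc'
    rcases le_or_gt b a with h | h
    · exact ((h2 b).mono fun s hs => cu.mono ((Nat.add_le_add_right (hc h) t).trans e1)
        (((hV b s).1 hs).1 (h.trans_lt ha))).rk_one
    · exact ((h2 b).mono fun s hs => mem_compl.2 fun h' =>
        ((hV b s).1 hs).2 a h (cu.mono e2.le h')).rk_one_compl
  · have ex : ∃ a, m ≤ a ∨ cu.col x < c a + t := ⟨m, Or.inl le_rfl⟩
    have e1 := Nat.find_spec ex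
    have e2 : Nat.find ex ≤ m := Nat.find_min' ex (Or.inl le_rfl)
    refine raw_absR (h5 (Nat.find ex) x fun s hs => (hV _ s).2 ⟨fun h => ?_, fun b hb => ?_⟩).2 _
      (fun a ha b hb => ?_) (List.mem_range.2 (Nat.lt_succ_of_le e2))
    · exact cu.left x _ (e1.resolve_left (not_le.2 h)) hs
    · have e3 := not_or.1 (Nat.find_min ex hb)
      exact mem_compl.1 (cu.right x _ ((hx b (not_le.1 e3.1)).resolve_left e3.2) hs)
    · rcases lt_trichotomy a b with h | rfl | h
      · exact (h2 a).commute (h2 b) (hd a b h (List.mem_range.1 hb))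
      · exact Commute.refl _
      · exact (h2 a).commute (h2 b) (hd b a h (List.mem_range.1 ha)).symm

theorem agsp_raw {Jl Δ : ℝ} (hJ : 0 ≤ Jl) (hΔ : 0 < Δ) (S : LSys ι q G γ Jl Δ) {δ : ℝ}
    (hδ : 0 ≤ δ) (hdl : ∀ l : List ι, l.Nodup → (∀ t, t ∈ l) → Shr S.Ω (S.dl l) δ) {A : ℕ}
    (cu : Cuts S.toSys A) {c₀ t m nc i k : ℕ} (ht : 1 ≤ t) (hm : 1 ≤ m) (hnc : 1 ≤ nc)
    (hcol : ∀ c', c₀ ≤ c' → c' ≤ c₀ + 4 * t * m →
      (univ.filter fun y => cu.col y = c').card ≤ nc)
    (hi : Jl * (4 * t * nc) ≤ Δ * 4 ^ i) (hk : k * G ≤ t) (B r : ℕ) :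
    ∃ K : Op ι q, Shr S.Ω K ((δ ^ k + 17 ^ m * (1 / 2) ^ B) ^ r) ∧
      MR cu.Y (Ico c₀ (c₀ + 4 * t * m)) K ((2 * ((B : ℝ) + 1)) ^ (m * r) *
        pc t (2 ^ i) (nc * (q : ℝ) ^ (2 * G)) (2 * B * r / m)) := by
  obtain ⟨c, hc⟩ : ∃ c : ℕ → ℕ, ∀ a, c a = c₀ + 4 * t * a := ⟨_, fun _ => rfl⟩
  have c1 : ∀ a b, a < b → c a + 4 * t ≤ c b := fun a b h => by
    rw [hc, hc, add_assoc, ← Nat.mul_succ]
    exact Nat.add_le_add_left (Nat.mul_le_mul_left _ h) _
  have c0 : ∀ a, c₀ ≤ c a := fun a => hc a ▸ Nat.le_add_right _ _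
  have cm : Monotone c := monotone_nat_of_le_succ fun a =>
    (Nat.le_add_right _ _).trans (c1 a _ a.lt_succ_self)
  rw [← hc m] at hcol ⊢
  have hr := fun (a : ℕ) (ha : a < m) => ring_op hJ hΔ S cu (c := c a) ht hnc
    (fun c' h1 h2 => hcol c' ((c0 a).trans h1) (by have := c1 a m ha; omega)) hi
  choose! P Pi l1 l2 s1 f1 s2 f2 b1 b2 ab hC using hr
  obtain ⟨Pv, sv, fv, av⟩ := raw_even S cu cm t m
  have hd : ∀ a b, a < b → Disjoint (cu.Y (c a + 3 * t) \ cu.Y (c a))
      (cu.Y (c b + 3 * t) \ cu.Y (c b)) := fun a b h => disjoint_left.2 fun s ha hb =>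
    (mem_sdiff.1 hb).2 (cu.mono (by have := c1 a b h; omega) (mem_sdiff.1 ha).1)
  have h2 := two_set S.toSys hδ hdl
    (fun x => (range m).sup fun a => min (cu.col x - c a) (c a + 3 * t - cu.col x))
    (Pu := ((List.range m).map Pi).prod) (Pv := Pv) (t := t) (k := k) (fun x y h => ?_)
    (fun x hx => ?_) (fun x hx => av x fun a ha => ?_)
    (raw_shr _ fun a ha => ⟨s2 a (List.mem_range.1 ha), f2 a (List.mem_range.1 ha),
      b1 a (List.mem_range.1 ha)⟩) sv hk
  · have e1 := lay_err P Pi (List.range m) (fun a ha => b2 a (List.mem_range.1 ha))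
      (fun a ha => b1 a (List.mem_range.1 ha)) B
    have e2 := lay_fix (Ω := S.Ω) P (List.range m)
      (fun a ha => ⟨s1 a (List.mem_range.1 ha), f1 a (List.mem_range.1 ha)⟩) B
    rw [List.length_range] at e1
    have k1 : Shr S.Ω (Lay P (List.range m) B * Pv) (δ ^ k + 17 ^ m * (1 / 2) ^ B) := by
      refine ⟨by rw [Module.End.mul_apply, sv.1, e2.1], fun v hv => ⟨?_, ?_⟩⟩
      · rw [Module.End.mul_apply, e2.2, (sv.2 v hv).1]
      · have n1 := (h2.2 v hv).2
        have n2 := (e1 (Pv v)).trans (mul_le_mul_of_nonneg_left (sv.2 v hv).2 (by positivity))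
        rw [LinearMap.sub_apply] at n2
        rw [Module.End.mul_apply] at n1 ⊢
        have n3 := norm_le_insert (((List.range m).map Pi).prod (Pv v))
          (Lay P (List.range m) B (Pv v))
        linarith
    have m1 := (lay_mw (Y := cu.Y) (I := fun a => Ico (c a + t) (c a + t + t)) (P := P) (m := m)
      (fun a ha b hb hab c' hc' => ?_) (List.range m) (fun a ha => List.mem_range.1 ha) B).mul
        (SumOf.single (MW.free fv 0)) fun _ _ => MW.mul
    · rw [List.length_range, mul_one, add_zero] at m1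
      have m2 : SumOf (MW cu.Y (fun a => Ico (c a + t) (c a + t + t)) P m (2 * B * r))
          (((2 * ((B : ℝ) + 1)) ^ m) ^ r) ((Lay P (List.range m) B * Pv) ^ r) := by
        induction r with
        | zero => exact SumOf.single (MW.free (fun _ _ => Free.one _ _) _)
        | succ r ih => exact ih.mul m1 fun _ _ => MW.mul
      rw [← pow_mul] at m2
      refine ⟨_, k1.pow (by positivity) r, mw_cost hm (fun j => ?_) hC (fun a ha => ?_) m2⟩
      · unfold pc
        positivity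
      · have := c1 a m ha
        exact Ico_subset_Ico ((c0 a).trans (Nat.le_add_right _ _)) (by omega)
    · obtain ⟨e3, e4⟩ := mem_Ico.1 hc'
      rcases lt_or_gt_of_ne hab with h | h
      · have := c1 a b h
        exact ((l1 a ha).mono (sdiff_subset.trans (cu.mono (by omega)))).rk_one
      · have := c1 b a h
        exact ((l1 a ha).mono fun s hs => mem_compl.2 fun h' =>
          (mem_sdiff.1 hs).2 (cu.mono (by omega) h')).rk_one_compl
  · have e1 := raw_col cu h
    have e2 := raw_col cu fun h' => h h'.symm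
    refine Finset.sup_le fun a ha => le_trans ?_ (Nat.add_le_add_right (Finset.le_sup
      (f := fun a => min (cu.col y - c a) (c a + 3 * t - cu.col y)) ha) 1)
    omega
  · obtain ⟨a, ha, h⟩ := Finset.lt_sup_iff.1 hx
    have ha' := mem_range.1 ha
    refine raw_absL (ab a ha' x (by omega) (by omega)) _ (fun a ha b hb => ?_)
      (List.mem_range.2 ha')
    have e1 := l2 a (List.mem_range.1 ha)
    have e2 := l2 b (List.mem_range.1 hb)
    rcases lt_trichotomy a b with h | rfl | h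
    · exact e1.commute e2 (hd a b h)
    · exact Commute.refl _
    · exact e1.commute e2 (hd b a h).symm
  · have h := (Finset.le_sup (f := fun a => min (cu.col x - c a) (c a + 3 * t - cu.col x))
      (mem_range.2 ha)).trans_lt hx
    omega

end Vale.Agent.P356
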