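import Vale.Agent.P356.B.Step

/-!
Strong induction on `l`. Let `k` be least with `l ≤ 2^(16k)`, so `2^(16k) ≤ 2^16 l` and
`Nat.log 2 l + 1 ≥ 16 k - 15` when `k ≥ 1`. For `k < k₂` use `Apx.trivial`, `box_card`
(`q^(l^2) ≤ 2^(q 2^(16 k₂) l)`). For `k ≥ k₂`: `b = W 2^(14k+3) < l`,
`Nat.log 2 b + 1 ≤ 14 k + 5 + Nat.log 2 W ≤ (15/16) (16k - 15)`, `64 (15/16)^76 ≤ 1/2`, and
`C k 2^(16k) ≤ (C'/2) l (log + 1)^76` with `C' ≥ 2^17 C`.
-/

namespace Vale.Agent.P356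

open Finset

private theorem brect_num {C C' x y k P l : ℝ} (hC : 0 ≤ C) (h1 : 2 ^ 17 * C ≤ C') (hx : 0 ≤ x)
    (h2 : 16 * x ≤ 15 * y) (h3 : 1 ≤ y) (hk : 0 ≤ k) (h4 : k ≤ y) (hP : 0 ≤ P)
    (h5 : P ≤ 2 ^ 16 * l) : 64 * (C' * x ^ 76) * l + C * k * P ≤ C' * y ^ 76 * l := by
  have hl : 0 ≤ l := by linarith
  have hC' : 0 ≤ C' := by linarith
  have a1 : x ^ 76 ≤ (15 / 16) ^ 76 * y ^ 76 := by
    rw [← mul_pow]
    exact pow_le_pow_left₀ hx (by linarith) _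
  have a2 : (15 / 16 : ℝ) ^ 76 * y ^ 76 ≤ 1 / 128 * y ^ 76 :=
    mul_le_mul_of_nonneg_right (by norm_num) (pow_nonneg (zero_le_one.trans h3) 76)
  have a3 := mul_le_mul_of_nonneg_left (a1.trans a2) (mul_nonneg hC' hl)
  have a4 : k ≤ y ^ 76 := h4.trans (le_self_pow₀ h3 (by norm_num))
  have a5 : C * k * P ≤ C * y ^ 76 * (2 ^ 16 * l) :=
    mul_le_mul (mul_le_mul_of_nonneg_left a4 hC) h5 hP (mul_nonneg hC (hk.trans a4))
  have a6 := mul_le_mul_of_nonneg_right h1 (mul_nonneg (pow_nonneg (zero_le_one.trans h3) 76) hl)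
  generalize x ^ 76 = X at *
  generalize y ^ 76 = Y at *
  linarith

theorem rect_b (q R G : ℕ) (hq : 1 ≤ q) {γ Jl Δ : ℝ} (hγ : 0 < γ) (hJ : 0 ≤ Jl) (hΔ : 0 < Δ) :
    ∃ C : ℝ, 0 ≤ C ∧ ∀ (L : ℕ) (S : LSys (Site L) q G γ Jl Δ), (∀ t, S.X t = ball R t) →
      ∀ l : ℕ, 1 ≤ l →
        Small S.Ω l (2 ^ (C * ((Nat.log 2 l : ℝ) + 1) ^ 76 * l)) (1 / 2) := by
  obtain ⟨k₁, C, hC, hs⟩ := step_b q R G hq hγ hJ hΔ
  obtain ⟨w, hw⟩ : ∃ w, 2 * R + 1 < 2 ^ w := ⟨_, Nat.lt_two_pow_self⟩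
  obtain ⟨C', hC'⟩ : ∃ C' : ℝ, C' = 2 ^ 17 * C + (q * 2 ^ (16 * (k₁ + w + 20)) : ℕ) := ⟨_, rfl⟩
  have c0 : 0 ≤ C' := by rw [hC']; positivity
  refine ⟨C', c0, fun L S hS l => ?_⟩
  induction l using Nat.strong_induction_on with
  | _ l ih =>
  intro hl
  obtain ⟨n, hn⟩ : ∃ n, n = Nat.log 2 l := ⟨_, rfl⟩
  have n1 : 2 ^ n ≤ l := hn ▸ Nat.pow_log_le_self 2 (by omega)
  have n2 : l < 2 ^ (n + 1) := hn ▸ Nat.lt_pow_succ_log_self one_lt_two l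
  obtain ⟨k, k1, k2⟩ : ∃ k, n + 1 ≤ 16 * k ∧ 16 * k ≤ 16 + n := ⟨n / 16 + 1, by omega, by omega⟩
  have l1 : l ≤ 2 ^ (16 * k) := n2.le.trans (Nat.pow_le_pow_right two_pos k1)
  have y1 : (1 : ℝ) ≤ (n : ℝ) + 1 := le_add_of_nonneg_left (Nat.cast_nonneg n)
  rw [← hn]
  intro x0 x1 y0 y1' hx hy
  rcases lt_or_ge k (k₁ + w + 20) with hk | hk
  · refine (Apx.trivial _ _).mono ?_ (by norm_num)
    have h4 : (box L x0 x1 y0 y1').card ≤ 2 ^ (16 * (k₁ + w + 20)) * l :=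
      (box_card L x0 x1 y0 y1').trans (Nat.mul_le_mul ((by omega : x1 - x0 ≤ l).trans
        (l1.trans (Nat.pow_le_pow_right two_pos (by omega)))) (by omega))
    have h5 : q ^ (box L x0 x1 y0 y1').card ≤ 2 ^ (q * 2 ^ (16 * (k₁ + w + 20)) * l) := by
      rw [mul_assoc, pow_mul]
      exact (Nat.pow_le_pow_right hq h4).trans (Nat.pow_le_pow_left Nat.lt_two_pow_self.le _)
    refine le_trans ?_ (Real.rpow_le_rpow_of_exponent_le one_le_two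
      (y := ((q * 2 ^ (16 * (k₁ + w + 20)) * l : ℕ) : ℝ)) ?_)
    · rw [Real.rpow_natCast]
      exact_mod_cast h5
    · rw [Nat.cast_mul _ l]
      refine mul_le_mul_of_nonneg_right (le_trans ?_ (le_mul_of_one_le_right c0 (one_le_pow₀ y1)))
        (Nat.cast_nonneg l)
      rw [hC']
      exact le_add_of_nonneg_left (by positivity)
  · have b1 : (2 * R + 1) * 2 ^ (14 * k + 3) < 2 ^ (w + (14 * k + 3)) := by
      rw [pow_add 2 w]
      exact Nat.mul_lt_mul_of_pos_right hw (by positivity)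
    have b2 : (2 * R + 1) * 2 ^ (14 * k + 3) < l :=
      b1.trans_le ((Nat.pow_le_pow_right two_pos (by omega)).trans n1)
    have b0 : 0 < (2 * R + 1) * 2 ^ (14 * k + 3) := by positivity
    have b3 := Nat.log_lt_of_lt_pow b0.ne' b1
    have h1 := hs L S hS k l (by omega) b2.le l1 _ (by positivity) (ih _ b2 b0) x0 x1 y0 y1' hx hy
    refine h1.mono (Real.rpow_le_rpow_of_exponent_le one_le_two (brect_num hC ?_ (by positivity)
      ?_ y1 (Nat.cast_nonneg k) ?_ (by positivity) ?_)) le_rfl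
    · rw [hC']
      exact le_add_of_nonneg_right (Nat.cast_nonneg _)
    · exact_mod_cast (by omega : 16 * (Nat.log 2 ((2 * R + 1) * 2 ^ (14 * k + 3)) + 1) ≤ 15 * (n + 1))
    · exact_mod_cast (by omega : k ≤ n + 1)
    · have h2 : 2 ^ (16 * k) ≤ 2 ^ 16 * l :=
        (Nat.pow_le_pow_right two_pos k2).trans (by rw [pow_add]; exact Nat.mul_le_mul_left _ n1)
      exact_mod_cast h2

end Vale.Agent.P356
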