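import Vale.Agent.P356.B.Basic

/-!
`ker_proj`: `Pi = 1 - P` with `P` from `exists_proj` (any `c` bounding the form, finite dimension);
a vector with zero form is in the kernel of a positive symmetric operator.
`sub_approx`: as `agsp_poly` in P356/Poly.lean (reuse its scalar polynomial) with `θ = 4^i` for
`(Δ 4^i)⁻¹ • H`: a real polynomial with value `1` at `0` and absolute value at most `1/2` at the
nonzero eigenvalues (eigenvectors with nonzero eigenvalue are orthogonal to the kernel). Use the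
eigenbasis of `H`; `Pi` is `1` on the kernel vectors and `0` on the others.
-/

namespace Vale.Agent.P356

open Finset

variable {ι : Type} [Fintype ι] [DecidableEq ι] {q G : ℕ} {γ : ℝ}

theorem bsub_sym {M : Op ι q} {n : ℕ} (b : OrthonormalBasis (Fin n) ℂ (St ι q)) (c : Fin n → ℝ)
    (h : ∀ i, M (b i) = (c i : ℂ) • b i) : M.IsSymmetric := by
  classical
  refine ((LinearMap.eq_adjoint_iff _ _).1
    ((LinearMap.eq_adjoint_iff_basis b.toBasis b.toBasis _ _).2 fun i j => ?_) :)
  simp only [OrthonormalBasis.coe_toBasis, h, inner_smul_left, inner_smul_right]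
  by_cases hij : i = j
  · subst hij
    simp
  · simp [b.orthonormal.2 hij]

theorem bsub_bd {M : Op ι q} {n : ℕ} (b : OrthonormalBasis (Fin n) ℂ (St ι q)) (c : Fin n → ℝ)
    (h : ∀ i, M (b i) = (c i : ℂ) • b i) {δ : ℝ} (hδ : 0 ≤ δ) (hc : ∀ i, |c i| ≤ δ) : Bd M δ := by
  intro v
  have hK : M v = ∑ k, (inner ℂ (b k) v * (c k : ℂ)) • b k := by
    conv_lhs => rw [← b.sum_repr' v]
    rw [map_sum]
    refine sum_congr rfl fun k _ => ?_
    rw [map_smul, h k, smul_smul]
  rw [hK]
  refine (sq_le_sq₀ (norm_nonneg _) (by positivity)).1 ?_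
  rw [mul_pow, ← b.sum_sq_norm_inner_right v, ← b.sum_sq_norm_inner_right, mul_sum]
  refine sum_le_sum fun k _ => ?_
  rw [b.orthonormal.inner_right_fintype, norm_mul, mul_pow, mul_comm]
  refine mul_le_mul_of_nonneg_right ?_ (sq_nonneg _)
  rw [Complex.norm_real, Real.norm_eq_abs]
  exact pow_le_pow_left₀ (abs_nonneg _) (hc k) _

theorem ker_proj {U : Finset ι} {H : Op ι q} (hs : H.IsSymmetric) (hl : Loc U H)
    (h0 : ∀ v, 0 ≤ (inner ℂ v (H v)).re) : ∃ Pi, IsKer H Pi ∧ Loc U Pi := by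
  classical
  have _ := h0
  set b := hs.eigenvectorBasis rfl with hb
  set l := hs.eigenvalues rfl with hl'
  have hA : ∀ i, H (b i) = (l i : ℂ) • b i := hs.apply_eigenvectorBasis rfl
  set r : ℂ → ℂ := fun x => ((if x = 0 then 1 else 0 : ℝ) : ℂ) with hr
  set f := Lagrange.interpolate (insert 0 (univ.image fun i => (l i : ℂ))) id r with hf
  have he : ∀ x ∈ insert (0 : ℂ) (univ.image fun i => (l i : ℂ)), f.eval x = r x := fun x hx =>
    Lagrange.eval_interpolate_at_node (v := id) r (Set.injOn_id _) hx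
  have hP : ∀ i, Polynomial.aeval H f (b i) = r (l i) • b i := fun i => by
    rw [Module.End.aeval_apply_of_mem_apply_eq_smul (hA i), he _ (by simp)]
  have hH : H * Polynomial.aeval H f = 0 := b.toBasis.ext fun i => by
    simp only [OrthonormalBasis.coe_toBasis, Module.End.mul_apply, hP, map_smul, hA, smul_smul, hr]
    split_ifs with h <;> simp [h]
  refine ⟨Polynomial.aeval H f, ⟨bsub_sym b _ hP, b.toBasis.ext fun i => ?_,
    fun v => LinearMap.congr_fun hH v, fun v hv => ?_⟩, hl.aeval f⟩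
  · simp only [OrthonormalBasis.coe_toBasis, Module.End.mul_apply, hP, map_smul, smul_smul, hr]
    split_ifs with h <;> simp
  · rw [Module.End.aeval_apply_of_mem_apply_eq_smul (μ := 0) (by rw [hv, zero_smul]),
      he _ (mem_insert_self _ _)]
    simp [hr]

theorem sub_approx {H Pi : Op ι q} {Δ : ℝ} (hΔ : 0 < Δ) {i : ℕ} (hs : H.IsSymmetric)
    (hk : IsKer H Pi) (h0 : ∀ v, 0 ≤ (inner ℂ v (H v)).re)
    (h1 : ∀ v, (inner ℂ v (H v)).re ≤ Δ * 4 ^ i * ‖v‖ ^ 2)
    (hg : ∀ v, (∀ u, H u = 0 → inner ℂ u v = 0) → Δ * ‖v‖ ^ 2 ≤ (inner ℂ v (H v)).re) :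
    ∃ Pol : Polynomial ℂ, Pol.natDegree ≤ 2 ^ i ∧ (Polynomial.aeval H Pol).IsSymmetric ∧
      (∀ v, H v = 0 → Polynomial.aeval H Pol v = v) ∧
      ∀ j, Bd ((Polynomial.aeval H Pol) ^ j - Pi) ((1 / 2) ^ j) := by
  have h4 : (1 : ℝ) ≤ 4 ^ i := one_le_pow₀ (by norm_num)
  have h4' : (0 : ℝ) < 4 ^ i := by positivity
  obtain ⟨Q, hd, hz, hQ⟩ := amp_poly h4 i
  have hhalf : (1 : ℝ) / 2 ≤ 1 / (1 + (4 ^ i - 1) / 4 ^ i) := by
    refine one_div_le_one_div_of_le
      (add_pos_of_pos_of_nonneg one_pos (div_nonneg (by linarith) h4'.le)) ?_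
    have : ((4 : ℝ) ^ i - 1) / 4 ^ i ≤ 1 := (div_le_one h4').2 (by linarith)
    linarith
  let b := hs.eigenvectorBasis rfl
  let l := hs.eigenvalues rfl
  have hb : ∀ k, H (b k) = (l k : ℂ) • b k := fun k => hs.apply_eigenvectorBasis rfl k
  have hn : ∀ k, ‖b k‖ = 1 := fun k => b.orthonormal.1 k
  have hre : ∀ k, (inner ℂ (b k) (H (b k))).re = l k := fun k => by
    rw [hb, inner_smul_right, inner_self_eq_norm_sq_to_K, hn]
    simp
  have hA : ∀ k, l k ≠ 0 → ∀ u, H u = 0 → inner ℂ u (b k) = 0 := fun k hk u hu => by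
    have h2 := hs u (b k)
    rw [hu, inner_zero_left, hb, inner_smul_right] at h2
    exact (mul_eq_zero.1 h2.symm).resolve_left (by exact_mod_cast hk)
  have hPi : ∀ k, Pi (b k) = ((if l k = 0 then 1 else 0 : ℝ) : ℂ) • b k := fun k => by
    split_ifs with h
    · rw [hk.2.2.2 _ (by rw [hb, h, Complex.ofReal_zero, zero_smul]), Complex.ofReal_one, one_smul]
    · rw [Complex.ofReal_zero, zero_smul]
      refine ext_inner_left ℂ fun u => ?_
      rw [← hk.1, hA k h _ (hk.2.2.1 u), inner_zero_right]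
  set R : Polynomial ℝ := (1 - Q).comp (Polynomial.C (Δ * 4 ^ i)⁻¹ * Polynomial.X) with hR
  have hE : ∀ y, R.eval y = 1 - Q.eval (y / (Δ * 4 ^ i)) := fun y => by
    simp [hR, div_eq_inv_mul]
  refine ⟨R.map (algebraMap ℝ ℂ), ?_, bsub_sym b _ fun k => aeval_eig_poly (hb k) R,
    fun v hv => ?_, fun j => ?_⟩
  · refine Polynomial.natDegree_map_le.trans (Polynomial.natDegree_comp_le.trans ?_)
    have h5 : (1 - Q).natDegree ≤ 2 ^ i :=
      (Polynomial.natDegree_sub_le _ _).trans (max_le (by simp) hd)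
    exact (Nat.mul_le_mul h5
      ((Polynomial.natDegree_C_mul_le _ _).trans Polynomial.natDegree_X_le)).trans_eq (mul_one _)
  · rw [aeval_eig_poly (c := 0) (by simp [hv]), hE]
    simp [hz]
  · refine bsub_bd b (fun k => (R ^ j).eval (l k) - if l k = 0 then 1 else 0) (fun k => ?_)
      (by positivity) fun k => ?_
    · rw [← map_pow, ← Polynomial.map_pow, LinearMap.sub_apply, aeval_eig_poly (hb k), hPi,
        Complex.ofReal_sub, sub_smul]
    · rw [Polynomial.eval_pow, hE]
      split_ifs with h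
      · rw [h, zero_div, hz, sub_zero, one_pow, sub_self, abs_zero]
        positivity
      · have a0 := h0 (b k)
        have a1 := h1 (b k)
        have a2 := hg (b k) (hA k h)
        have hp : 0 < Δ * 4 ^ i := by positivity
        rw [hre] at a0 a1 a2
        rw [hn, one_pow, mul_one] at a1 a2
        obtain ⟨c0, c1, c2⟩ := hQ _ (div_nonneg a0 hp.le) ((div_le_one hp).2 a1)
        have c3 := hhalf.trans (c2 (by
          rw [div_le_div_iff₀ h4' hp, one_mul]
          exact mul_le_mul_of_nonneg_right a2 h4'.le))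
        rw [sub_zero, abs_pow, abs_of_nonneg (by linarith)]
        exact pow_le_pow_left₀ (by linarith) (by linarith) _

end Vale.Agent.P356
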