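import Vale.Agent.P356.B.PolyCost
import Vale.Agent.P356.B.Sub

/-!
One ring. `U = Y (c+3t) \ Y c`, `H = ∑ y, a U y`. If `a U y ≠ 0` then `y ∈ U`, and `y ∈ X y`
with `left`/`right` give `c ≤ col y ≤ c+3t`; so at most `(3t+1) nc ≤ 4 t nc` terms are nonzero and the
form of `H` is at most `Jl 4 t nc ≤ Δ 4^i` (if `Jl < 0` the space is trivial by `a_pos`, `a_le`, or
use `hJ`). `ker_proj`, `sub_approx`. For the cost write `H = V₀ + V₁ + ∑ W a` with
`V₀ = ∑_{col y < c+t}`, `V₁ = ∑_{c+2t ≤ col y}`, `W a = ∑_{col y = c+t+a}` (rank at most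
`nc q^(2G)` by `Loc.rk`, `RK.add`), `poly_cost`. Absorption: `a_abs` with `v = Pi w`, so
`p x * Pi = 0`, and by symmetry `Pi * p x = 0`.
`zone_proj`: the same projector for an arbitrary region.
-/

namespace Vale.Agent.P356

open Finset

variable {ι : Type} [Fintype ι] [DecidableEq ι] {q G : ℕ} {γ : ℝ}

private theorem rg_symm {Jl Δ : ℝ} (S : LSys ι q G γ Jl Δ) (U : Finset ι) :
    (∑ y, S.a U y : Op ι q).IsSymmetric := fun u v => by
  simp only [LinearMap.sum_apply, sum_inner, inner_sum]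
  exact sum_congr rfl fun y _ => S.a_symm U y u v

private theorem rg_pos {Jl Δ : ℝ} (S : LSys ι q G γ Jl Δ) (U : Finset ι) (v : St ι q) :
    0 ≤ (inner ℂ v ((∑ y, S.a U y : Op ι q) v)).re := by
  rw [LinearMap.sum_apply, inner_sum, Complex.re_sum]
  exact sum_nonneg fun y _ => S.a_pos U y v

private theorem rg_le {Jl Δ : ℝ} (S : LSys ι q G γ Jl Δ) (U : Finset ι) (v : St ι q) :
    (inner ℂ v ((∑ y, S.a U y : Op ι q) v)).re ≤ U.card * (Jl * ‖v‖ ^ 2) := by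
  rw [← sum_subset (subset_univ U) fun y _ hy => S.a_zero U y hy, LinearMap.sum_apply, inner_sum,
    Complex.re_sum, ← nsmul_eq_mul]
  exact sum_le_card_nsmul _ _ _ fun y _ => S.a_le U y v

private theorem rg_kill {Jl Δ : ℝ} (S : LSys ι q G γ Jl Δ) (U : Finset ι) :
    (∑ y, S.a U y : Op ι q) S.Ω = 0 := by
  rw [LinearMap.sum_apply]
  exact sum_eq_zero fun y _ => S.a_kill U y

private theorem rg_bd {H Pi : Op ι q} (h : IsKer H Pi) : Bd Pi 1 := fun v => by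
  have h1 : Pi (Pi v) = Pi v := LinearMap.congr_fun h.2.1 v
  have h2 : ‖Pi v‖ ^ 2 ≤ ‖v‖ * ‖Pi v‖ := by
    rw [← inner_self_eq_norm_sq (𝕜 := ℂ), h.1, h1]
    exact re_inner_le_norm _ _
  rw [one_mul]
  by_contra hc
  have := norm_nonneg v
  nlinarith [not_le.1 hc]

omit [DecidableEq ι] in
private theorem rg_split {M : Type} [AddCommMonoid M] (f : ι → M) (col : ι → ℕ) (lo t : ℕ) :
    ∑ y, f y = ∑ y with col y < lo, f y + ∑ y with lo + t ≤ col y, f y +
      ∑ a : Fin t, ∑ y with col y = lo + a, f y := by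
  simp only [sum_filter]
  rw [sum_comm, ← sum_add_distrib, ← sum_add_distrib]
  refine sum_congr rfl fun y _ => ?_
  by_cases h1 : col y < lo
  · rw [if_pos h1, if_neg (by omega), sum_eq_zero fun a _ => if_neg (by omega), add_zero,
      add_zero]
  by_cases h2 : lo + t ≤ col y
  · rw [if_neg h1, if_pos h2, sum_eq_zero fun a _ => if_neg (by omega), zero_add, add_zero]
  · rw [if_neg h1, if_neg h2, zero_add, zero_add,
      sum_eq_single (⟨col y - lo, by omega⟩ : Fin t) (fun b _ hb => if_neg fun h =>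
        hb (Fin.ext (by simp only; omega))) (fun h => absurd (mem_univ _) h),
      if_pos (by simp only; omega)]

theorem zone_proj {Jl Δ : ℝ} (S : LSys ι q G γ Jl Δ) (U : Finset ι) :
    ∃ Pi : Op ι q, IsKer (∑ y, S.a U y) Pi ∧ Loc U Pi ∧ Pi S.Ω = S.Ω ∧ Bd Pi 1 ∧
      ∀ x, S.X x ⊆ U → Pi * (1 - S.p x) = Pi ∧ (1 - S.p x) * Pi = Pi := by
  obtain ⟨Pi, hk, hl⟩ := ker_proj (rg_symm S U) (Loc.sum univ fun y _ => S.a_locU U y) (rg_pos S U)
  refine ⟨Pi, hk, hl, hk.2.2.2 _ (rg_kill S U), rg_bd hk, fun x hx => ?_⟩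
  have h1 : ∀ w, S.p x (Pi w) = 0 := fun w => S.a_abs U x _ hx (hk.2.2.1 w)
  have h2 : ∀ w, Pi (S.p x w) = 0 := fun w => by
    rw [← inner_self_eq_zero (𝕜 := ℂ), hk.1, S.symm x, h1, inner_zero_right]
  refine ⟨LinearMap.ext fun w => ?_, LinearMap.ext fun w => ?_⟩
  · rw [Module.End.mul_apply, LinearMap.sub_apply, Module.End.one_apply, map_sub, h2, sub_zero]
  · rw [Module.End.mul_apply, LinearMap.sub_apply, Module.End.one_apply, h1, sub_zero]

theorem ring_op {Jl Δ : ℝ} (hJ : 0 ≤ Jl) (hΔ : 0 < Δ) (S : LSys ι q G γ Jl Δ) {A : ℕ}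
    (cu : Cuts S.toSys A) {c t nc i : ℕ} (ht : 1 ≤ t) (hnc : 1 ≤ nc)
    (hcol : ∀ c', c ≤ c' → c' ≤ c + 3 * t → (univ.filter fun y => cu.col y = c').card ≤ nc)
    (hi : Jl * (4 * t * nc) ≤ Δ * 4 ^ i) :
    ∃ P Pi : Op ι q, Loc (cu.Y (c + 3 * t) \ cu.Y c) P ∧ Loc (cu.Y (c + 3 * t) \ cu.Y c) Pi ∧
      P.IsSymmetric ∧ P S.Ω = S.Ω ∧ Pi.IsSymmetric ∧ Pi S.Ω = S.Ω ∧ Bd Pi 1 ∧
      (∀ j, Bd (P ^ j - Pi) ((1 / 2) ^ j)) ∧
      (∀ x, c < cu.col x → cu.col x < c + 3 * t → Pi * (1 - S.p x) = Pi) ∧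
      Cost cu.Y (Ico (c + t) (c + t + t)) {P} (pc t (2 ^ i) (nc * (q : ℝ) ^ (2 * G))) := by
  set U := cu.Y (c + 3 * t) \ cu.Y c with hU
  obtain ⟨Pi, hk, hl, hΩ, hb, ha⟩ := zone_proj S U
  have hcard : U.card ≤ 4 * t * nc := by
    have h1 : U ⊆ (Icc c (c + 3 * t)).biUnion fun c' => univ.filter fun y => cu.col y = c' := by
      intro y hy
      obtain ⟨h2, h3⟩ := mem_sdiff.1 hy
      refine mem_biUnion.2 ⟨cu.col y, mem_Icc.2 ⟨?_, ?_⟩, mem_filter.2 ⟨mem_univ _, rfl⟩⟩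
      · exact not_lt.1 fun h => h3 (cu.left y c h (S.self y))
      · exact not_lt.1 fun h => mem_compl.1 (cu.right y _ h (S.self y)) h2
    refine (card_le_card h1).trans ((card_biUnion_le_card_mul _ _ nc fun c' hc' =>
      hcol c' (mem_Icc.1 hc').1 (mem_Icc.1 hc').2).trans (Nat.mul_le_mul_right _ ?_))
    rw [Nat.card_Icc]
    omega
  obtain ⟨Pol, hd, hs, hfix, hpow⟩ := sub_approx hΔ (i := i) (rg_symm S U) hk (rg_pos S U)
    (fun v => (rg_le S U v).trans (by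
      have h1 : (U.card : ℝ) ≤ 4 * t * nc := by exact_mod_cast hcard
      rw [← mul_assoc, mul_comm _ Jl]
      exact mul_le_mul_of_nonneg_right ((mul_le_mul_of_nonneg_left h1 hJ).trans hi)
        (sq_nonneg _))) (S.lgap U)
  refine ⟨_, Pi, (Loc.sum univ fun y _ => S.a_locU U y).aeval Pol, hl, hs,
    hfix _ (rg_kill S U), hk.1, hΩ, hb, hpow, fun x h1 h2 => (ha x fun y hy => mem_sdiff.2
      ⟨cu.left x _ h2 hy, mem_compl.1 (cu.right x _ h1 hy)⟩).1, ?_⟩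
  have hq : (1 : ℝ) ≤ q := by exact_mod_cast S.qpos
  rw [rg_split (S.a U) cu.col (c + t) t]
  refine poly_cost ht _ _ _ (fun a => Loc.sum _ fun y hy => (S.a_locX U y).mono (cu.left y _ ?_))
    (fun a => Loc.sum _ fun y hy => (S.a_locX U y).mono (cu.right y _ ?_))
    (fun a b hab => Loc.sum _ fun y hy => (S.a_locX U y).mono (cu.left y _ ?_))
    (fun a b hab => Loc.sum _ fun y hy => (S.a_locX U y).mono (cu.right y _ ?_))
    (one_le_mul_of_one_le_of_one_le (by exact_mod_cast hnc) (one_le_pow₀ hq)) (fun a ψ hψ => ?_)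
    Pol hd
  · have := (mem_filter.1 hy).2
    omega
  · have := (mem_filter.1 hy).2
    omega
  · have := (mem_filter.1 hy).2
    omega
  · have := (mem_filter.1 hy).2
    omega
  · rw [LinearMap.sum_apply]
    refine SR.mono (SumOf.sum _ (N := fun _ => (q : ℝ) ^ (2 * G)) fun y _ =>
      (((S.a_locX U y).rk _).mono (pow_le_pow_right₀ hq
        (Nat.mul_le_mul_left 2 (S.card y)))) ψ hψ) ?_
    rw [sum_const, nsmul_eq_mul]
    exact mul_le_mul_of_nonneg_right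
      (by exact_mod_cast hcol _ (by omega) (by omega)) (by positivity)

end Vale.Agent.P356
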