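import Vale.Agent.P356.B.Core
import Vale.Agent.P356.B.Agsp

/-!
`step_b`: `agsp_b` with `c₂ = 4W(1+16W)`, `c₀ = 1`, `boost`; for `k ≥ k₁` the hypothesis `hs` of
`core_b` holds (`B ≤ 2^β`, `q ≤ 2^q`); `Small.boost` with `u = 30k + 10` (`nF ≤ 4 (2^(16k) + 3)`);
`core_b`; collect exponents: `nF ≤ 16 l / b` because `b ≤ l`, and all other terms are at most a
constant times `k 2^(16k)`.
-/

namespace Vale.Agent.P356

open Finset

private theorem bstep_nat {W b l P k β T : ℕ} (h1 : W ≤ b) (h2 : b ≤ l) (h3 : l ≤ P) (hk : 1 ≤ k)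
    (hP : 1 ≤ P) (hT : T ≤ P) :
    4 * (l / b + 3) * b ≤ 16 * l ∧ 4 * W * (P + 2 * b + W) ≤ 16 * (W * P) ∧
      (β * (4 * W * (b + W) * (30 * k + 10 + 2)) * (4 * (l / b + 3)) * 2 +
        (4 + T + β * (4 * W * (P + 2 * b + W) * (28 * k + 12)))) * 2 ≤
        (22784 * (β * W) + 10) * k * P := by
  have a1 : 4 * (l / b + 3) * b ≤ 16 * l := by
    have := Nat.div_mul_le_self l b
    rw [mul_assoc, add_mul]
    omega
  have a2 : 4 * W * (P + 2 * b + W) ≤ 16 * (W * P) :=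
    (Nat.mul_le_mul_left _ (by omega : P + 2 * b + W ≤ 4 * P)).trans_eq (by ring)
  refine ⟨a1, a2, ?_⟩
  have a3 : P ≤ k * P := Nat.le_mul_of_pos_left _ hk
  have a4 : β * (4 * W * (b + W) * (30 * k + 10 + 2)) * (4 * (l / b + 3)) ≤
      5376 * (β * W * (k * P)) :=
    calc _ ≤ β * (4 * W * (2 * b) * (42 * k)) * (4 * (l / b + 3)) := by gcongr <;> omega
      _ = 336 * (β * W * k) * (4 * (l / b + 3) * b) := by ring
      _ ≤ 336 * (β * W * k) * (16 * P) := Nat.mul_le_mul_left _ (by omega)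
      _ = _ := by ring
  have a5 : β * (4 * W * (P + 2 * b + W) * (28 * k + 12)) ≤ 640 * (β * W * (k * P)) :=
    calc _ ≤ β * (16 * (W * P) * (40 * k)) := by
          gcongr
          omega
      _ = _ := by ring
  have e : (22784 * (β * W) + 10) * k * P = 22784 * (β * W * (k * P)) + 10 * (k * P) := by ring
  omega

private theorem bstep_hs {q β W p k : ℕ} (hq : 1 ≤ q) (hk : 4 + q + 336 * (β * W) ≤ k)
    (hp : p ≤ 16 * (W * 2 ^ (16 * k))) :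
    16 * √((q : ℝ) ^ (2 ^ (32 * k)) * (2 ^ β) ^ (p * (14 * k + 7))) ≤ 2 ^ (2 ^ (40 * k)) := by
  have q1 : (1 : ℝ) ≤ q := Nat.one_le_cast.2 hq
  have q2 : (q : ℝ) ≤ 2 ^ q := by exact_mod_cast Nat.lt_two_pow_self.le
  have k1 : ∀ j, 1 ≤ j → k ≤ 2 ^ (j * k) := fun j hj => Nat.lt_two_pow_self.le.trans
    (Nat.pow_le_pow_right two_pos (Nat.le_mul_of_pos_left _ hj))
  have a1 : β * (p * (14 * k + 7)) ≤ 336 * (β * W) * 2 ^ (32 * k) :=
    calc _ ≤ β * (16 * (W * 2 ^ (16 * k)) * (21 * 2 ^ (16 * k))) := by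
          have := k1 16 (by norm_num)
          gcongr
          omega
      _ = _ := by ring
  have a2 : (4 + q + 336 * (β * W)) * 2 ^ (32 * k) ≤ 2 ^ (40 * k) :=
    (Nat.mul_le_mul_right _ (hk.trans (k1 8 (by norm_num)))).trans_eq (by ring)
  have a3 : 1 ≤ 2 ^ (32 * k) := Nat.one_le_two_pow
  rw [add_mul, add_mul] at a2
  calc _ ≤ 16 * ((q : ℝ) ^ (2 ^ (32 * k)) * (2 ^ β) ^ (p * (14 * k + 7))) :=
        mul_le_mul_of_nonneg_left (Real.sqrt_le_self_iff.2 (Or.inr (one_le_mul_of_one_le_of_one_le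
          (one_le_pow₀ q1) (one_le_pow₀ (one_le_pow₀ one_le_two))))) (by norm_num)
    _ ≤ 2 ^ 4 * (((2 : ℝ) ^ q) ^ (2 ^ (32 * k)) * (2 ^ β) ^ (p * (14 * k + 7))) := by
        gcongr
        norm_num
    _ ≤ _ := by
        rw [← pow_mul, ← pow_mul, ← pow_add, ← pow_add]
        exact pow_le_pow_right₀ one_le_two (by omega)

private theorem bstep_eta {k n : ℕ} (hn : n ≤ 16 * 2 ^ (16 * k)) :
    ((2 : ℝ) ^ (14 * k + 2) + 1) * ((n : ℝ) * (1 / 2) ^ (30 * k + 10)) ≤ 1 / 4 := by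
  have a1 : (2 ^ (14 * k + 2) + 1) * n * 4 ≤ 2 ^ (30 * k + 10) :=
    calc _ ≤ 2 * 2 ^ (14 * k + 2) * (16 * 2 ^ (16 * k)) * 8 := by
          have : 1 ≤ 2 ^ (14 * k + 2) := Nat.one_le_two_pow
          gcongr <;> omega
      _ = _ := by ring
  rw [one_div_pow, ← mul_assoc, mul_one_div, div_le_div_iff₀ (by positivity) (by norm_num), one_mul]
  exact_mod_cast a1

private theorem bstep_real {x y : ℝ} {β e n T f K : ℕ} (h1 : x * (n * 4 : ℕ) ≤ y)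
    (h2 : (β * e * n * 2 + (4 + T + β * f)) * 2 ≤ K) :
    ((((2 : ℝ) ^ x * (2 ^ β) ^ e) ^ n) ^ 2 * (16 * 2 ^ T * (2 ^ β) ^ f)) ^ 2 ≤ 2 ^ (y + K) :=
  calc _ = ((2 : ℝ) ^ x) ^ (n * 4) * 2 ^ ((β * e * n * 2 + (4 + T + β * f)) * 2) := by ring
    _ ≤ 2 ^ y * 2 ^ K := by
        rw [← Real.rpow_natCast ((2 : ℝ) ^ x), ← Real.rpow_mul zero_le_two]
        exact mul_le_mul (Real.rpow_le_rpow_of_exponent_le one_le_two h1)
          (pow_le_pow_right₀ one_le_two h2) (by positivity) (by positivity)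
    _ = _ := by rw [Real.rpow_add two_pos, Real.rpow_natCast]

theorem step_b (q R G : ℕ) (hq : 1 ≤ q) {γ Jl Δ : ℝ} (hγ : 0 < γ) (hJ : 0 ≤ Jl) (hΔ : 0 < Δ) :
    ∃ (k₁ : ℕ) (C : ℝ), 0 ≤ C ∧ ∀ (L : ℕ) (S : LSys (Site L) q G γ Jl Δ),
      (∀ t, S.X t = ball R t) → ∀ k l : ℕ, k₁ ≤ k → (2 * R + 1) * 2 ^ (14 * k + 3) ≤ l →
      l ≤ 2 ^ (16 * k) → ∀ a : ℝ, 0 ≤ a →
      Small S.Ω ((2 * R + 1) * 2 ^ (14 * k + 3))
        (2 ^ (a * (((2 * R + 1) * 2 ^ (14 * k + 3) : ℕ) : ℝ))) (1 / 2) →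
      Small S.Ω l (2 ^ (64 * a * l + C * k * 2 ^ (16 * k))) (1 / 2) := by
  obtain ⟨k₀, hA⟩ := agsp_b q G (4 * (2 * R + 1) * (1 + 16 * (2 * R + 1))) hq
    (Nat.mul_pos (by omega) (by omega)) hγ hJ hΔ
  obtain ⟨B, hB, hb⟩ := boost q G hγ
  obtain ⟨β, hβ⟩ := pow_unbounded_of_one_lt B (one_lt_two (α := ℝ))
  have hB' : (1 : ℝ) ≤ 2 ^ β := one_le_pow₀ one_le_two
  refine ⟨k₀ + (4 + q + 336 * (β * (2 * R + 1))), (22784 * (β * (2 * R + 1)) + 10 : ℕ),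
    Nat.cast_nonneg _, fun L S hS k l hk h1 h2 a ha h => ?_⟩
  have hb' := fun Y χ d w u c1 c2 c3 => (hb _ S.toSys Y χ d w u c1 c2 c3).mono
    (mul_le_mul_of_nonneg_left (pow_le_pow_left₀ (by linarith) hβ.le _) (SumOf.nonneg c1)) le_rfl
  have b1 : 2 * R + 1 ≤ (2 * R + 1) * 2 ^ (14 * k + 3) := Nat.le_mul_of_pos_right _ (by positivity)
  have P1 : 1 ≤ 2 ^ (16 * k) := Nat.one_le_two_pow
  obtain ⟨n1, n2, n3⟩ := bstep_nat (β := β) (T := 2 ^ (15 * k)) b1 h1 h2 (by omega : 1 ≤ k) P1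
    (Nat.pow_le_pow_right two_pos (by omega))
  have h3 := core_b S.toSys hS hB' h2 (fun cu s => hA k (by omega) _ S _ cu 1 s) hb'
    (bstep_hs hq (by omega) n2) (one_le_mul_of_one_le_of_one_le
      (Real.one_le_rpow one_le_two (by positivity)) (one_le_pow₀ hB')) (by positivity)
    (bstep_eta (by have := Nat.div_le_self l ((2 * R + 1) * 2 ^ (14 * k + 3)); omega))
    (Small.boost S.toSys hS hB' hb' h (30 * k + 10))
  intro x0 x1 y0 y1 hx hy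
  refine (h3 x0 x1 y0 y1 hx hy).mono ((bstep_real (y := 64 * a * l) ?_ n3).trans_eq ?_) le_rfl
  · have k1 := mul_le_mul_of_nonneg_left (Nat.cast_le (α := ℝ).2 n1) ha
    generalize 4 * (l / ((2 * R + 1) * 2 ^ (14 * k + 3)) + 3) = n at k1 ⊢
    generalize (2 * R + 1) * 2 ^ (14 * k + 3) = b at k1 ⊢
    push_cast at k1 ⊢
    linarith
  · rw [Nat.cast_mul _ (2 ^ (16 * k)), Nat.cast_mul _ k, Nat.cast_pow, Nat.cast_ofNat]

end Vale.Agent.P356
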